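import Mathlib

/-!
Symmetric operators and their exponentials on a real inner product space.
-/

open Finset NormedSpace
open scoped InnerProductSpace

namespace Vale.Agent.Lib.P162L2

variable {V : Type*} [NormedAddCommGroup V] [InnerProductSpace ℝ V]

lemma op_mul_apply (A B : V →L[ℝ] V) (v : V) : (A * B) v = A (B v) := rfl

lemma op_one_apply (v : V) : (1 : V →L[ℝ] V) v = v := rfl

/-- Symmetric bounded operators. -/
def IsSymm (A : V →L[ℝ] V) : Prop := ∀ v w, ⟪A v, w⟫_ℝ = ⟪v, A w⟫_ℝ

lemma IsSymm.add {A B : V →L[ℝ] V} (hA : IsSymm A) (hB : IsSymm B) : IsSymm (A + B) := by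
  intro v w
  simp [inner_add_left, inner_add_right, hA v w, hB v w]

lemma IsSymm.sub {A B : V →L[ℝ] V} (hA : IsSymm A) (hB : IsSymm B) : IsSymm (A - B) := by
  intro v w
  simp [inner_sub_left, inner_sub_right, hA v w, hB v w]

lemma IsSymm.smul {A : V →L[ℝ] V} (hA : IsSymm A) (c : ℝ) : IsSymm (c • A) := by
  intro v w
  simp [inner_smul_left, inner_smul_right, hA v w]

lemma IsSymm.one : IsSymm (1 : V →L[ℝ] V) := fun _ _ => rfl

lemma IsSymm.zero : IsSymm (0 : V →L[ℝ] V) := fun _ _ => by simp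

lemma IsSymm.sum {ι : Type*} (s : Finset ι) (A : ι → V →L[ℝ] V) (h : ∀ i ∈ s, IsSymm (A i)) :
    IsSymm (∑ i ∈ s, A i) := by
  intro v w
  simp only [_root_.sum_apply, sum_inner, inner_sum]
  exact Finset.sum_congr rfl fun i hi => h i hi v w

lemma IsSymm.mul_comm {A B : V →L[ℝ] V} (hA : IsSymm A) (hB : IsSymm B) (h : A * B = B * A) :
    IsSymm (A * B) := by
  intro v w
  simp only [op_mul_apply]
  rw [hA, hB]
  have : B (A w) = A (B w) := by
    have := congrArg (fun T : V →L[ℝ] V => T w) h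
    simpa using this.symm
  rw [this]

section Exp
variable [CompleteSpace V]

lemma IsSymm.isSelfAdjoint {A : V →L[ℝ] V} (h : IsSymm A) : IsSelfAdjoint A :=
  ContinuousLinearMap.isSelfAdjoint_iff_isSymmetric.2 (fun v w => h v w)

lemma IsSymm.exp {A : V →L[ℝ] V} (h : IsSymm A) : IsSymm (exp A) := by
  have h2 : IsSelfAdjoint (NormedSpace.exp A) := h.isSelfAdjoint.exp
  intro v w
  exact (ContinuousLinearMap.isSelfAdjoint_iff_isSymmetric.1 h2) v w

lemma exp_add_comm {x y : V →L[ℝ] V} (h : Commute x y) : exp (x + y) = exp x * exp y := by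
  let _ : NormedAlgebra ℚ (V →L[ℝ] V) := NormedAlgebra.restrictScalars ℚ ℝ _
  exact exp_add_of_commute h

lemma exp_half (A : V →L[ℝ] V) :
    exp A = exp ((1 / 2 : ℝ) • A) * exp ((1 / 2 : ℝ) • A) := by
  rw [← exp_add_comm (Commute.refl _), ← add_smul]
  norm_num

lemma inner_exp_self {A : V →L[ℝ] V} (hA : IsSymm A) (g : V) :
    ⟪g, exp A g⟫_ℝ = ‖exp ((1 / 2 : ℝ) • A) g‖ ^ 2 := by
  rw [exp_half, op_mul_apply, ← (hA.smul (1 / 2)).exp g,
    real_inner_self_eq_norm_sq]

omit [CompleteSpace V] in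
lemma commute_exp_of_commute {A B : V →L[ℝ] V} (h : A * B = B * A) (a b : ℝ) :
    exp (a • A) * exp (b • B) = exp (b • B) * exp (a • A) := by
  have : Commute (a • A) (b • B) := by
    show (a • A) * (b • B) = (b • B) * (a • A)
    simp only [smul_mul_assoc, mul_smul_comm, h, smul_comm a b]
  exact this.exp

omit [CompleteSpace V] in
lemma exp_mul_of_commute {A B : V →L[ℝ] V} (h : A * B = B * A) (b : ℝ) :
    A * exp (b • B) = exp (b • B) * A := by
  have : Commute A (b • B) := by
    show A * (b • B) = (b • B) * A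
    simp only [smul_mul_assoc, mul_smul_comm, h]
  exact this.exp_right

omit [CompleteSpace V] in
lemma exp_apply_comm {A B : V →L[ℝ] V} (h : A * B = B * A) (b : ℝ) (v : V) :
    A (exp (b • B) v) = exp (b • B) (A v) := by
  have := congrArg (fun T : V →L[ℝ] V => T v) (exp_mul_of_commute h b)
  simpa using this

end Exp

end Vale.Agent.Lib.P162L2
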