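import Vale.Agent.Lib.P162L2.Cross
import Vale.Agent.Lib.P162L2.Ops

/-!
The Lyapunov argument: abstract main lemma on parity sectors.
-/

open Finset NormedSpace
open scoped InnerProductSpace

namespace Vale.Agent.Lib.P162L2

variable {ι : Type*} [Fintype ι] [DecidableEq ι]
variable {V : Type*} [NormedAddCommGroup V] [InnerProductSpace ℝ V]

section proj
variable (P : Finset ι → V →L[ℝ] V) (hPs : ∀ S, IsSymm (P S))
  (hPm : ∀ S T, P S * P T = if S = T then P S else 0)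

omit [Fintype ι] in
include hPm in
lemma P_idem (S : Finset ι) (v : V) : P S (P S v) = P S v := by
  have := congrArg (fun T : V →L[ℝ] V => T v) (hPm S S)
  simpa [op_mul_apply] using this

omit [Fintype ι] in
include hPm in
lemma P_orth {S T : Finset ι} (h : S ≠ T) (v : V) : P S (P T v) = 0 := by
  have := congrArg (fun T : V →L[ℝ] V => T v) (hPm S T)
  simpa [op_mul_apply, h] using this

omit [Fintype ι] in
include hPs hPm in
lemma inner_P_eq (S : Finset ι) (v w : V) : ⟪P S v, w⟫_ℝ = ⟪P S v, P S w⟫_ℝ := by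
  calc ⟪P S v, w⟫_ℝ = ⟪P S (P S v), w⟫_ℝ := by rw [P_idem P hPm]
    _ = ⟪P S v, P S w⟫_ℝ := hPs S _ _

include hPs hPm in
lemma sum_norm_sq_P (hP1 : ∑ S, P S = 1) (v : V) : ∑ S, ‖P S v‖ ^ 2 = ‖v‖ ^ 2 := by
  have h1 : ∀ S, ‖P S v‖ ^ 2 = ⟪P S v, v⟫_ℝ := fun S => by
    rw [inner_P_eq P hPs hPm S v v, real_inner_self_eq_norm_sq]
  simp only [h1]
  rw [← sum_inner, ← real_inner_self_eq_norm_sq]
  congr 1
  have := congrArg (fun T : V →L[ℝ] V => T v) hP1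
  simpa [_root_.sum_apply, op_one_apply] using this

end proj

lemma term_le {β m u : ℝ} (hβ : 0 < β) (hβm : β * m ≤ 1 / 60) (hu1 : 1 ≤ u) (hu2 : u ≤ 2)
    (j : ℕ) (hj : j ≠ 0 → 1 ≤ m) :
    β * ((16 * (j : ℝ) * m + if j = 2 then 1 / (5 / 2 * β) else 0) * u ^ j)
      + β * (u ^ j * (2 * (j : ℝ))) ≤ (j : ℝ) * u ^ (j - 1) := by
  rcases Nat.eq_zero_or_pos j with rfl | hpos
  · simp
  obtain ⟨k, rfl⟩ : ∃ k, j = k + 1 := ⟨j - 1, by omega⟩
  have hm : 1 ≤ m := hj (by omega)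
  have hw : 0 < u ^ k := by positivity
  have hβ1 : β ≤ 1 / 60 := by nlinarith
  simp only [Nat.add_sub_cancel]
  rw [pow_succ]
  set e : ℝ := if k + 1 = 2 then 1 / (5 / 2 * β) else 0 with he
  have hbe : β * e * 2 ≤ if k = 1 then 4 / 5 else 0 := by
    by_cases hk : k = 1
    · subst hk
      simp only [he, Nat.reduceAdd, if_true]
      field_simp
      norm_num
    · have : k + 1 ≠ 2 := by omega
      simp [he, this, hk]
  have hmain : 2 * (β * (16 * ((k + 1 : ℕ) : ℝ) * m + e) + β * (2 * ((k + 1 : ℕ) : ℝ)))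
      ≤ ((k + 1 : ℕ) : ℝ) := by
    push_cast
    have hk0 : (0 : ℝ) ≤ k := Nat.cast_nonneg k
    have h1 : β * m * (16 * ((k : ℝ) + 1)) ≤ 1 / 60 * (16 * ((k : ℝ) + 1)) :=
      mul_le_mul_of_nonneg_right hβm (by positivity)
    have h2 : β * (2 * ((k : ℝ) + 1)) ≤ 1 / 60 * (2 * ((k : ℝ) + 1)) :=
      mul_le_mul_of_nonneg_right hβ1 (by positivity)
    by_cases hk : k = 1
    · subst hk
      simp only [if_true] at hbe
      norm_num at h1 h2 ⊢
      nlinarith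
    · simp only [hk, if_false] at hbe
      nlinarith
  have hcoef : 0 ≤ β * (16 * ((k + 1 : ℕ) : ℝ) * m + e) + β * (2 * ((k + 1 : ℕ) : ℝ)) := by
    have he0 : 0 ≤ e := by
      simp only [he]
      split_ifs <;> positivity
    have : 0 ≤ m := by linarith
    positivity
  calc β * ((16 * ((k + 1 : ℕ) : ℝ) * m + e) * (u ^ k * u)) + β * (u ^ k * u * (2 * ((k + 1 : ℕ) : ℝ)))
      = (β * (16 * ((k + 1 : ℕ) : ℝ) * m + e) + β * (2 * ((k + 1 : ℕ) : ℝ))) * u * u ^ k := by ring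
    _ ≤ (β * (16 * ((k + 1 : ℕ) : ℝ) * m + e) + β * (2 * ((k + 1 : ℕ) : ℝ))) * 2 * u ^ k := by
        apply mul_le_mul_of_nonneg_right _ hw.le
        exact mul_le_mul_of_nonneg_left hu2 hcoef
    _ ≤ ((k + 1 : ℕ) : ℝ) * u ^ k := by
        apply mul_le_mul_of_nonneg_right _ hw.le
        linarith

/-- The pointwise inequality behind the monotonicity of the Lyapunov function. -/
theorem lyap_key
    (P : Finset ι → V →L[ℝ] V) (hPs : ∀ S, IsSymm (P S))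
    (hPm : ∀ S T, P S * P T = if S = T then P S else 0)
    (D : V →L[ℝ] V) (hDp : ∀ v, 0 ≤ ⟪v, D v⟫_ℝ) (hDc : ∀ S, D * P S = P S * D)
    (z : ι × ι → V →L[ℝ] V) (hzs : ∀ p ∈ (od : Finset (ι × ι)), IsSymm (z p))
    (hzn : ∀ p ∈ (od : Finset (ι × ι)), ∀ v, ‖z p v‖ ≤ 4 * ‖v‖)
    (hzD : ∀ v, (1 / 2 : ℝ) * ∑ p ∈ (od : Finset (ι × ι)), ‖z p v‖ ^ 2 ≤ 8 * ⟪v, D v⟫_ℝ)
    (Z : V →L[ℝ] V)
    (hZ : ∀ S, P S * Z = (1 / 2 : ℝ) • ∑ p ∈ (od : Finset (ι × ι)), z p * P (symmDiff S (ed p))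
      + (2 * (S.card : ℝ)) • P S)
    {β κ : ℝ} (hβ : 0 < β) (hβm : β * (Fintype.card ι : ℝ) ≤ 1 / 60) (hκ : 50 * β ^ 2 ≤ κ)
    (h : V) {u : ℝ} (hu1 : 1 ≤ u) (hu2 : u ≤ 2) :
    ∑ S : Finset ι, u ^ S.card * ⟪P S h, (β • Z - κ • D) h⟫_ℝ
      ≤ ∑ S : Finset ι, (S.card : ℝ) * u ^ (S.card - 1) * ‖P S h‖ ^ 2 := by
  classical
  set x : Finset ι → ℝ := fun S => ‖P S h‖ with hx
  set C : Finset ι → ι × ι → ℝ := fun S p => ⟪P S h, z p (P (symmDiff S (ed p)) h)⟫_ℝ with hCdef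
  set ξ : ι × ι → ℝ := fun p => ‖z p (P ∅ h)‖ with hξ
  set Q : Finset ι → ℝ := fun S => ⟪P S h, D (P S h)⟫_ℝ with hQ
  have hQnn : ∀ S, 0 ≤ Q S := fun S => hDp _
  have hexp : ∀ S, ⟪P S h, (β • Z - κ • D) h⟫_ℝ
      = β * ((1 / 2) * ∑ p ∈ (od : Finset (ι × ι)), C S p + 2 * (S.card : ℝ) * x S ^ 2) - κ * Q S := by
    intro S
    have h1 : ⟪P S h, Z h⟫_ℝ
        = (1 / 2) * ∑ p ∈ (od : Finset (ι × ι)), C S p + 2 * (S.card : ℝ) * x S ^ 2 := by
      rw [inner_P_eq P hPs hPm S h (Z h)]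
      have : P S (Z h) = (1 / 2 : ℝ) • ∑ p ∈ (od : Finset (ι × ι)), z p (P (symmDiff S (ed p)) h)
          + (2 * (S.card : ℝ)) • P S h := by
        have := congrArg (fun T : V →L[ℝ] V => T h) (hZ S)
        simpa [op_mul_apply, _root_.sum_apply] using this
      rw [this, inner_add_right, inner_smul_right, inner_smul_right, inner_sum,
        real_inner_self_eq_norm_sq]
    have h2 : ⟪P S h, D h⟫_ℝ = Q S := by
      rw [inner_P_eq P hPs hPm S h (D h)]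
      have : P S (D h) = D (P S h) := by
        have := congrArg (fun T : V →L[ℝ] V => T h) (hDc S)
        simpa [op_mul_apply] using this.symm
      rw [this]
    simp only [sub_apply, smul_apply]
    rw [inner_sub_right, inner_smul_right, inner_smul_right, h1, h2]
  have hC : ∀ S, ∀ p ∈ (od : Finset (ι × ι)), |C S p| ≤ 4 * x S * x (symmDiff S (ed p)) := by
    intro S p hp
    calc |C S p| ≤ ‖P S h‖ * ‖z p (P (symmDiff S (ed p)) h)‖ := abs_real_inner_le_norm _ _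
      _ ≤ ‖P S h‖ * (4 * ‖P (symmDiff S (ed p)) h‖) :=
          mul_le_mul_of_nonneg_left (hzn p hp _) (norm_nonneg _)
      _ = 4 * x S * x (symmDiff S (ed p)) := by simp only [hx]; ring
  have hsym : ∀ S, ∀ p ∈ (od : Finset (ι × ι)), C S p = C (symmDiff S (ed p)) p := by
    intro S p hp
    simp only [hCdef]
    rw [symmDiff_symmDiff_ed, ← hzs p hp, real_inner_comm]
  have hvac : ∀ p ∈ (od : Finset (ι × ι)), |C ∅ p| ≤ ξ p * x (ed p) := by
    intro p hp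
    simp only [hCdef, hξ, hx]
    rw [empty_symmDiff', ← hzs p hp]
    exact abs_real_inner_le_norm _ _
  have hν : (0 : ℝ) < 5 / 2 * β := by positivity
  have hcross := cross_bound x (fun S => norm_nonneg _) C ξ (fun p => norm_nonneg _) hC hsym hvac
    hu1 hu2 hν
  have hξsum : (1 / 2 : ℝ) * ∑ p ∈ (od : Finset (ι × ι)), ξ p ^ 2 ≤ 8 * Q ∅ := hzD (P ∅ h)
  have hA3 : Q ∅ ≤ ∑ S : Finset ι, u ^ S.card * Q S := by
    have hu0 : 0 < u := by linarith
    have := Finset.single_le_sum (f := fun S : Finset ι => u ^ S.card * Q S)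
      (fun S _ => mul_nonneg (by positivity) (hQnn S)) (Finset.mem_univ ∅)
    simpa using this
  have hsum1 : ∑ S : Finset ι, u ^ S.card * ⟪P S h, (β • Z - κ • D) h⟫_ℝ
      = β * ((1 / 2 : ℝ) * ∑ S : Finset ι, ∑ p ∈ (od : Finset (ι × ι)), u ^ S.card * C S p)
        + ∑ S : Finset ι, β * (u ^ S.card * (2 * (S.card : ℝ))) * x S ^ 2
        - κ * ∑ S : Finset ι, u ^ S.card * Q S := by
    simp only [hexp]
    rw [Finset.mul_sum _ _ κ, Finset.mul_sum _ _ (1 / 2 : ℝ), Finset.mul_sum _ _ β,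
      ← Finset.sum_add_distrib, ← Finset.sum_sub_distrib]
    refine Finset.sum_congr rfl fun S _ => ?_
    rw [← Finset.mul_sum]
    ring
  rw [hsum1]
  have hterm : ∀ S : Finset ι,
      β * ((16 * (S.card : ℝ) * (Fintype.card ι : ℝ) + if S.card = 2 then 1 / (5 / 2 * β) else 0)
            * u ^ S.card * x S ^ 2)
        + β * (u ^ S.card * (2 * (S.card : ℝ))) * x S ^ 2
      ≤ (S.card : ℝ) * u ^ (S.card - 1) * ‖P S h‖ ^ 2 := by
    intro S
    have hj : S.card ≠ 0 → (1 : ℝ) ≤ (Fintype.card ι : ℝ) := by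
      intro hne
      have : 1 ≤ S.card := Nat.one_le_iff_ne_zero.mpr hne
      have h2 : S.card ≤ Fintype.card ι := Finset.card_le_univ S
      exact_mod_cast this.trans h2
    have := term_le hβ hβm hu1 hu2 S.card hj
    have hx2 : 0 ≤ x S ^ 2 := by positivity
    have := mul_le_mul_of_nonneg_right this hx2
    calc _ = _ := by ring
      _ ≤ _ := this
  have hfinal := Finset.sum_le_sum (fun S (_ : S ∈ (univ : Finset (Finset ι))) => hterm S)
  rw [Finset.sum_add_distrib, ← Finset.mul_sum] at hfinal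
  have hβ0 : 0 ≤ β := hβ.le
  have h1 := mul_le_mul_of_nonneg_left hcross hβ0
  have h2 : β * ((5 * (5 / 2 * β) / 2) * ((1 / 2 : ℝ) * ∑ p ∈ (od : Finset (ι × ι)), ξ p ^ 2))
      ≤ 50 * β ^ 2 * Q ∅ := by
    have h3 : β * (5 * (5 / 2 * β) / 2) * ((1 / 2 : ℝ) * ∑ p ∈ (od : Finset (ι × ι)), ξ p ^ 2)
        ≤ β * (5 * (5 / 2 * β) / 2) * (8 * Q ∅) :=
      mul_le_mul_of_nonneg_left hξsum (by positivity)
    calc _ = β * (5 * (5 / 2 * β) / 2) * ((1 / 2 : ℝ) * ∑ p ∈ (od : Finset (ι × ι)), ξ p ^ 2) := by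
            ring
      _ ≤ _ := h3
      _ = _ := by ring
  have h4 : 50 * β ^ 2 * Q ∅ ≤ κ * ∑ S : Finset ι, u ^ S.card * Q S := by
    have hκ0 : 0 ≤ κ := le_trans (by positivity) hκ
    calc 50 * β ^ 2 * Q ∅ ≤ κ * Q ∅ := mul_le_mul_of_nonneg_right hκ (hQnn ∅)
      _ ≤ _ := mul_le_mul_of_nonneg_left hA3 hκ0
  rw [mul_add] at h1
  linarith

variable [CompleteSpace V]

/-- The Lyapunov main lemma. -/
theorem main_lemma_abstract
    (P : Finset ι → V →L[ℝ] V) (hPs : ∀ S, IsSymm (P S))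
    (hPm : ∀ S T, P S * P T = if S = T then P S else 0)
    (hP1 : ∑ S, P S = 1)
    (D : V →L[ℝ] V) (hDs : IsSymm D) (hDp : ∀ v, 0 ≤ ⟪v, D v⟫_ℝ) (hDc : ∀ S, D * P S = P S * D)
    (z : ι × ι → V →L[ℝ] V) (hzs : ∀ p ∈ (od : Finset (ι × ι)), IsSymm (z p))
    (hzn : ∀ p ∈ (od : Finset (ι × ι)), ∀ v, ‖z p v‖ ≤ 4 * ‖v‖)
    (hzD : ∀ v, (1 / 2 : ℝ) * ∑ p ∈ (od : Finset (ι × ι)), ‖z p v‖ ^ 2 ≤ 8 * ⟪v, D v⟫_ℝ)
    (Z : V →L[ℝ] V) (hZs : IsSymm Z)
    (hZ : ∀ S, P S * Z = (1 / 2 : ℝ) • ∑ p ∈ (od : Finset (ι × ι)), z p * P (symmDiff S (ed p))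
      + (2 * (S.card : ℝ)) • P S)
    {β κ : ℝ} (hβ : 0 < β) (hβm : β * (Fintype.card ι : ℝ) ≤ 1 / 60) (hκ : 50 * β ^ 2 ≤ κ)
    (g : V) (hg : P ∅ g = g) :
    ⟪g, exp (β • Z - κ • D) g⟫_ℝ ≤ ‖g‖ ^ 2 := by
  classical
  set X : V →L[ℝ] V := β • Z - κ • D with hX
  have hXs : IsSymm X := (hZs.smul β).sub (hDs.smul κ)
  set Y : V →L[ℝ] V := (1 / 2 : ℝ) • X with hY
  set f : ℝ → V := fun t => exp (t • Y) g with hf
  have hfd : ∀ t, HasDerivAt f (Y (f t)) t := by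
    intro t
    have h1 := hasDerivAt_exp_smul_const' (𝕂 := ℝ) Y t
    have h2 : HasDerivAt (fun u : ℝ => (exp (u • Y)) g) ((Y * exp (t • Y)) g) t :=
      (ContinuousLinearMap.apply ℝ V g).hasFDerivAt.comp_hasDerivAt t h1
    exact h2
  set Lam : ℝ → ℝ := fun t => ∑ S : Finset ι, (2 - t) ^ S.card * ‖P S (f t)‖ ^ 2 with hLam
  have hLd : ∀ t, HasDerivAt Lam (∑ S : Finset ι,
      (((S.card : ℝ) * (2 - t) ^ (S.card - 1) * (-1)) * ‖P S (f t)‖ ^ 2
        + (2 - t) ^ S.card * (2 * ⟪P S (f t), P S (Y (f t))⟫_ℝ))) t := by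
    intro t
    apply HasDerivAt.fun_sum
    intro S _
    have h1 : HasDerivAt (fun t : ℝ => (2 - t) ^ S.card)
        ((S.card : ℝ) * (2 - t) ^ (S.card - 1) * (-1)) t := by
      have := ((hasDerivAt_id' t).const_sub 2).fun_pow S.card
      simpa using this
    have h2 : HasDerivAt (fun t => P S (f t)) (P S (Y (f t))) t :=
      (P S).hasFDerivAt.comp_hasDerivAt t (hfd t)
    exact h1.mul h2.norm_sq
  have hderiv_le : ∀ t ∈ Set.Icc (0 : ℝ) 1, (∑ S : Finset ι,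
      (((S.card : ℝ) * (2 - t) ^ (S.card - 1) * (-1)) * ‖P S (f t)‖ ^ 2
        + (2 - t) ^ S.card * (2 * ⟪P S (f t), P S (Y (f t))⟫_ℝ))) ≤ 0 := by
    intro t ht
    have hkey := lyap_key P hPs hPm D hDp hDc z hzs hzn hzD Z hZ hβ hβm hκ (f t)
      (u := 2 - t) (by linarith [ht.2]) (by linarith [ht.1])
    have h2 : ∀ S : Finset ι, 2 * ⟪P S (f t), P S (Y (f t))⟫_ℝ = ⟪P S (f t), X (f t)⟫_ℝ := by
      intro S
      rw [← inner_P_eq P hPs hPm]
      simp only [hY, smul_apply, inner_smul_right]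
      ring
    simp only [h2]
    rw [Finset.sum_add_distrib]
    have h3 : ∑ S : Finset ι, ((S.card : ℝ) * (2 - t) ^ (S.card - 1) * (-1)) * ‖P S (f t)‖ ^ 2
        = - ∑ S : Finset ι, (S.card : ℝ) * (2 - t) ^ (S.card - 1) * ‖P S (f t)‖ ^ 2 := by
      rw [← Finset.sum_neg_distrib]
      refine Finset.sum_congr rfl fun S _ => ?_
      ring
    rw [h3]
    linarith
  have hanti : Lam 1 ≤ Lam 0 := by
    have hcont : ContinuousOn Lam (Set.Icc 0 1) := fun t _ => (hLd t).continuousAt.continuousWithinAt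
    have hdiff : DifferentiableOn ℝ Lam (interior (Set.Icc 0 1)) :=
      fun t _ => (hLd t).differentiableAt.differentiableWithinAt
    have hanti : AntitoneOn Lam (Set.Icc 0 1) := by
      apply antitoneOn_of_deriv_nonpos (convex_Icc 0 1) hcont hdiff
      intro t ht
      rw [(hLd t).deriv]
      exact hderiv_le t (interior_subset ht)
    exact hanti (by simp) (by simp) (by norm_num)
  have hL1 : Lam 1 = ⟪g, exp X g⟫_ℝ := by
    rw [inner_exp_self hXs g]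
    simp only [hLam, hf]
    have : (1 : ℝ) • Y = (1 / 2 : ℝ) • X := by rw [one_smul]
    rw [this]
    have h3 := sum_norm_sq_P P hPs hPm hP1 (exp ((1 / 2 : ℝ) • X) g)
    rw [← h3]
    refine Finset.sum_congr rfl fun S _ => ?_
    norm_num
  have hL0 : Lam 0 = ‖g‖ ^ 2 := by
    simp only [hLam, hf, zero_smul]
    rw [Finset.sum_eq_single ∅]
    · simp [NormedSpace.exp_zero, hg]
    · intro S _ hS
      have : P S g = 0 := by
        rw [← hg]
        exact P_orth P hPm hS g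
      simp [NormedSpace.exp_zero, this]
    · simp
  rw [← hL1, ← hL0]
  exact hanti

end Vale.Agent.Lib.P162L2
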