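import Mathlib

/-!
Parity sector projections built from a multiplicative family `H : Finset ι → Op`.
-/

open Finset
open scoped InnerProductSpace

namespace Vale.Agent.Lib.P162L2

variable {ι : Type*} [Fintype ι] [DecidableEq ι]

/-- Parity character on subsets. -/
noncomputable def chi (S A : Finset ι) : ℝ := (-1 : ℝ) ^ (S ∩ A).card

omit [Fintype ι] in
lemma chi_comm (S A : Finset ι) : chi S A = chi A S := by
  unfold chi; rw [inter_comm]

omit [Fintype ι] in
lemma chi_eq_prod (S A : Finset ι) : chi S A = ∏ y ∈ S, (if y ∈ A then (-1 : ℝ) else 1) := by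
  unfold chi
  rw [Finset.prod_ite_mem]
  simp

omit [Fintype ι] in
lemma chi_symmDiff_right (S A B : Finset ι) : chi S (symmDiff A B) = chi S A * chi S B := by
  simp only [chi_eq_prod]
  rw [← Finset.prod_mul_distrib]
  refine Finset.prod_congr rfl fun y _ => ?_
  by_cases h1 : y ∈ A <;> by_cases h2 : y ∈ B <;> simp [Finset.mem_symmDiff, h1, h2]

omit [Fintype ι] in
lemma chi_symmDiff_left (S T A : Finset ι) : chi (symmDiff S T) A = chi S A * chi T A := by
  rw [chi_comm, chi_symmDiff_right, chi_comm A S, chi_comm A T]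

omit [Fintype ι] in
lemma chi_mul_self (S A : Finset ι) : chi S A * chi S A = 1 := by
  unfold chi
  rw [← mul_pow]; simp

omit [Fintype ι] in
lemma chi_empty_right (S : Finset ι) : chi S ∅ = 1 := by simp [chi]

omit [Fintype ι] in
lemma chi_empty_left (S : Finset ι) : chi ∅ S = 1 := by simp [chi]

omit [Fintype ι] in
lemma chi_singleton_right (S : Finset ι) (y : ι) : chi S {y} = if y ∈ S then -1 else 1 := by
  rw [chi_eq_prod]
  by_cases h : y ∈ S
  · rw [if_pos h, Finset.prod_eq_single_of_mem y h]
    · simp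
    · intro b _ hb
      simp [hb]
  · rw [if_neg h]
    apply Finset.prod_eq_one
    intro b hb
    have : b ≠ y := fun e => h (e ▸ hb)
    simp [this]

lemma sum_chi (S : Finset ι) :
    ∑ A : Finset ι, chi S A = if S = ∅ then (2 : ℝ) ^ Fintype.card ι else 0 := by
  split_ifs with h
  · subst h
    simp [chi_empty_left, Finset.card_univ, Fintype.card_finset]
  · obtain ⟨y, hy⟩ := Finset.nonempty_iff_ne_empty.mpr h
    refine Finset.sum_involution (fun A _ => symmDiff A {y}) ?_ ?_ (fun _ _ => Finset.mem_univ _) ?_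
    · intro A _
      rw [chi_symmDiff_right, chi_singleton_right, if_pos hy]
      ring
    · intro A _ _ hA
      have : y ∈ symmDiff A {y} ↔ y ∈ A := by rw [hA]
      simp [Finset.mem_symmDiff] at this
    · intro A _
      simp

lemma sum_chi_mul (S T : Finset ι) :
    ∑ A : Finset ι, chi S A * chi T A = if S = T then (2 : ℝ) ^ Fintype.card ι else 0 := by
  have : ∀ A : Finset ι, chi S A * chi T A = chi (symmDiff S T) A := fun A =>
    (chi_symmDiff_left S T A).symm
  simp only [this]
  rw [sum_chi]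
  have h : symmDiff S T = ∅ ↔ S = T := by rw [← Finset.bot_eq_empty, symmDiff_eq_bot]
  simp only [h]

lemma sum_chi_left (A : Finset ι) :
    ∑ S : Finset ι, chi S A = if A = ∅ then (2 : ℝ) ^ Fintype.card ι else 0 := by
  simp only [chi_comm _ A]
  exact sum_chi A

variable {V : Type*} [NormedAddCommGroup V] [InnerProductSpace ℝ V]

/-- Parity sector projection. -/
noncomputable def PiS (H : Finset ι → V →L[ℝ] V) (S : Finset ι) : V →L[ℝ] V :=
  ((2 : ℝ) ^ Fintype.card ι)⁻¹ • ∑ A : Finset ι, chi S A • H A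

section
variable (H : Finset ι → V →L[ℝ] V) (hH0 : H ∅ = 1)
  (hHm : ∀ A B, H (symmDiff A B) = H A * H B)

include hHm in
lemma H_mul_PiS (B S : Finset ι) : H B * PiS H S = chi S B • PiS H S := by
  unfold PiS
  rw [mul_smul_comm, smul_comm]
  congr 1
  rw [Finset.mul_sum, Finset.smul_sum]
  have : ∀ A : Finset ι, H B * (chi S A • H A) =
      chi S B • (chi S (symmDiff B A) • H (symmDiff B A)) := by
    intro A
    rw [hHm, chi_symmDiff_right, smul_smul, mul_smul_comm]
    congr 1
    rw [← mul_assoc, chi_mul_self, one_mul]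
  simp only [this]
  exact (symmDiff_right_involutive B).bijective.sum_comp
    (fun C => chi S B • (chi S C • H C))

include hHm in
lemma PiS_mul (S T : Finset ι) : PiS H S * PiS H T = if S = T then PiS H S else 0 := by
  have h1 : PiS H S * PiS H T = ((2 : ℝ) ^ Fintype.card ι)⁻¹ • ∑ A : Finset ι, chi S A • (H A * PiS H T) := by
    unfold PiS
    rw [smul_mul_assoc, Finset.sum_mul]
    simp only [smul_mul_assoc]
  rw [h1]
  simp only [H_mul_PiS H hHm, smul_smul]
  rw [← Finset.sum_smul, sum_chi_mul]
  split_ifs with h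
  · subst h
    rw [smul_smul, inv_mul_cancel₀ (by positivity), one_smul]
  · simp

include hH0 in
lemma sum_PiS : ∑ S : Finset ι, PiS H S = 1 := by
  unfold PiS
  rw [← Finset.smul_sum, Finset.sum_comm]
  simp only [← Finset.sum_smul, sum_chi_left]
  rw [Finset.sum_eq_single ∅]
  · simp [hH0]
  · intro b _ hb
    simp [hb]
  · simp

lemma PiS_mul_conj (z : V →L[ℝ] V) (e : Finset ι) (hz : ∀ A, H A * z = chi e A • (z * H A))
    (S : Finset ι) : PiS H S * z = z * PiS H (symmDiff S e) := by
  unfold PiS
  rw [smul_mul_assoc, mul_smul_comm]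
  congr 1
  rw [Finset.sum_mul, Finset.mul_sum]
  refine Finset.sum_congr rfl fun A _ => ?_
  rw [smul_mul_assoc, hz, mul_smul_comm, smul_smul, chi_symmDiff_left]

lemma PiS_symm (hs : ∀ A v w, ⟪H A v, w⟫_ℝ = ⟪v, H A w⟫_ℝ) (S : Finset ι) (v w : V) :
    ⟪PiS H S v, w⟫_ℝ = ⟪v, PiS H S w⟫_ℝ := by
  unfold PiS
  simp only [smul_apply, _root_.sum_apply, inner_smul_left,
    inner_smul_right, sum_inner, inner_sum, hs]
  simp

lemma PiS_empty_of_fixed (g : V) (hg : ∀ A, H A g = g) : PiS H ∅ g = g := by
  unfold PiS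
  simp only [smul_apply, _root_.sum_apply, chi_empty_left, hg, one_smul]
  rw [Finset.sum_const, Finset.card_univ, Fintype.card_finset, ← Nat.cast_smul_eq_nsmul ℝ, smul_smul]
  push_cast
  rw [inv_mul_cancel₀ (by positivity), one_smul]

end

end Vale.Agent.Lib.P162L2
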