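import Vale.Agent.Lib.P162L2.Rep
import Vale.Agent.Lib.P162L2.Parity
import Vale.Agent.Lib.P162L2.Lyapunov

/-!
STEP A: the recursion on `Perm (Bool × β)`: identity `D - 2 D' = Z`, parity conjugation, the main
lemma for concrete representations.
-/

open Finset NormedSpace Equiv
open scoped InnerProductSpace

namespace Vale.Agent.Lib.P162L2

variable {V : Type*} [NormedAddCommGroup V] [InnerProductSpace ℝ V]
variable {β : Type*} [DecidableEq β]

/-- Action on the slice `b`, as a homomorphism. -/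
def emb (b : Bool) : Perm β →* Perm (Bool × β) where
  toFun ψ := Equiv.Perm.prodExtendRight b ψ
  map_one' := by
    apply Equiv.ext
    rintro ⟨a, y⟩
    by_cases h : a = b
    · subst h; rw [Equiv.Perm.prodExtendRight_apply_eq]; rfl
    · rw [Equiv.Perm.prodExtendRight_apply_ne _ h]; rfl
  map_mul' ψ φ := by
    apply Equiv.ext
    rintro ⟨a, y⟩
    simp only [Perm.mul_apply]
    by_cases h : a = b
    · subst h; simp only [Equiv.Perm.prodExtendRight_apply_eq, Perm.mul_apply]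
    · simp only [Equiv.Perm.prodExtendRight_apply_ne _ h]

lemma emb_apply_eq (b : Bool) (ψ : Perm β) (y : β) : emb b ψ (b, y) = (b, ψ y) :=
  Equiv.Perm.prodExtendRight_apply_eq b ψ y

lemma emb_apply_ne {a b : Bool} (h : a ≠ b) (ψ : Perm β) (y : β) : emb b ψ (a, y) = (a, y) :=
  Equiv.Perm.prodExtendRight_apply_ne ψ h y

lemma emb_swap (b : Bool) (y y' : β) : emb b (swap y y') = swap (b, y) (b, y') := by
  apply Equiv.ext
  rintro ⟨a, w⟩
  by_cases h : a = b
  · subst h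
    rw [emb_apply_eq]
    by_cases h1 : w = y
    · subst h1; simp
    · by_cases h2 : w = y'
      · subst h2; simp
      · rw [swap_apply_of_ne_of_ne h1 h2, swap_apply_of_ne_of_ne] <;> simp [h1, h2]
  · rw [emb_apply_ne h, swap_apply_of_ne_of_ne] <;> simp [h]

lemma emb_commute (ψ φ : Perm β) : emb false ψ * emb true φ = emb true φ * emb false ψ := by
  apply Equiv.ext
  rintro ⟨a, w⟩
  have e1 : ∀ (φ : Perm β) (w : β), emb true φ (false, w) = (false, w) :=
    fun φ w => emb_apply_ne (by simp) φ w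
  have e2 : ∀ (φ : Perm β) (w : β), emb false φ (true, w) = (true, w) :=
    fun φ w => emb_apply_ne (by simp) φ w
  cases a
  · simp only [Perm.mul_apply, e1, emb_apply_eq]
  · simp only [Perm.mul_apply, e2, emb_apply_eq]

/-- Flips along the fibres according to coins. -/
def flipP (c : β → Bool) : Perm (Bool × β) where
  toFun x := (xor x.1 (c x.2), x.2)
  invFun x := (xor x.1 (c x.2), x.2)
  left_inv x := by
    rcases x with ⟨a, u⟩
    simp
  right_inv x := by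
    rcases x with ⟨a, u⟩
    simp

lemma flipP_apply (c : β → Bool) (b : Bool) (y : β) : flipP c (b, y) = (xor b (c y), y) := rfl

lemma flipP_mul (c c' : β → Bool) : flipP c * flipP c' = flipP (fun y => xor (c y) (c' y)) := by
  apply Equiv.ext
  rintro ⟨a, w⟩
  simp only [Perm.mul_apply, flipP_apply]
  cases a <;> cases c w <;> cases c' w <;> rfl

/-- Flip on a set of fibres. -/
def flipOn (A : Finset β) : Perm (Bool × β) := flipP (fun y => decide (y ∈ A))

lemma flipOn_apply (A : Finset β) (b : Bool) (y : β) :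
    flipOn A (b, y) = (xor b (decide (y ∈ A)), y) := rfl

lemma flipOn_empty : flipOn (∅ : Finset β) = 1 := by
  apply Equiv.ext
  rintro ⟨a, w⟩
  simp [flipOn_apply]

lemma flipOn_symmDiff (A B : Finset β) : flipOn (symmDiff A B) = flipOn A * flipOn B := by
  unfold flipOn
  rw [flipP_mul]
  congr 1
  funext y
  by_cases h1 : y ∈ A <;> by_cases h2 : y ∈ B <;> simp [Finset.mem_symmDiff, h1, h2]

lemma flipOn_singleton (y : β) : flipOn {y} = swap (false, y) (true, y) := by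
  apply Equiv.ext
  rintro ⟨a, w⟩
  rw [flipOn_apply]
  by_cases h : w = y
  · subst h
    cases a <;> simp
  · rw [swap_apply_of_ne_of_ne] <;> simp [h]

lemma flipOn_invol (A : Finset β) : flipOn A * flipOn A = 1 := by
  rw [← flipOn_symmDiff]
  simp [flipOn_empty]

section rep
variable (ρ : Perm (Bool × β) →* (V →L[ℝ] V))

/-- The parity group operators. -/
noncomputable def HH (A : Finset β) : V →L[ℝ] V := ρ (flipOn A)

lemma HH_empty : HH ρ (∅ : Finset β) = 1 := by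
  simp [HH, flipOn_empty]

lemma HH_symmDiff (A B : Finset β) : HH ρ (symmDiff A B) = HH ρ A * HH ρ B := by
  simp [HH, flipOn_symmDiff]

/-- The interaction operators. -/
noncomputable def zz (y y' : β) : V →L[ℝ] V :=
  ∑ b : Bool, (ρ (swap (b, y) (b, y')) - ρ (swap (b, y) (!b, y')))

lemma zz_expand (y y' : β) : zz ρ y y' =
    ρ (swap (false, y) (false, y')) - ρ (swap (false, y) (true, y'))
    + (ρ (swap (true, y) (true, y')) - ρ (swap (true, y) (false, y'))) := by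
  unfold zz
  rw [Fintype.sum_bool]
  simp
  abel

omit [DecidableEq β] in
lemma sum_sum_eq_od [Fintype β] [DecidableEq β] {E : Type*} [AddCommMonoid E] (f : β → β → E) :
    ∑ y, ∑ y', f y y' = ∑ p ∈ (od : Finset (β × β)), f p.1 p.2 + ∑ y, f y y := by
  rw [← Finset.sum_product', add_comm]
  show ∑ x ∈ (univ : Finset β) ×ˢ (univ : Finset β), _ = _
  rw [← Finset.diag_union_offDiag, Finset.sum_union (Finset.disjoint_diag_offDiag _), Finset.sum_diag]

lemma HH_mul_swap (A : Finset β) (a b : Bool × β) :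
    HH ρ A * ρ (swap a b) = ρ (swap (flipOn A a) (flipOn A b)) * HH ρ A :=
  rho_mul_swap ρ _ a b

lemma HH_mul_zz (A : Finset β) {y y' : β} (hne : y ≠ y') :
    HH ρ A * zz ρ y y' = chi ({y, y'} : Finset β) A • (zz ρ y y' * HH ρ A) := by
  rw [zz_expand]
  simp only [mul_add, mul_sub, add_mul, sub_mul, HH_mul_swap, flipOn_apply]
  have hchi : chi ({y, y'} : Finset β) A
      = (if y ∈ A then -1 else 1) * (if y' ∈ A then -1 else 1) := by
    rw [chi_eq_prod, Finset.prod_pair hne]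
  rw [hchi]
  by_cases h1 : y ∈ A <;> by_cases h2 : y' ∈ A <;> simp [h1, h2] <;> abel

end rep

section orth
variable {ρ : Perm (Bool × β) →* (V →L[ℝ] V)}

lemma HH_symm (hρ : IsOrth ρ) (A : Finset β) : IsSymm (HH ρ A) :=
  rho_symm_of_invol hρ (flipOn_invol A)

lemma zz_symm (hρ : IsOrth ρ) (y y' : β) : IsSymm (zz ρ y y') := by
  rw [zz_expand]
  exact (((swap_symm hρ _ _).sub (swap_symm hρ _ _)).add ((swap_symm hρ _ _).sub (swap_symm hρ _ _)))

lemma zz_norm (hρ : IsOrth ρ) (y y' : β) (v : V) : ‖zz ρ y y' v‖ ≤ 4 * ‖v‖ := by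
  rw [zz_expand]
  have h : (ρ (swap (false, y) (false, y')) - ρ (swap (false, y) (true, y'))
      + (ρ (swap (true, y) (true, y')) - ρ (swap (true, y) (false, y')))) v
      = ρ (swap (false, y) (false, y')) v - ρ (swap (false, y) (true, y')) v
      + (ρ (swap (true, y) (true, y')) v - ρ (swap (true, y) (false, y')) v) := rfl
  rw [h]
  calc _ ≤ ‖ρ (swap (false, y) (false, y')) v - ρ (swap (false, y) (true, y')) v‖
        + ‖ρ (swap (true, y) (true, y')) v - ρ (swap (true, y) (false, y')) v‖ := norm_add_le _ _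
    _ ≤ (‖ρ (swap (false, y) (false, y')) v‖ + ‖ρ (swap (false, y) (true, y')) v‖)
        + (‖ρ (swap (true, y) (true, y')) v‖ + ‖ρ (swap (true, y) (false, y')) v‖) :=
        add_le_add (norm_sub_le _ _) (norm_sub_le _ _)
    _ = 4 * ‖v‖ := by simp only [rho_norm hρ]; ring

/-- Four terms of `zz`, as deviations from the identity. -/
lemma zz_norm_sq_le (hρ : IsOrth ρ) (y y' : β) (v : V) :
    ‖zz ρ y y' v‖ ^ 2 ≤ 8 * ∑ b : Bool, ∑ b' : Bool, ⟪v, (1 - ρ (swap (b, y) (b', y'))) v⟫_ℝ := by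
  simp only [Fintype.sum_bool]
  set a1 := (1 - ρ (swap (true, y) (true, y'))) v with ha1
  set a2 := (1 - ρ (swap (true, y) (false, y'))) v with ha2
  set a3 := (1 - ρ (swap (false, y) (true, y'))) v with ha3
  set a4 := (1 - ρ (swap (false, y) (false, y'))) v with ha4
  have hz : zz ρ y y' v = (a2 - a1) + (a3 - a4) := by
    rw [zz_expand]
    simp only [ha1, ha2, ha3, ha4]
    show ρ (swap (false, y) (false, y')) v - ρ (swap (false, y) (true, y')) v
      + (ρ (swap (true, y) (true, y')) v - ρ (swap (true, y) (false, y')) v)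
      = ((v - ρ (swap (true, y) (false, y')) v) - (v - ρ (swap (true, y) (true, y')) v))
        + ((v - ρ (swap (false, y) (true, y')) v) - (v - ρ (swap (false, y) (false, y')) v))
    abel
  have q1 := one_sub_form hρ (true, y) (true, y') v
  have q2 := one_sub_form hρ (true, y) (false, y') v
  have q3 := one_sub_form hρ (false, y) (true, y') v
  have q4 := one_sub_form hρ (false, y) (false, y') v
  rw [← ha1] at q1
  rw [← ha2] at q2
  rw [← ha3] at q3
  rw [← ha4] at q4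
  have hn : ‖zz ρ y y' v‖ ≤ ‖a1‖ + ‖a2‖ + ‖a3‖ + ‖a4‖ := by
    rw [hz]
    calc _ ≤ ‖a2 - a1‖ + ‖a3 - a4‖ := norm_add_le _ _
      _ ≤ (‖a2‖ + ‖a1‖) + (‖a3‖ + ‖a4‖) := add_le_add (norm_sub_le _ _) (norm_sub_le _ _)
      _ = _ := by ring
  have hs : (‖a1‖ + ‖a2‖ + ‖a3‖ + ‖a4‖) ^ 2 ≤ 4 * (‖a1‖ ^ 2 + ‖a2‖ ^ 2 + ‖a3‖ ^ 2 + ‖a4‖ ^ 2) := by
    nlinarith [sq_nonneg (‖a1‖ - ‖a2‖), sq_nonneg (‖a1‖ - ‖a3‖), sq_nonneg (‖a1‖ - ‖a4‖),
      sq_nonneg (‖a2‖ - ‖a3‖), sq_nonneg (‖a2‖ - ‖a4‖), sq_nonneg (‖a3‖ - ‖a4‖)]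
  have h0 : 0 ≤ ‖zz ρ y y' v‖ := norm_nonneg _
  have h2 : ‖zz ρ y y' v‖ ^ 2 ≤ (‖a1‖ + ‖a2‖ + ‖a3‖ + ‖a4‖) ^ 2 := by
    exact pow_le_pow_left₀ h0 hn 2
  rw [q1, q2, q3, q4] at hs
  linarith

end orth

section fin
variable [Fintype β] (ρ : Perm (Bool × β) →* (V →L[ℝ] V))

/-- The interaction operator `Z`. -/
noncomputable def ZZ : V →L[ℝ] V := (1 / 2 : ℝ) • ∑ y, ∑ y', zz ρ y y'

lemma sum_sum_prod {E : Type*} [AddCommMonoid E] (F : Bool × β → Bool × β → E) :
    ∑ a, ∑ a', F a a' = ∑ y, ∑ y', ∑ b : Bool, ∑ b' : Bool, F (b, y) (b', y') := by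
  simp only [Fintype.sum_prod_type]
  rw [Finset.sum_comm]
  refine Finset.sum_congr rfl fun y _ => ?_
  have : ∀ b : Bool, ∑ b' : Bool, ∑ y', F (b, y) (b', y') = ∑ y', ∑ b' : Bool, F (b, y) (b', y') :=
    fun b => Finset.sum_comm
  simp only [this]
  rw [Finset.sum_comm]

lemma casimir_emb (b : Bool) :
    casimir (ρ.comp (emb b)) univ = (1 / 2 : ℝ) • ∑ y, ∑ y', (1 - ρ (swap (b, y) (b, y'))) := by
  rw [casimir_eq]
  simp only [MonoidHom.comp_apply, emb_swap]

/-- The exact identity `D - 2 D' = Z`. -/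
lemma casimir_decomp :
    casimir ρ univ - (2 : ℝ) • (casimir (ρ.comp (emb false)) univ + casimir (ρ.comp (emb true)) univ)
      = ZZ ρ := by
  rw [casimir_emb, casimir_emb, casimir_eq, sum_sum_prod]
  unfold ZZ
  simp only [zz_expand, Fintype.sum_bool]
  simp only [Finset.sum_add_distrib, Finset.sum_sub_distrib]
  module

lemma ZZ_eq : ZZ ρ = (1 / 2 : ℝ) • ∑ p ∈ (od : Finset (β × β)), zz ρ p.1 p.2
    + ∑ y, (1 - ρ (swap (false, y) (true, y))) := by
  unfold ZZ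
  rw [sum_sum_eq_od, smul_add]
  congr 1
  rw [Finset.smul_sum]
  refine Finset.sum_congr rfl fun y _ => ?_
  rw [zz_expand, swap_comm (true, y) (false, y)]
  have h : ∀ b : Bool, ρ (swap (b, y) (b, y)) = 1 := fun b => by
    rw [swap_self]; exact map_one ρ
  rw [h, h]
  module

variable {ρ}

lemma ZZ_symm (hρ : IsOrth ρ) : IsSymm (ZZ ρ) := by
  unfold ZZ
  apply IsSymm.smul
  apply IsSymm.sum
  intro y _
  apply IsSymm.sum
  intro y' _
  exact zz_symm hρ y y'

/-- The parity sector projections of the representation. -/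
noncomputable abbrev PP (ρ : Perm (Bool × β) →* (V →L[ℝ] V)) (S : Finset β) : V →L[ℝ] V :=
  PiS (HH ρ) S

lemma PP_mul_zz {y y' : β} (hne : y ≠ y') (S : Finset β) :
    PP ρ S * zz ρ y y' = zz ρ y y' * PP ρ (symmDiff S ({y, y'} : Finset β)) :=
  PiS_mul_conj (HH ρ) _ _ (fun A => HH_mul_zz ρ A hne) S

lemma PP_mul_HH (S B : Finset β) : PP ρ S * HH ρ B = chi S B • PP ρ S := by
  have h := PiS_mul_conj (HH ρ) (HH ρ B) (∅ : Finset β) (fun A => by
    rw [chi_empty_left, one_smul, ← HH_symmDiff, ← HH_symmDiff, symmDiff_comm]) S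
  rw [← Finset.bot_eq_empty, symmDiff_bot] at h
  rw [h]
  exact H_mul_PiS (HH ρ) (HH_symmDiff ρ) B S

lemma PP_mul_tau (S : Finset β) (y : β) :
    PP ρ S * (1 - ρ (swap (false, y) (true, y))) = (if y ∈ S then (2 : ℝ) else 0) • PP ρ S := by
  have h : ρ (swap (false, y) (true, y)) = HH ρ {y} := by simp [HH, flipOn_singleton]
  rw [h, mul_sub, mul_one, PP_mul_HH, chi_singleton_right]
  split_ifs <;> module

lemma PP_mul_ZZ (S : Finset β) :
    PP ρ S * ZZ ρ = (1 / 2 : ℝ) • ∑ p ∈ (od : Finset (β × β)), zz ρ p.1 p.2 * PP ρ (symmDiff S (ed p))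
      + (2 * (S.card : ℝ)) • PP ρ S := by
  rw [ZZ_eq, mul_add, mul_smul_comm, Finset.mul_sum, Finset.mul_sum]
  congr 1
  · congr 1
    exact Finset.sum_congr rfl fun p hp => PP_mul_zz (mem_od.1 hp) S
  · simp only [PP_mul_tau]
    rw [← Finset.sum_smul]
    congr 1
    rw [Finset.sum_ite_mem]
    simp [mul_comm]

lemma casimir_mul_PP (S : Finset β) : casimir ρ univ * PP ρ S = PP ρ S * casimir ρ univ := by
  show casimir ρ univ * PiS (HH ρ) S = PiS (HH ρ) S * casimir ρ univ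
  unfold PiS
  rw [smul_mul_assoc, mul_smul_comm]
  congr 1
  rw [Finset.sum_mul, Finset.mul_sum]
  refine Finset.sum_congr rfl fun A _ => ?_
  rw [smul_mul_assoc, mul_smul_comm]
  congr 1
  exact (rho_commute_casimir_univ ρ _).symm

lemma zz_sum_le (hρ : IsOrth ρ) (v : V) :
    (1 / 2 : ℝ) * ∑ p ∈ (od : Finset (β × β)), ‖zz ρ p.1 p.2 v‖ ^ 2 ≤ 8 * ⟪v, casimir ρ univ v⟫_ℝ := by
  rw [casimir_form, sum_sum_prod]
  have h1 : ∑ p ∈ (od : Finset (β × β)), ‖zz ρ p.1 p.2 v‖ ^ 2 ≤ ∑ y, ∑ y', ‖zz ρ y y' v‖ ^ 2 := by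
    rw [sum_sum_eq_od]
    have : 0 ≤ ∑ y, ‖zz ρ y y v‖ ^ 2 := Finset.sum_nonneg fun _ _ => by positivity
    linarith
  have h2 : ∑ y, ∑ y', ‖zz ρ y y' v‖ ^ 2
      ≤ ∑ y, ∑ y', 8 * ∑ b : Bool, ∑ b' : Bool, ⟪v, (1 - ρ (swap (b, y) (b', y'))) v⟫_ℝ :=
    Finset.sum_le_sum fun y _ => Finset.sum_le_sum fun y' _ => zz_norm_sq_le hρ y y' v
  simp only [← Finset.mul_sum] at h2
  linarith

theorem casimir_main [CompleteSpace V] (hρ : IsOrth ρ) {β₀ κ : ℝ} (hβ : 0 < β₀)
    (hβm : β₀ * (Fintype.card β : ℝ) ≤ 1 / 60) (hκ : 50 * β₀ ^ 2 ≤ κ) (g : V)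
    (hg : ∀ A : Finset β, ρ (flipOn A) g = g) :
    ⟪g, exp (β₀ • ZZ ρ - κ • casimir ρ univ) g⟫_ℝ ≤ ‖g‖ ^ 2 :=
  main_lemma_abstract (PP ρ) (fun S v w => PiS_symm (HH ρ) (HH_symm hρ) S v w)
    (PiS_mul (HH ρ) (HH_symmDiff ρ)) (sum_PiS (HH ρ) (HH_empty ρ))
    (casimir ρ univ) (casimir_isSymm hρ univ) (casimir_nonneg hρ univ) casimir_mul_PP
    (fun p => zz ρ p.1 p.2) (fun _ _ => zz_symm hρ _ _) (fun _ _ v => zz_norm hρ _ _ v)
    (zz_sum_le hρ) (ZZ ρ) (ZZ_symm hρ) PP_mul_ZZ hβ hβm hκ g (PiS_empty_of_fixed (HH ρ) g hg)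

lemma casimir_mul_ZZ : casimir ρ univ * ZZ ρ = ZZ ρ * casimir ρ univ := by
  have h := casimir_decomp ρ
  unfold ZZ
  rw [smul_mul_assoc, mul_smul_comm]
  congr 1
  rw [Finset.sum_mul, Finset.mul_sum]
  refine Finset.sum_congr rfl fun y _ => ?_
  rw [Finset.sum_mul, Finset.mul_sum]
  refine Finset.sum_congr rfl fun y' _ => ?_
  rw [zz_expand]
  simp only [mul_add, add_mul, mul_sub, sub_mul, ← rho_commute_casimir_univ ρ]

theorem casimir_consequence [CompleteSpace V] (hρ : IsOrth ρ) {β₀ κ : ℝ} (hβ : 0 < β₀)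
    (hβm : β₀ * (Fintype.card β : ℝ) ≤ 1 / 60) (hκ : 50 * β₀ ^ 2 ≤ κ) (g : V)
    (hg : ∀ A : Finset β, ρ (flipOn A) g = g) :
    ⟪g, exp ((-(2 * β₀)) • (casimir (ρ.comp (emb false)) univ + casimir (ρ.comp (emb true)) univ)) g⟫_ℝ
      ≤ ⟪g, exp ((-(β₀ - κ)) • casimir ρ univ) g⟫_ℝ := by
  set D := casimir ρ univ with hD
  have hDs : IsSymm D := casimir_isSymm hρ univ
  set X := β₀ • ZZ ρ - κ • D with hX
  set A := (-(β₀ - κ)) • D with hA
  set Y := (1 / 2 : ℝ) • A with hY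
  have hAs : IsSymm A := hDs.smul _
  have hYs : IsSymm Y := hAs.smul _
  have hdec := casimir_decomp ρ
  have hsum : (-(2 * β₀)) • (casimir (ρ.comp (emb false)) univ + casimir (ρ.comp (emb true)) univ)
      = Y + (X + Y) := by
    rw [hX, hY, hA, ← hdec, ← hD]
    module
  have hYD : Y = ((1 / 2 : ℝ) * (-(β₀ - κ))) • D := by
    rw [hY, hA, smul_smul]
  have hcDZ : D * ZZ ρ = ZZ ρ * D := casimir_mul_ZZ
  have hcXY : Commute X Y := by
    show X * Y = Y * X
    rw [hYD, hX]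
    simp only [sub_mul, mul_sub, smul_mul_assoc, mul_smul_comm, hcDZ]
    module
  have hcYXY : Commute Y (X + Y) := (hcXY.symm).add_right (Commute.refl Y)
  rw [hsum, exp_add_comm hcYXY, exp_add_comm hcXY]
  simp only [op_mul_apply]
  rw [← hYs.exp g]
  have hg' : ∀ B : Finset β, ρ (flipOn B) (exp Y g) = exp Y g := by
    intro B
    rw [hYD, exp_apply_comm (rho_commute_casimir_univ ρ (flipOn B)), hg]
  have hmain := casimir_main hρ hβ hβm hκ (exp Y g) hg'
  calc _ ≤ ‖exp Y g‖ ^ 2 := hmain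
    _ = _ := (inner_exp_self hAs g).symm

end fin

end Vale.Agent.Lib.P162L2
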