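import Vale.Agent.Lib.P162L2.Vell
set_option linter.unusedSectionVars false
set_option linter.deprecated false

/-!
Thorp shuffle, `L2` route, Step C: the dimension count for the left regular representation:
`finrank (Vell (leftReg α) ℓ) ≤ n ^ (2 ℓ)`.
-/

open scoped InnerProductSpace
open Equiv Finset

namespace Vale.Agent.Lib.P162L2.C

variable {α : Type*} [Fintype α] [DecidableEq α]

/-- The indicator of `{σ : ∀ i, σ⁻¹ (x i) = y i}`. -/
noncomputable def cylInd {l : ℕ} (p : (Fin l → α) × (Fin l → α)) : L2Perm α :=
  WithLp.toLp 2 (fun σ : Perm α => if (fun i => σ⁻¹ (p.1 i)) = p.2 then (1 : ℝ) else 0)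

/-- An element of `Inv (leftReg α) U` is unchanged by permutations supported on `U`. -/
theorem inv_apply_of_subtype {U : Finset α} {f : L2Perm α} (hf : f ∈ Inv (leftReg α) U)
    (p : Perm {a // a ∈ U}) (σ : Perm α) :
    f (Perm.ofSubtype p * σ) = f σ := by
  induction p using Equiv.Perm.swap_induction_on with
  | one => simp
  | swap_mul q a b hab ih =>
    have hq := hf a.1 a.2 b.1 b.2
    have h1 : Perm.ofSubtype (swap a b * q) = swap a.1 b.1 * Perm.ofSubtype q := by
      rw [map_mul, Perm.ofSubtype_swap_eq]
    have h2 : (leftReg α (swap a.1 b.1) f) (swap a.1 b.1 * (Perm.ofSubtype q * σ))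
        = f (swap a.1 b.1 * (Perm.ofSubtype q * σ)) := by
      rw [show leftReg α (swap a.1 b.1) f = f from hq]
    rw [leftReg_apply, swap_inv] at h2
    have h3 : swap a.1 b.1 * (swap a.1 b.1 * (Perm.ofSubtype q * σ)) = Perm.ofSubtype q * σ := by
      rw [← mul_assoc, swap_mul_self, one_mul]
    rw [h3] at h2
    rw [h1, mul_assoc, ← h2, ih]

/-- Two permutations with the same inverse on the complement of `U` take the same value. -/
theorem inv_apply_eq {U : Finset α} {f : L2Perm α} (hf : f ∈ Inv (leftReg α) U)
    {σ τ : Perm α} (h : ∀ a, a ∉ U → σ⁻¹ a = τ⁻¹ a) : f σ = f τ := by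
  set g : Perm α := τ * σ⁻¹ with hg
  have hfix : ∀ a, g a ≠ a → a ∈ U := by
    intro a ha
    by_contra hU
    apply ha
    have := h a hU
    show τ (σ⁻¹ a) = a
    rw [this]
    simp
  let p : Perm {a // a ∈ U} := g.subtypePerm (by
    intro a
    constructor
    · intro ha
      by_contra hn
      have h1 : g a = a := by
        by_contra he
        exact hn (hfix a he)
      rw [h1] at ha
      exact hn ha
    · intro ha
      by_contra hn
      have h1 : g (g a) = g a := by
        by_contra he
        exact hn (hfix (g a) he)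
      have h2 : g a = a := g.injective h1
      rw [h2] at hn
      exact hn ha)
  have hp : Perm.ofSubtype p = g := Perm.ofSubtype_subtypePerm _ hfix
  have := inv_apply_of_subtype hf p σ
  rw [hp, hg, mul_assoc, inv_mul_cancel, mul_one] at this
  exact this.symm

/-- `Inv U` is contained in the span of the cylinder indicators when `|Uᶜ| = l`. -/
theorem inv_le_span {l : ℕ} {U : Finset α} (hU : (Uᶜ).card = l) :
    Inv (leftReg α) U ≤
      Submodule.span ℝ (Set.range (cylInd (α := α) (l := l))) := by
  classical
  intro f hf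
  let e : {a // a ∈ Uᶜ} ≃ Fin l := Finset.equivFinOfCardEq hU
  let x : Fin l → α := fun i => (e.symm i).1
  have hx : ∀ a, a ∉ U → ∃ i, x i = a := by
    intro a ha
    refine ⟨e ⟨a, by simpa using ha⟩, ?_⟩
    simp [x]
  let κ : Perm α → (Fin l → α) := fun σ i => σ⁻¹ (x i)
  have hκ : ∀ σ τ : Perm α, κ σ = κ τ → f σ = f τ := by
    intro σ τ h
    apply inv_apply_eq hf
    intro a ha
    obtain ⟨i, rfl⟩ := hx a ha
    exact congrFun h i
  let c : (Fin l → α) → ℝ := fun y =>
    if h : ∃ σ, κ σ = y then f (Classical.choose h) else 0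
  have hc : ∀ σ, c (κ σ) = f σ := by
    intro σ
    have h : ∃ τ, κ τ = κ σ := ⟨σ, rfl⟩
    simp only [c, dif_pos h]
    exact hκ _ _ (Classical.choose_spec h)
  have hsum : f = ∑ y : Fin l → α, c y • cylInd (x, y) := by
    ext σ
    have h1 : (∑ y : Fin l → α, c y • cylInd (x, y) : L2Perm α) σ =
        ∑ y : Fin l → α, c y * (if κ σ = y then (1 : ℝ) else 0) := by
      simp [cylInd, κ, Finset.sum_apply]
    rw [h1]
    simp only [mul_ite, mul_one, mul_zero, Finset.sum_ite_eq, Finset.mem_univ, if_true]
    exact (hc σ).symm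
  rw [hsum]
  exact Submodule.sum_mem _ fun y _ =>
    Submodule.smul_mem _ _ (Submodule.subset_span ⟨(x, y), rfl⟩)

/-- **Count**: the dimension of `V_ℓ` in the left regular representation. -/
theorem finrank_Vell_leftReg (l : ℕ) (hl : l ≤ Fintype.card α) :
    Module.finrank ℝ (Vell (leftReg α) l) ≤ (Fintype.card α) ^ (2 * l) := by
  classical
  have hle : Vell (leftReg α) l ≤
      Submodule.span ℝ (Set.range (cylInd (α := α) (l := l))) := by
    unfold Vell
    refine iSup₂_le ?_
    intro U hU
    have hc : U.card = Fintype.card α - l := (Finset.mem_powersetCard.1 hU).2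
    apply inv_le_span
    rw [Finset.card_compl, hc]
    omega
  calc Module.finrank ℝ (Vell (leftReg α) l)
      ≤ Module.finrank ℝ (Submodule.span ℝ (Set.range (cylInd (α := α) (l := l)))) :=
        Submodule.finrank_mono hle
    _ ≤ Fintype.card ((Fin l → α) × (Fin l → α)) := finrank_range_le_card _
    _ = (Fintype.card α) ^ (2 * l) := by
        rw [Fintype.card_prod, Fintype.card_fun, Fintype.card_fin, pow_mul', sq]

end Vale.Agent.Lib.P162L2.C
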