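import Mathlib

/-!
Pure real inequality behind the Lyapunov argument: weighted cross terms between parity sectors.
-/

open Finset

namespace Vale.Agent.Lib.P162L2

variable {ι : Type*} [Fintype ι] [DecidableEq ι]

/-- The edge of an ordered pair. -/
abbrev ed (p : ι × ι) : Finset ι := {p.1, p.2}

omit [Fintype ι] in
lemma ed_card {p : ι × ι} (hp : p.1 ≠ p.2) : (ed p).card = 2 := by
  simp [ed, Finset.card_pair hp]

omit [Fintype ι] in
lemma symmDiff_symmDiff_ed (S : Finset ι) (p : ι × ι) : symmDiff (symmDiff S (ed p)) (ed p) = S := by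
  simp

omit [Fintype ι] in
lemma card_symmDiff_none {S : Finset ι} {p : ι × ι} (hp : p.1 ≠ p.2) (h1 : p.1 ∉ S) (h2 : p.2 ∉ S) :
    (symmDiff S (ed p)).card = S.card + 2 := by
  have hd : Disjoint S (ed p) := by
    rw [Finset.disjoint_left]; intro a ha hb
    simp only [ed, mem_insert, mem_singleton] at hb
    rcases hb with rfl | rfl
    · exact h1 ha
    · exact h2 ha
  have : symmDiff S (ed p) = S ∪ ed p := by
    ext a
    simp only [Finset.mem_symmDiff, mem_union]
    constructor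
    · rintro (h | h)
      · exact Or.inl h.1
      · exact Or.inr h.1
    · rintro (h | h)
      · exact Or.inl ⟨h, fun hb => (Finset.disjoint_left.mp hd h) hb⟩
      · exact Or.inr ⟨h, fun hb => (Finset.disjoint_left.mp hd hb) h⟩
  rw [this, Finset.card_union_of_disjoint hd, ed_card hp]

omit [Fintype ι] in
lemma card_symmDiff_both {S : Finset ι} {p : ι × ι} (hp : p.1 ≠ p.2) (h1 : p.1 ∈ S) (h2 : p.2 ∈ S) :
    (symmDiff S (ed p)).card + 2 = S.card := by
  have hsub : ed p ⊆ S := by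
    intro a ha
    simp only [ed, mem_insert, mem_singleton] at ha
    rcases ha with rfl | rfl <;> assumption
  have : symmDiff S (ed p) = S \ ed p := by
    ext a
    simp only [Finset.mem_symmDiff, mem_sdiff]
    constructor
    · rintro (h | h)
      · exact h
      · exact absurd (hsub h.1) h.2
    · intro h; exact Or.inl h
  rw [this, Finset.card_sdiff_of_subset hsub, ed_card hp]
  have := Finset.card_le_card hsub
  rw [ed_card hp] at this
  omega

omit [Fintype ι] in
lemma card_symmDiff_one {S : Finset ι} {p : ι × ι} (hp : p.1 ≠ p.2)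
    (h : (p.1 ∈ S ∧ p.2 ∉ S) ∨ (p.1 ∉ S ∧ p.2 ∈ S)) :
    (symmDiff S (ed p)).card = S.card := by
  rcases h with ⟨h1, h2⟩ | ⟨h1, h2⟩
  · have : symmDiff S (ed p) = insert p.2 (S.erase p.1) := by
      ext a
      simp only [Finset.mem_symmDiff, ed, mem_insert, mem_singleton, mem_erase]
      by_cases ha1 : a = p.1
      · subst ha1; simp [h1, hp]
      · by_cases ha2 : a = p.2
        · subst ha2; simp [h2, hp.symm]
        · simp [ha1, ha2]
    rw [this, Finset.card_insert_of_notMem (by simp [h2]), Finset.card_erase_of_mem h1]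
    have : 0 < S.card := Finset.card_pos.mpr ⟨_, h1⟩
    omega
  · have : symmDiff S (ed p) = insert p.1 (S.erase p.2) := by
      ext a
      simp only [Finset.mem_symmDiff, ed, mem_insert, mem_singleton, mem_erase]
      by_cases ha1 : a = p.1
      · subst ha1; simp [h1, hp]
      · by_cases ha2 : a = p.2
        · subst ha2; simp [h2, hp.symm]
        · simp [ha1, ha2]
    rw [this, Finset.card_insert_of_notMem (by simp [h1]), Finset.card_erase_of_mem h2]
    have : 0 < S.card := Finset.card_pos.mpr ⟨_, h2⟩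
    omega

/-- Young ratio between the sectors of sizes `j` and `k`. -/
noncomputable def rr (m : ℝ) (j k : ℕ) : ℝ :=
  if k = j + 2 then ((j : ℝ) + 1) / m else if j = k + 2 then m / ((k : ℝ) + 1) else 1

lemma rr_pos {m : ℝ} (hm : 0 < m) (j k : ℕ) : 0 < rr m j k := by
  unfold rr; split_ifs <;> positivity

lemma rr_mul_rr {m : ℝ} (hm : 0 < m) (j k : ℕ) : rr m j k * rr m k j = 1 := by
  unfold rr
  by_cases h1 : k = j + 2
  · have h2 : ¬ j = k + 2 := by omega
    rw [if_pos h1, if_neg h2, if_pos h1]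
    have : (j : ℝ) + 1 ≠ 0 := by positivity
    field_simp
  · by_cases h2 : j = k + 2
    · rw [if_neg h1, if_pos h2, if_pos h2]
      have : (k : ℝ) + 1 ≠ 0 := by positivity
      field_simp
    · rw [if_neg h1, if_neg h2, if_neg h2, if_neg h1]; norm_num

/-- Ordered pairs of distinct elements. -/
abbrev od : Finset (ι × ι) := (univ : Finset ι).offDiag

lemma mem_od {p : ι × ι} : p ∈ (od : Finset (ι × ι)) ↔ p.1 ≠ p.2 := by
  simp [od, Finset.mem_offDiag]

/-- Reindexing the double sum by `S ↦ S ∆ ed p`. -/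
lemma sum_symmDiff_reindex (F : Finset ι → ι × ι → ℝ) :
    ∑ S : Finset ι, ∑ p ∈ (od : Finset (ι × ι)), F (symmDiff S (ed p)) p
      = ∑ S : Finset ι, ∑ p ∈ (od : Finset (ι × ι)), F S p := by
  rw [Finset.sum_comm]
  conv_rhs => rw [Finset.sum_comm]
  refine Finset.sum_congr rfl fun p _ => ?_
  have hinv : Function.Involutive (fun S : Finset ι => symmDiff S (ed p)) :=
    fun S => symmDiff_symmDiff_ed S p
  exact Equiv.sum_comp (hinv.toPerm) (fun S => F S p)

/-- The Young majorant of a cross term. -/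
noncomputable def Phi (u m : ℝ) (x : Finset ι → ℝ) (S : Finset ι) (p : ι × ι) : ℝ :=
  if S ≠ ∅ ∧ symmDiff S (ed p) ≠ ∅ then
    2 * (u ^ S.card + u ^ (symmDiff S (ed p)).card) * rr m S.card (symmDiff S (ed p)).card * x S ^ 2
  else 0

lemma Phi_young {u m : ℝ} (hu : 0 < u) (hm : 0 < m) (x : Finset ι → ℝ) (hx : ∀ S, 0 ≤ x S)
    (S : Finset ι) (p : ι × ι) (hS : S ≠ ∅) (hT : symmDiff S (ed p) ≠ ∅) (c : ℝ)
    (hc : |c| ≤ 4 * x S * x (symmDiff S (ed p))) :
    (u ^ S.card + u ^ (symmDiff S (ed p)).card) * c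
      ≤ Phi u m x S p + Phi u m x (symmDiff S (ed p)) p := by
  set T := symmDiff S (ed p) with hTdef
  have hTT : symmDiff T (ed p) = S := symmDiff_symmDiff_ed S p
  unfold Phi
  rw [if_pos ⟨hS, hT⟩, hTT, if_pos ⟨hT, hS⟩]
  have hr := rr_pos hm S.card T.card
  have hrr := rr_mul_rr hm S.card T.card
  set r := rr m S.card T.card
  set r' := rr m T.card S.card
  have hr' : 0 < r' := rr_pos hm _ _
  have hw : 0 < u ^ S.card + u ^ T.card := by positivity
  have h1 : c ≤ 4 * x S * x T := le_trans (le_abs_self c) hc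
  have hyoung : 4 * x S * x T ≤ 2 * r * x S ^ 2 + 2 * r' * x T ^ 2 := by
    have hr'eq : r' = 1 / r := by field_simp; linarith
    have h2 : 0 ≤ 2 * r * (x S - r' * x T) ^ 2 := by positivity
    have h3 : 2 * r * (x S - r' * x T) ^ 2
        = 2 * r * x S ^ 2 - 4 * (r * r') * x S * x T + 2 * r' * (r * r') * x T ^ 2 := by ring
    rw [h3, hrr] at h2
    linarith
  calc (u ^ S.card + u ^ T.card) * c ≤ (u ^ S.card + u ^ T.card) * (2 * r * x S ^ 2 + 2 * r' * x T ^ 2) :=
        mul_le_mul_of_nonneg_left (h1.trans hyoung) hw.le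
    _ = _ := by ring

/-- The vacuum part of a cross term. -/
noncomputable def Vac (u ν : ℝ) (x : Finset ι → ℝ) (ξ : ι × ι → ℝ) (p : ι × ι) : ℝ :=
  (1 + u ^ 2) * (x (ed p) ^ 2 / (2 * ν) + ν * ξ p ^ 2 / 2)

lemma Vac_young {u ν : ℝ} (hν : 0 < ν) (x : Finset ι → ℝ) (ξ : ι × ι → ℝ) (hx : ∀ S, 0 ≤ x S)
    (hξ : ∀ p, 0 ≤ ξ p) (p : ι × ι) (c : ℝ) (hc : |c| ≤ ξ p * x (ed p)) :
    (1 + u ^ 2) * c ≤ Vac u ν x ξ p := by
  unfold Vac
  have h1 : c ≤ ξ p * x (ed p) := le_trans (le_abs_self c) hc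
  have h2 : ξ p * x (ed p) ≤ x (ed p) ^ 2 / (2 * ν) + ν * ξ p ^ 2 / 2 := by
    have : 0 ≤ (x (ed p) - ν * ξ p) ^ 2 / (2 * ν) := by positivity
    have h3 : (x (ed p) - ν * ξ p) ^ 2 / (2 * ν)
        = x (ed p) ^ 2 / (2 * ν) + ν * ξ p ^ 2 / 2 - ξ p * x (ed p) := by
      field_simp; ring
    linarith
  have : 0 ≤ 1 + u ^ 2 := by positivity
  exact mul_le_mul_of_nonneg_left (h1.trans h2) this

omit [Fintype ι] in
lemma empty_symmDiff' (a : Finset ι) : symmDiff (∅ : Finset ι) a = a := by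
  ext b; simp [Finset.mem_symmDiff]

omit [Fintype ι] in
lemma symmDiff_eq_empty_iff' (S : Finset ι) (p : ι × ι) : symmDiff S (ed p) = ∅ ↔ S = ed p := by
  constructor
  · intro h
    have := symmDiff_symmDiff_ed S p
    rw [h, empty_symmDiff'] at this
    exact this.symm
  · rintro rfl; simp

omit [Fintype ι] in
lemma fiber_card_le (S : Finset ι) [Fintype ι] :
    (((od : Finset (ι × ι)).filter (fun p => ed p = S)).card : ℝ) ≤ if S.card = 2 then 2 else 0 := by
  split_ifs with h
  · obtain ⟨a, b, hab, rfl⟩ := Finset.card_eq_two.mp h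
    have hsub : (od : Finset (ι × ι)).filter (fun p => ed p = {a, b}) ⊆ {(a, b), (b, a)} := by
      rintro ⟨c, d⟩ hp
      simp only [mem_filter, mem_od, ed] at hp
      obtain ⟨hne, heq⟩ := hp
      have hc : c ∈ ({a, b} : Finset ι) := by rw [← heq]; simp
      have hd : d ∈ ({a, b} : Finset ι) := by rw [← heq]; simp
      simp only [mem_insert, mem_singleton] at hc hd
      simp only [mem_insert, mem_singleton, Prod.mk.injEq]
      rcases hc with rfl | rfl <;> rcases hd with rfl | rfl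
      · exact absurd rfl hne
      · exact Or.inl ⟨rfl, rfl⟩
      · exact Or.inr ⟨rfl, rfl⟩
      · exact absurd rfl hne
    have := Finset.card_le_card hsub
    have h2 : (({(a, b), (b, a)} : Finset (ι × ι))).card ≤ 2 := Finset.card_le_two
    have h3 : ((od : Finset (ι × ι)).filter (fun p => ed p = {a, b})).card ≤ 2 := this.trans h2
    exact_mod_cast h3
  · have : (od : Finset (ι × ι)).filter (fun p => ed p = S) = ∅ := by
      apply Finset.filter_eq_empty_iff.mpr
      intro p hp hpS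
      exact h (by rw [← hpS]; exact ed_card (mem_od.mp hp))
    rw [this]; simp

/-- The total coefficient of a sector. -/
lemma sum_Phi_le {u : ℝ} (hu1 : 1 ≤ u) (hu2 : u ≤ 2) (x : Finset ι → ℝ) (S : Finset ι)
    (hS : S ≠ ∅) :
    (1 / 2 : ℝ) * ∑ p ∈ (od : Finset (ι × ι)), Phi u (Fintype.card ι : ℝ) x S p
      ≤ 16 * (S.card : ℝ) * (Fintype.card ι : ℝ) * u ^ S.card * x S ^ 2 := by
  have hjpos : 1 ≤ S.card := Finset.card_pos.mpr (Finset.nonempty_iff_ne_empty.mpr hS)
  have hjm : S.card ≤ Fintype.card ι := Finset.card_le_univ S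
  set j := S.card with hj
  set M := Fintype.card ι with hM
  have hMpos : 0 < (M : ℝ) := by exact_mod_cast (by omega : 0 < M)
  have hj1 : (1 : ℝ) ≤ j := by exact_mod_cast hjpos
  have hjle : (j : ℝ) ≤ M := by exact_mod_cast hjm
  have hu0 : 0 < u := by linarith
  have hup : 0 < u ^ j := by positivity
  have hx2 : 0 ≤ x S ^ 2 := by positivity
  -- pointwise bound, by type
  let A0 : ℝ := 10 * u ^ j * ((j : ℝ) + 1) / M
  let A1 : ℝ := 4 * u ^ j
  let A2 : ℝ := 4 * u ^ j * M / ((j : ℝ) - 1)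
  have hpoint : ∀ p ∈ (od : Finset (ι × ι)),
      Phi u (M : ℝ) x S p ≤
        ((if p.1 ∉ S ∧ p.2 ∉ S then A0 else 0)
          + (if (p.1 ∈ S ∧ p.2 ∉ S) ∨ (p.1 ∉ S ∧ p.2 ∈ S) then A1 else 0)
          + (if p.1 ∈ S ∧ p.2 ∈ S ∧ 2 < j then A2 else 0)) * x S ^ 2 := by
    intro p hp
    have hne : p.1 ≠ p.2 := mem_od.mp hp
    unfold Phi
    by_cases h1 : p.1 ∈ S <;> by_cases h2 : p.2 ∈ S
    · -- both in S
      have hk := card_symmDiff_both hne h1 h2
      rw [← hj] at hk
      by_cases hT : symmDiff S (ed p) = ∅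
      · have hk0 : j = 2 := by rw [hT] at hk; simpa using hk.symm
        rw [if_neg (by simp [hT])]
        simp only [h1, h2, not_true_eq_false, and_true, and_false, or_self, or_false, if_false]
        have : ¬ (2 < j) := by omega
        simp [this]
      · rw [if_pos ⟨hS, hT⟩]
        have hkpos : 1 ≤ (symmDiff S (ed p)).card :=
          Finset.card_pos.mpr (Finset.nonempty_iff_ne_empty.mpr hT)
        have hj2 : 2 < j := by omega
        have hrr : rr (M : ℝ) j (symmDiff S (ed p)).card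
            = (M : ℝ) / (((symmDiff S (ed p)).card : ℝ) + 1) := by
          unfold rr
          rw [if_neg (by omega), if_pos (by omega)]
        rw [← hj, hrr]
        simp only [h1, h2, not_true_eq_false, and_true, and_false, or_self, or_false, if_false, hj2,
          if_true, zero_add, true_and, false_and]
        refine mul_le_mul_of_nonneg_right ?_ hx2
        have hkc : ((symmDiff S (ed p)).card : ℝ) + 1 = (j : ℝ) - 1 := by
          have : ((symmDiff S (ed p)).card : ℝ) + 2 = j := by exact_mod_cast hk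
          linarith
        rw [hkc]
        have hjm1 : 0 < (j : ℝ) - 1 := by
          have : (2 : ℝ) < j := by exact_mod_cast hj2
          linarith
        have hpow : u ^ (symmDiff S (ed p)).card ≤ u ^ j :=
          pow_le_pow_right₀ hu1 (by omega)
        show 2 * (u ^ j + u ^ (symmDiff S (ed p)).card) * ((M : ℝ) / ((j : ℝ) - 1))
          ≤ 4 * u ^ j * M / ((j : ℝ) - 1)
        rw [mul_div_assoc' _ (M : ℝ) _]
        apply div_le_div_of_nonneg_right _ hjm1.le
        have hM0 : (0 : ℝ) ≤ M := hMpos.le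
        nlinarith
    · -- one in S
      have hk := card_symmDiff_one hne (Or.inl ⟨h1, h2⟩)
      rw [← hj] at hk
      have hT : symmDiff S (ed p) ≠ ∅ := by
        intro h; rw [h] at hk; simp at hk; omega
      rw [if_pos ⟨hS, hT⟩, hk, ← hj]
      have hrr : rr (M : ℝ) j j = 1 := by
        unfold rr; rw [if_neg (by omega), if_neg (by omega)]
      rw [hrr]
      simp only [h1, h2, not_true_eq_false, not_false_eq_true, and_true, and_false, true_or,
        or_false, if_true, if_false, zero_add, add_zero, false_and]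
      refine mul_le_mul_of_nonneg_right ?_ hx2
      show 2 * (u ^ j + u ^ j) * 1 ≤ 4 * u ^ j
      linarith
    · have hk := card_symmDiff_one hne (Or.inr ⟨h1, h2⟩)
      rw [← hj] at hk
      have hT : symmDiff S (ed p) ≠ ∅ := by
        intro h; rw [h] at hk; simp at hk; omega
      rw [if_pos ⟨hS, hT⟩, hk, ← hj]
      have hrr : rr (M : ℝ) j j = 1 := by
        unfold rr; rw [if_neg (by omega), if_neg (by omega)]
      rw [hrr]
      simp only [h1, h2, not_true_eq_false, not_false_eq_true, and_true, and_false, true_or,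
        or_true, if_true, if_false, zero_add, add_zero, false_and]
      refine mul_le_mul_of_nonneg_right ?_ hx2
      show 2 * (u ^ j + u ^ j) * 1 ≤ 4 * u ^ j
      linarith
    · -- none in S
      have hk := card_symmDiff_none hne h1 h2
      rw [← hj] at hk
      have hT : symmDiff S (ed p) ≠ ∅ := by
        intro h; rw [h] at hk; simp at hk
      rw [if_pos ⟨hS, hT⟩, hk, ← hj]
      have hrr : rr (M : ℝ) j (j + 2) = ((j : ℝ) + 1) / M := by
        unfold rr; rw [if_pos rfl]
      rw [hrr]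
      simp only [h1, h2, not_true_eq_false, not_false_eq_true, and_true, and_false, or_self,
        if_true, if_false, add_zero, false_and]
      refine mul_le_mul_of_nonneg_right ?_ hx2
      show 2 * (u ^ j + u ^ (j + 2)) * (((j : ℝ) + 1) / M) ≤ 10 * u ^ j * ((j : ℝ) + 1) / M
      rw [mul_div_assoc' _ _ (M : ℝ)]
      apply div_le_div_of_nonneg_right _ hMpos.le
      have hu4 : u ^ 2 ≤ 4 := by nlinarith
      have : u ^ (j + 2) ≤ 4 * u ^ j := by
        rw [pow_add]; nlinarith
      nlinarith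
  -- the counts
  have hc0 : (((od : Finset (ι × ι)).filter (fun p => p.1 ∉ S ∧ p.2 ∉ S)).card : ℝ) ≤ (M : ℝ) ^ 2 := by
    have : ((od : Finset (ι × ι)).filter (fun p => p.1 ∉ S ∧ p.2 ∉ S)).card ≤ M ^ 2 := by
      calc _ ≤ (univ : Finset (ι × ι)).card := Finset.card_le_card (Finset.subset_univ _)
        _ = M ^ 2 := by simp [hM, sq]
    exact_mod_cast this
  have hc1 : (((od : Finset (ι × ι)).filter
      (fun p => (p.1 ∈ S ∧ p.2 ∉ S) ∨ (p.1 ∉ S ∧ p.2 ∈ S))).card : ℝ) ≤ 2 * j * M := by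
    have hsub : (od : Finset (ι × ι)).filter (fun p => (p.1 ∈ S ∧ p.2 ∉ S) ∨ (p.1 ∉ S ∧ p.2 ∈ S))
        ⊆ (S ×ˢ univ) ∪ (univ ×ˢ S) := by
      intro p hp
      simp only [mem_filter] at hp
      simp only [mem_union, mem_product, mem_univ, and_true, true_and]
      rcases hp.2 with h | h
      · exact Or.inl h.1
      · exact Or.inr h.2
    have : ((od : Finset (ι × ι)).filter
        (fun p => (p.1 ∈ S ∧ p.2 ∉ S) ∨ (p.1 ∉ S ∧ p.2 ∈ S))).card ≤ j * M + M * j := by
      calc _ ≤ ((S ×ˢ (univ : Finset ι)) ∪ ((univ : Finset ι) ×ˢ S)).card := Finset.card_le_card hsub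
        _ ≤ (S ×ˢ (univ : Finset ι)).card + ((univ : Finset ι) ×ˢ S).card := Finset.card_union_le _ _
        _ = j * M + M * j := by simp [hj, hM]
    have h2 : (((od : Finset (ι × ι)).filter
        (fun p => (p.1 ∈ S ∧ p.2 ∉ S) ∨ (p.1 ∉ S ∧ p.2 ∈ S))).card : ℝ) ≤ (j * M + M * j : ℕ) := by
      exact_mod_cast this
    push_cast at h2
    linarith
  have hc2 : 2 < j → (((od : Finset (ι × ι)).filter
      (fun p => p.1 ∈ S ∧ p.2 ∈ S ∧ 2 < j)).card : ℝ) ≤ j * ((j : ℝ) - 1) := by
    intro _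
    have hsub : (od : Finset (ι × ι)).filter (fun p => p.1 ∈ S ∧ p.2 ∈ S ∧ 2 < j) ⊆ S.offDiag := by
      intro p hp
      simp only [mem_filter, mem_od] at hp
      simp only [Finset.mem_offDiag]
      exact ⟨hp.2.1, hp.2.2.1, hp.1⟩
    have h1 := Finset.card_le_card hsub
    rw [Finset.offDiag_card] at h1
    have h2 : (S.card * S.card - S.card : ℕ) + S.card = S.card * S.card :=
      Nat.sub_add_cancel (Nat.le_mul_self _)
    have h3 : ((S.card * S.card - S.card : ℕ) : ℝ) + (S.card : ℝ) = (S.card : ℝ) * S.card := by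
      exact_mod_cast h2
    have h4 : (((od : Finset (ι × ι)).filter (fun p => p.1 ∈ S ∧ p.2 ∈ S ∧ 2 < j)).card : ℝ)
        ≤ ((S.card * S.card - S.card : ℕ) : ℝ) := by exact_mod_cast h1
    rw [← hj] at h3 h4
    nlinarith
  -- summing
  have hA0 : 0 ≤ A0 := by positivity
  have hA1 : 0 ≤ A1 := by positivity
  have hsum : ∑ p ∈ (od : Finset (ι × ι)), Phi u (M : ℝ) x S p
      ≤ (((od : Finset (ι × ι)).filter (fun p => p.1 ∉ S ∧ p.2 ∉ S)).card * A0
        + ((od : Finset (ι × ι)).filter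
            (fun p => (p.1 ∈ S ∧ p.2 ∉ S) ∨ (p.1 ∉ S ∧ p.2 ∈ S))).card * A1
        + ((od : Finset (ι × ι)).filter (fun p => p.1 ∈ S ∧ p.2 ∈ S ∧ 2 < j)).card * A2) * x S ^ 2 := by
    refine (Finset.sum_le_sum hpoint).trans (le_of_eq ?_)
    rw [← Finset.sum_mul, Finset.sum_add_distrib, Finset.sum_add_distrib]
    simp only [Finset.sum_ite, Finset.sum_const_zero, add_zero, Finset.sum_const, nsmul_eq_mul]
  have hfinal : (((od : Finset (ι × ι)).filter (fun p => p.1 ∉ S ∧ p.2 ∉ S)).card : ℝ) * A0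
        + ((od : Finset (ι × ι)).filter
            (fun p => (p.1 ∈ S ∧ p.2 ∉ S) ∨ (p.1 ∉ S ∧ p.2 ∈ S))).card * A1
        + ((od : Finset (ι × ι)).filter (fun p => p.1 ∈ S ∧ p.2 ∈ S ∧ 2 < j)).card * A2
      ≤ 32 * j * M * u ^ j := by
    have t0 : (((od : Finset (ι × ι)).filter (fun p => p.1 ∉ S ∧ p.2 ∉ S)).card : ℝ) * A0
        ≤ 20 * j * M * u ^ j := by
      calc _ ≤ (M : ℝ) ^ 2 * A0 := mul_le_mul_of_nonneg_right hc0 hA0
        _ = 10 * u ^ j * ((j : ℝ) + 1) * M := by
            show (M : ℝ) ^ 2 * (10 * u ^ j * ((j : ℝ) + 1) / M) = _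
            field_simp
        _ ≤ 20 * j * M * u ^ j := by
            have : (j : ℝ) + 1 ≤ 2 * j := by linarith
            have hp : 0 ≤ 10 * u ^ j * (M : ℝ) := by positivity
            nlinarith
    have t1 : (((od : Finset (ι × ι)).filter
        (fun p => (p.1 ∈ S ∧ p.2 ∉ S) ∨ (p.1 ∉ S ∧ p.2 ∈ S))).card : ℝ) * A1 ≤ 8 * j * M * u ^ j := by
      calc _ ≤ (2 * j * M : ℝ) * A1 := mul_le_mul_of_nonneg_right hc1 hA1
        _ = 8 * j * M * u ^ j := by show (2 * j * M : ℝ) * (4 * u ^ j) = _; ring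
    have t2 : (((od : Finset (ι × ι)).filter (fun p => p.1 ∈ S ∧ p.2 ∈ S ∧ 2 < j)).card : ℝ) * A2
        ≤ 4 * j * M * u ^ j := by
      by_cases hj2 : 2 < j
      · have hjm1 : 0 < (j : ℝ) - 1 := by
          have : (2 : ℝ) < j := by exact_mod_cast hj2
          linarith
        have hA2 : 0 ≤ A2 := by positivity
        calc _ ≤ (j * ((j : ℝ) - 1)) * A2 := mul_le_mul_of_nonneg_right (hc2 hj2) hA2
          _ = 4 * j * M * u ^ j := by
              show (j * ((j : ℝ) - 1)) * (4 * u ^ j * M / ((j : ℝ) - 1)) = _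
              field_simp
      · have : (od : Finset (ι × ι)).filter (fun p => p.1 ∈ S ∧ p.2 ∈ S ∧ 2 < j) = ∅ := by
          apply Finset.filter_eq_empty_iff.mpr
          intro p _ h
          exact hj2 h.2.2
        rw [this]; simp; positivity
    linarith
  calc (1 / 2 : ℝ) * ∑ p ∈ (od : Finset (ι × ι)), Phi u (M : ℝ) x S p
      ≤ (1 / 2 : ℝ) * ((32 * j * M * u ^ j) * x S ^ 2) := by
        apply mul_le_mul_of_nonneg_left _ (by norm_num)
        exact hsum.trans (mul_le_mul_of_nonneg_right hfinal hx2)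
    _ = _ := by ring

theorem cross_bound (x : Finset ι → ℝ) (hx : ∀ S, 0 ≤ x S) (C : Finset ι → ι × ι → ℝ)
    (ξ : ι × ι → ℝ) (hξ : ∀ p, 0 ≤ ξ p)
    (hC : ∀ S, ∀ p ∈ (od : Finset (ι × ι)), |C S p| ≤ 4 * x S * x (symmDiff S (ed p)))
    (hsym : ∀ S, ∀ p ∈ (od : Finset (ι × ι)), C S p = C (symmDiff S (ed p)) p)
    (hvac : ∀ p ∈ (od : Finset (ι × ι)), |C ∅ p| ≤ ξ p * x (ed p))
    {u ν : ℝ} (hu1 : 1 ≤ u) (hu2 : u ≤ 2) (hν : 0 < ν) :
    (1 / 2 : ℝ) * ∑ S : Finset ι, ∑ p ∈ (od : Finset (ι × ι)), u ^ S.card * C S p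
      ≤ ∑ S : Finset ι, (16 * (S.card : ℝ) * (Fintype.card ι : ℝ) + if S.card = 2 then 1 / ν else 0)
            * u ^ S.card * x S ^ 2
        + (5 * ν / 2) * ((1 / 2 : ℝ) * ∑ p ∈ (od : Finset (ι × ι)), ξ p ^ 2) := by
  classical
  have hu0 : 0 < u := by linarith
  set M : ℝ := (Fintype.card ι : ℝ) with hM
  -- symmetrization
  have hsymm : ∑ S : Finset ι, ∑ p ∈ (od : Finset (ι × ι)), u ^ (symmDiff S (ed p)).card * C S p
      = ∑ S : Finset ι, ∑ p ∈ (od : Finset (ι × ι)), u ^ S.card * C S p := by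
    rw [← sum_symmDiff_reindex (fun S p => u ^ S.card * C S p)]
    refine Finset.sum_congr rfl fun S _ => Finset.sum_congr rfl fun p hp => ?_
    rw [hsym S p hp]
  -- pointwise bound
  let V : Finset ι → ι × ι → ℝ := fun S p =>
    (if S = ∅ then Vac u ν x ξ p else 0) + (if symmDiff S (ed p) = ∅ then Vac u ν x ξ p else 0)
  have hpoint : ∀ S : Finset ι, ∀ p ∈ (od : Finset (ι × ι)),
      (u ^ S.card + u ^ (symmDiff S (ed p)).card) * C S p
        ≤ Phi u M x S p + Phi u M x (symmDiff S (ed p)) p + V S p := by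
    intro S p hp
    have hne : p.1 ≠ p.2 := mem_od.mp hp
    have hvacc : (ed p).card = 2 := ed_card hne
    have hedne : ed p ≠ (∅ : Finset ι) := by
      intro h; rw [h] at hvacc; simp at hvacc
    by_cases hS : S = ∅
    · subst hS
      have hT : symmDiff (∅ : Finset ι) (ed p) = ed p := empty_symmDiff' _
      have hPhi0 : Phi u M x (∅ : Finset ι) p = 0 := by simp [Phi]
      have hPhi1 : Phi u M x (ed p) p = 0 := by simp [Phi]
      simp only [hT, V, hPhi0, hPhi1, card_empty, pow_zero, hvacc, if_true, hedne, if_false, add_zero,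
        zero_add]
      exact Vac_young hν x ξ hx hξ p _ (hvac p hp)
    · by_cases hT : symmDiff S (ed p) = ∅
      · have hSe : S = ed p := (symmDiff_eq_empty_iff' S p).mp hT
        subst hSe
        have hPhi0 : Phi u M x (ed p) p = 0 := by simp [Phi]
        have hPhi1 : Phi u M x (∅ : Finset ι) p = 0 := by simp [Phi]
        have hC' : C (ed p) p = C ∅ p := by
          have := hsym ∅ p hp
          rw [empty_symmDiff'] at this
          exact this.symm
        simp only [hT, V, hPhi0, hPhi1, card_empty, pow_zero, hvacc, if_true, hS, if_false, add_zero,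
          zero_add, hC']
        have := Vac_young hν x ξ hx hξ p _ (hvac p hp) (u := u)
        linarith
      · have hMpos : 0 < M := by
          have hc : 0 < Fintype.card ι := Fintype.card_pos_iff.mpr ⟨p.1⟩
          rw [hM]; exact_mod_cast hc
        have := Phi_young hu0 hMpos x hx S p hS hT _ (hC S p hp)
        simp only [V, hS, hT, if_false, add_zero]
        exact this
  -- summation
  have hVsum : ∑ S : Finset ι, ∑ p ∈ (od : Finset (ι × ι)), V S p
      = 2 * ∑ p ∈ (od : Finset (ι × ι)), Vac u ν x ξ p := by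
    have h1 : ∑ S : Finset ι, ∑ p ∈ (od : Finset (ι × ι)), (if S = ∅ then Vac u ν x ξ p else 0)
        = ∑ p ∈ (od : Finset (ι × ι)), Vac u ν x ξ p := by
      rw [Finset.sum_comm]
      refine Finset.sum_congr rfl fun p _ => ?_
      simp
    have h2 : ∑ S : Finset ι, ∑ p ∈ (od : Finset (ι × ι)),
        (if symmDiff S (ed p) = ∅ then Vac u ν x ξ p else 0)
        = ∑ p ∈ (od : Finset (ι × ι)), Vac u ν x ξ p := by
      rw [sum_symmDiff_reindex (fun S p => if S = ∅ then Vac u ν x ξ p else 0)]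
      exact h1
    simp only [V, Finset.sum_add_distrib]
    rw [h1, h2]; ring
  have hPhisum : ∑ S : Finset ι, ∑ p ∈ (od : Finset (ι × ι)), Phi u M x (symmDiff S (ed p)) p
      = ∑ S : Finset ι, ∑ p ∈ (od : Finset (ι × ι)), Phi u M x S p :=
    sum_symmDiff_reindex (fun S p => Phi u M x S p)
  have hmain : 2 * ∑ S : Finset ι, ∑ p ∈ (od : Finset (ι × ι)), u ^ S.card * C S p
      ≤ 2 * ∑ S : Finset ι, ∑ p ∈ (od : Finset (ι × ι)), Phi u M x S p
        + 2 * ∑ p ∈ (od : Finset (ι × ι)), Vac u ν x ξ p := by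
    have hle : ∑ S : Finset ι, ∑ p ∈ (od : Finset (ι × ι)),
        (u ^ S.card + u ^ (symmDiff S (ed p)).card) * C S p
        ≤ ∑ S : Finset ι, ∑ p ∈ (od : Finset (ι × ι)),
          (Phi u M x S p + Phi u M x (symmDiff S (ed p)) p + V S p) :=
      Finset.sum_le_sum fun S _ => Finset.sum_le_sum fun p hp => hpoint S p hp
    have hl : ∑ S : Finset ι, ∑ p ∈ (od : Finset (ι × ι)),
        (u ^ S.card + u ^ (symmDiff S (ed p)).card) * C S p
        = 2 * ∑ S : Finset ι, ∑ p ∈ (od : Finset (ι × ι)), u ^ S.card * C S p := by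
      simp only [add_mul, Finset.sum_add_distrib]
      rw [hsymm]; ring
    have hr : ∑ S : Finset ι, ∑ p ∈ (od : Finset (ι × ι)),
          (Phi u M x S p + Phi u M x (symmDiff S (ed p)) p + V S p)
        = 2 * ∑ S : Finset ι, ∑ p ∈ (od : Finset (ι × ι)), Phi u M x S p
          + 2 * ∑ p ∈ (od : Finset (ι × ι)), Vac u ν x ξ p := by
      simp only [Finset.sum_add_distrib]
      rw [hPhisum, hVsum]; ring
    rw [hl, hr] at hle
    exact hle
  -- bound of the Phi part
  have hPhibound : (1 / 2 : ℝ) * ∑ S : Finset ι, ∑ p ∈ (od : Finset (ι × ι)), Phi u M x S p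
      ≤ ∑ S : Finset ι, 16 * (S.card : ℝ) * M * u ^ S.card * x S ^ 2 := by
    rw [Finset.mul_sum]
    refine Finset.sum_le_sum fun S _ => ?_
    by_cases hS : S = ∅
    · subst hS; simp [Phi]
    · exact sum_Phi_le hu1 hu2 x S hS
  -- bound of the vacuum part
  have hVacbound : (1 / 2 : ℝ) * ∑ p ∈ (od : Finset (ι × ι)), Vac u ν x ξ p
      ≤ ∑ S : Finset ι, (if S.card = 2 then 1 / ν else 0) * u ^ S.card * x S ^ 2
        + (5 * ν / 2) * ((1 / 2 : ℝ) * ∑ p ∈ (od : Finset (ι × ι)), ξ p ^ 2) := by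
    have hsplit : (1 / 2 : ℝ) * ∑ p ∈ (od : Finset (ι × ι)), Vac u ν x ξ p
        = ∑ p ∈ (od : Finset (ι × ι)), ((1 + u ^ 2) * x (ed p) ^ 2 / (4 * ν))
          + ∑ p ∈ (od : Finset (ι × ι)), ((1 + u ^ 2) * ν * ξ p ^ 2 / 4) := by
      rw [Finset.mul_sum, ← Finset.sum_add_distrib]
      refine Finset.sum_congr rfl fun p _ => ?_
      unfold Vac
      field_simp
      ring
    rw [hsplit]
    have h1 : ∑ p ∈ (od : Finset (ι × ι)), ((1 + u ^ 2) * x (ed p) ^ 2 / (4 * ν))
        ≤ ∑ S : Finset ι, (if S.card = 2 then 1 / ν else 0) * u ^ S.card * x S ^ 2 := by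
      have hfib : ∑ p ∈ (od : Finset (ι × ι)), ((1 + u ^ 2) * x (ed p) ^ 2 / (4 * ν))
          = ∑ S : Finset ι, ∑ p ∈ (od : Finset (ι × ι)).filter (fun p => ed p = S),
              ((1 + u ^ 2) * x (ed p) ^ 2 / (4 * ν)) :=
        (Finset.sum_fiberwise _ _ _).symm
      rw [hfib]
      refine Finset.sum_le_sum fun S _ => ?_
      have hcongr : ∑ p ∈ (od : Finset (ι × ι)).filter (fun p => ed p = S),
            ((1 + u ^ 2) * x (ed p) ^ 2 / (4 * ν))
          = ((od : Finset (ι × ι)).filter (fun p => ed p = S)).card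
              * ((1 + u ^ 2) * x S ^ 2 / (4 * ν)) := by
        rw [Finset.sum_congr rfl (g := fun _ => (1 + u ^ 2) * x S ^ 2 / (4 * ν))]
        · simp
        · intro p hp
          rw [(Finset.mem_filter.mp hp).2]
      rw [hcongr]
      have hnn : 0 ≤ (1 + u ^ 2) * x S ^ 2 / (4 * ν) := by positivity
      have hc := mul_le_mul_of_nonneg_right (fiber_card_le S) hnn
      refine hc.trans ?_
      split_ifs with h2
      · rw [h2]
        have hu2' : 1 ≤ u ^ 2 := by nlinarith
        have hx2 : 0 ≤ x S ^ 2 := by positivity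
        have : (2 : ℝ) * ((1 + u ^ 2) * x S ^ 2 / (4 * ν)) = (1 + u ^ 2) / (2 * ν) * x S ^ 2 := by
          field_simp; ring
        rw [this]
        have h3 : (1 + u ^ 2) / (2 * ν) ≤ 1 / ν * u ^ 2 := by
          rw [div_le_iff₀ (by positivity)]
          field_simp
          nlinarith
        exact mul_le_mul_of_nonneg_right h3 hx2
      · simp
    have h2 : ∑ p ∈ (od : Finset (ι × ι)), ((1 + u ^ 2) * ν * ξ p ^ 2 / 4)
        ≤ (5 * ν / 2) * ((1 / 2 : ℝ) * ∑ p ∈ (od : Finset (ι × ι)), ξ p ^ 2) := by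
      rw [Finset.mul_sum, Finset.mul_sum]
      refine Finset.sum_le_sum fun p _ => ?_
      have hu4 : u ^ 2 ≤ 4 := by nlinarith
      have : 0 ≤ ν * ξ p ^ 2 := by positivity
      nlinarith
    linarith
  -- final
  have hfin : ∑ S : Finset ι, (16 * (S.card : ℝ) * M + if S.card = 2 then 1 / ν else 0)
        * u ^ S.card * x S ^ 2
      = ∑ S : Finset ι, 16 * (S.card : ℝ) * M * u ^ S.card * x S ^ 2
        + ∑ S : Finset ι, (if S.card = 2 then 1 / ν else 0) * u ^ S.card * x S ^ 2 := by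
    rw [← Finset.sum_add_distrib]
    refine Finset.sum_congr rfl fun S _ => ?_
    ring
  rw [hfin]
  have hA : (1 / 2 : ℝ) * ∑ S : Finset ι, ∑ p ∈ (od : Finset (ι × ι)), u ^ S.card * C S p
      ≤ (1 / 2 : ℝ) * ∑ S : Finset ι, ∑ p ∈ (od : Finset (ι × ι)), Phi u M x S p
        + (1 / 2 : ℝ) * ∑ p ∈ (od : Finset (ι × ι)), Vac u ν x ξ p := by
    linarith
  linarith

end Vale.Agent.Lib.P162L2
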