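import Mathlib

/-!
Thorp shuffle, `n = 2^d`, L2 route: core definitions shared by the modules.
`V` is a real inner product space, `ρ` an orthogonal representation of `Perm α`.
-/

open scoped InnerProductSpace
open Equiv

namespace Vale.Agent.Lib.P162L2

variable {V : Type*} [NormedAddCommGroup V] [InnerProductSpace ℝ V]
variable {α : Type*} [Fintype α] [DecidableEq α]

/-- `ρ` is an orthogonal representation of `Perm α` on `V`. -/
def IsOrth (ρ : Perm α →* (V →L[ℝ] V)) : Prop :=
  ∀ g x y, ⟪ρ g x, ρ g y⟫_ℝ = ⟪x, y⟫_ℝ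

/-- The transposition Laplacian of the complete graph on `T`:
`D_T = ∑_{unordered pairs {a,b} ⊆ T} (1 - ρ (swap a b))`. -/
noncomputable def casimir (ρ : Perm α →* (V →L[ℝ] V)) (T : Finset α) : V →L[ℝ] V :=
  (1 / 2 : ℝ) • ∑ p ∈ T.offDiag, (1 - ρ (swap p.1 p.2))

/-- The space of functions on the symmetric group, with the `l²` inner product. -/
abbrev L2Perm (α : Type*) [Fintype α] [DecidableEq α] := EuclideanSpace ℝ (Perm α)

/-- Left translation of functions on the symmetric group: `(leftReg g f) x = f (g⁻¹ x)`. -/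
noncomputable def leftReg (α : Type*) [Fintype α] [DecidableEq α] :
    Perm α →* (L2Perm α →L[ℝ] L2Perm α) where
  toFun g := (LinearIsometryEquiv.piLpCongrLeft 2 ℝ ℝ (Equiv.mulLeft g)).toContinuousLinearEquiv.toContinuousLinearMap
  map_one' := by
    ext f x
    show f.ofLp ((1 : Perm α)⁻¹ * x) = f.ofLp x
    simp
  map_mul' g h := by
    ext f x
    show f.ofLp ((g * h)⁻¹ * x) = f.ofLp (h⁻¹ * (g⁻¹ * x))
    simp [mul_assoc]

lemma leftReg_apply (g : Perm α) (f : L2Perm α) (x : Perm α) :
    (leftReg α g f) x = f (g⁻¹ * x) := rfl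

lemma leftReg_isOrth : IsOrth (leftReg α) := by
  intro g x y
  exact (LinearIsometryEquiv.piLpCongrLeft 2 ℝ ℝ (Equiv.mulLeft g)).inner_map_map x y

end Vale.Agent.Lib.P162L2
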