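import Vale.Agent.Lib.P162L2.Inv
set_option linter.unusedSectionVars false
set_option linter.deprecated false

/-!
Thorp shuffle, `L2` route, Step C: eigenvalue lower bounds for the transposition Laplacian.
-/

open scoped InnerProductSpace
open Equiv Finset

namespace Vale.Agent.Lib.P162L2.C

variable {V : Type*} [NormedAddCommGroup V] [InnerProductSpace ℝ V]
variable {α : Type*} [Fintype α] [DecidableEq α]
variable {ρ : Perm α →* (V →L[ℝ] V)}

/-- The coset sum of an `Inv U` vector lies in `Inv (insert c U)`. -/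
theorem Bc_mem {U : Finset α} {c : α} (hc : c ∉ U) {h : V} (hh : h ∈ Inv ρ U) :
    h + ∑ d ∈ U, SS ρ c d h ∈ Inv ρ (insert c U) := by
  have key1 : ∀ x ∈ U, SS ρ c x (h + ∑ d ∈ U, SS ρ c d h) = h + ∑ d ∈ U, SS ρ c d h := by
    intro x hx
    have hxc : x ≠ c := fun e => hc (e ▸ hx)
    have term : ∀ d ∈ U.erase x, SS ρ c x (SS ρ c d h) = SS ρ c d h := by
      intro d hd
      rw [Finset.mem_erase] at hd
      have hdc : d ≠ c := fun e => hc (e ▸ hd.2)
      have e : swap c d * swap d x = swap c x * swap c d := by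
        rw [Equiv.mul_swap_eq_swap_mul, swap_apply_right,
          swap_apply_of_ne_of_ne hxc hd.1.symm]
      have e2 := hh d hd.2 x hx
      unfold SS at e2 ⊢
      rw [← rho_mul_apply_Inv, ← e, rho_mul_apply_Inv, e2]
    rw [map_add, map_sum, ← Finset.add_sum_erase U _ hx, ← Finset.add_sum_erase U _ hx,
      SS_SS, Finset.sum_congr rfl term]
    abel
  have key2 : ∀ x ∈ U, ∀ y ∈ U, SS ρ x y (h + ∑ d ∈ U, SS ρ c d h) = h + ∑ d ∈ U, SS ρ c d h := by
    intro x hx y hy
    have hxc : c ≠ x := fun e => hc (e ▸ hx)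
    have hyc : c ≠ y := fun e => hc (e ▸ hy)
    rw [map_add, map_sum, hh x hx y hy]
    congr 1
    have term : ∀ d ∈ U, SS ρ x y (SS ρ c d h) = SS ρ c (swap x y d) h := by
      intro d _
      have e : swap x y * swap c d = swap c (swap x y d) * swap x y := by
        rw [Equiv.mul_swap_eq_swap_mul, swap_apply_of_ne_of_ne hxc hyc]
      have e2 := hh x hx y hy
      unfold SS at e2 ⊢
      rw [← rho_mul_apply_Inv, e, rho_mul_apply_Inv, e2]
    rw [Finset.sum_congr rfl term]
    apply Finset.sum_equiv (swap x y)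
    · intro d
      by_cases h1 : d = x
      · subst h1
        simp [hx, hy]
      · by_cases h2 : d = y
        · subst h2
          simp [hx, hy]
        · rw [swap_apply_of_ne_of_ne h1 h2]
    · intro d _
      rfl
  intro a ha b hb
  rw [Finset.mem_insert] at ha hb
  rcases ha with rfl | ha <;> rcases hb with rfl | hb
  · exact SS_self ρ _ _
  · exact key1 b hb
  · rw [SS_comm]
    exact key1 a ha
  · exact key2 a ha b hb

/-- Eigenvalue bound for an eigenvector in `Inv U` orthogonal to the larger `Inv`. -/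
theorem eig_lower_aux (hρ : IsOrth ρ) {T U : Finset α} (hU : U ⊆ T) {h : V} (hh : h ∈ Inv ρ U)
    (h0 : h ≠ 0) {ν : ℝ} (he : casimir ρ T h = ν • h)
    (hperp : ∀ c ∈ T \ U, ∀ w ∈ Inv ρ (insert c U), ⟪h, w⟫_ℝ = 0) :
    ((T \ U).card : ℝ) * (U.card + 1) ≤ ν := by
  have hBc : ∀ c ∈ T \ U, ∑ d ∈ U, (h - SS ρ c d h) = ((U.card : ℝ) + 1) • h := by
    intro c hc
    have hcU : c ∉ U := (Finset.mem_sdiff.1 hc).2
    set B := h + ∑ d ∈ U, SS ρ c d h with hB
    have hBm : B ∈ Inv ρ (insert c U) := Bc_mem hcU hh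
    have h1 : ⟪h, B⟫_ℝ = 0 := hperp c hc B hBm
    have h2 : ∀ d ∈ U, ⟪SS ρ c d h, B⟫_ℝ = 0 := by
      intro d hd
      rw [inner_SS hρ, hBm c (Finset.mem_insert_self _ _) d (Finset.mem_insert_of_mem hd)]
      exact h1
    have h3 : ⟪B, B⟫_ℝ = 0 := by
      conv_lhs => lhs; rw [hB]
      rw [inner_add_left, h1, sum_inner, Finset.sum_eq_zero h2, add_zero]
    have h4 : B = 0 := inner_self_eq_zero.1 h3
    have h5 : ∑ d ∈ U, SS ρ c d h = -h := by
      rw [hB] at h4
      exact eq_neg_of_add_eq_zero_right h4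
    rw [Finset.sum_sub_distrib, h5, Finset.sum_const, sub_neg_eq_add, add_smul, one_smul,
      Nat.cast_smul_eq_nsmul]
  have hsplit := casimir_split (ρ := ρ) hU h
  rw [casimir_eq_zero_of_mem hh, zero_add, he,
    Finset.sum_congr rfl hBc, Finset.sum_const, ← Nat.cast_smul_eq_nsmul ℝ, smul_smul] at hsplit
  have hinner := congrArg (fun x => ⟪h, x⟫_ℝ) hsplit
  simp only [inner_smul_right, inner_add_right, real_inner_self_eq_norm_sq] at hinner
  have hnn := casimir_form_nonneg hρ (T \ U) h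
  have hpos : 0 < ‖h‖ ^ 2 := by positivity
  nlinarith

/-- Eigenvalue bound for an eigenvector, not orthogonal to `Inv U` but orthogonal to the larger
spaces `Inv (insert c U)`. -/
theorem eig_lower [FiniteDimensional ℝ V] (hρ : IsOrth ρ) {T U : Finset α} (hU : U ⊆ T) {v : V}
    {ν : ℝ} (he : casimir ρ T v = ν • v) (hnot : ∃ w ∈ Inv ρ U, ⟪v, w⟫_ℝ ≠ 0)
    (hperp : ∀ c ∈ T \ U, ∀ w ∈ Inv ρ (insert c U), ⟪v, w⟫_ℝ = 0) :
    ((T \ U).card : ℝ) * (U.card + 1) ≤ ν := by
  obtain ⟨y, hy, z, hz, hv⟩ := (Inv ρ U).exists_add_mem_mem_orthogonal v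
  have hz' : ∀ w ∈ Inv ρ U, ⟪z, w⟫_ℝ = 0 := fun w hw => by
    have := (Submodule.mem_orthogonal' _ _).1 hz w hw
    exact this
  have hy0 : y ≠ 0 := by
    rintro rfl
    obtain ⟨w, hw, hne⟩ := hnot
    apply hne
    rw [hv, zero_add]
    exact hz' w hw
  have hL : casimir ρ T y - ν • y ∈ Inv ρ U :=
    Submodule.sub_mem _ (casimir_mem_Inv hU hy) (Submodule.smul_mem _ _ hy)
  have hR : ν • z - casimir ρ T z = casimir ρ T y - ν • y := by
    rw [hv, map_add, smul_add] at he
    have : casimir ρ T y + casimir ρ T z - ν • y - ν • z = 0 := by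
      rw [he]; abel
    have h2 : ν • z - casimir ρ T z - (casimir ρ T y - ν • y) = -(casimir ρ T y + casimir ρ T z - ν • y - ν • z) := by
      abel
    rw [this, neg_zero] at h2
    exact sub_eq_zero.1 h2
  have hzero : casimir ρ T y - ν • y = 0 := by
    apply inner_self_eq_zero (𝕜 := ℝ).1
    conv_lhs => lhs; rw [← hR]
    rw [inner_sub_left, inner_smul_left, hz' _ hL, casimir_perp hρ hU hz' _ hL]
    simp
  have hey : casimir ρ T y = ν • y := sub_eq_zero.1 hzero
  apply eig_lower_aux hρ hU hy hy0 hey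
  intro c hc w hw
  have hw' : w ∈ Inv ρ U := Inv_anti (Finset.subset_insert _ _) hw
  have h1 := hperp c hc w hw
  rw [hv, inner_add_left, hz' w hw', add_zero] at h1
  exact h1

/-- Spectral lower bound on an invariant subspace from a bound on eigenvalues. -/
theorem form_ge_of_eigen [FiniteDimensional ℝ V] (A : V →ₗ[ℝ] V) (hA : A.IsSymmetric)
    (W : Submodule ℝ V) (hW : ∀ x ∈ W, A x ∈ W) (κ : ℝ)
    (h : ∀ v ∈ W, v ≠ 0 → ∀ ν : ℝ, A v = ν • v → κ ≤ ν) (f : V) (hf : f ∈ W) :
    κ * ‖f‖ ^ 2 ≤ ⟪f, A f⟫_ℝ := by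
  have hA' : (A.restrict hW).IsSymmetric := hA.restrict_invariant hW
  set b := hA'.eigenvectorBasis rfl with hb
  set ev := hA'.eigenvalues rfl with hev
  let f' : W := ⟨f, hf⟩
  have heig : ∀ i, A.restrict hW (b i) = (ev i) • b i := by
    intro i
    have := hA'.apply_eigenvectorBasis rfl i
    exact this
  have hκ : ∀ i, κ ≤ ev i := by
    intro i
    apply h (b i : V) (b i).2
    · intro h0
      have : b i = 0 := Subtype.ext h0
      have h1 := b.orthonormal.ne_zero i
      exact h1 this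
    · have := congrArg (Subtype.val) (heig i)
      simpa using this
  have h1 : ‖f'‖ ^ 2 = ∑ i, ⟪b i, f'⟫_ℝ ^ 2 := by
    rw [← b.sum_sq_norm_inner_right f']
    apply Finset.sum_congr rfl
    intro i _
    simp
  have h2 : ⟪f', A.restrict hW f'⟫_ℝ = ∑ i, ev i * ⟪b i, f'⟫_ℝ ^ 2 := by
    rw [← b.sum_inner_mul_inner f' (A.restrict hW f')]
    apply Finset.sum_congr rfl
    intro i _
    have e1 : ⟪b i, A.restrict hW f'⟫_ℝ = ev i * ⟪b i, f'⟫_ℝ := by
      rw [← hA' (b i) f', heig i, inner_smul_left]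
      simp
    rw [e1, real_inner_comm]
    ring
  have e3 : ⟪f', A.restrict hW f'⟫_ℝ = ⟪f, A f⟫_ℝ := by
    rfl
  have e4 : ‖f'‖ = ‖f‖ := rfl
  rw [← e3, h2, ← e4, h1, Finset.mul_sum]
  apply Finset.sum_le_sum
  intro i _
  exact mul_le_mul_of_nonneg_right (hκ i) (sq_nonneg _)

/-- Averaging identity for the Laplacian. -/
theorem casimir_average (T : Finset α) (f : V) :
    ∑ c ∈ T, casimir ρ (T.erase c) f = ((T.card : ℝ) - 2) • casimir ρ T f := by
  simp only [casimir_apply]
  rw [← Finset.smul_sum, smul_comm]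
  congr 1
  have h1 : ∀ c ∈ T, ∑ p ∈ (T.erase c).offDiag, (f - SS ρ p.1 p.2 f)
      = ∑ p ∈ T.offDiag, if p.1 ≠ c ∧ p.2 ≠ c then (f - SS ρ p.1 p.2 f) else 0 := by
    intro c _
    rw [← Finset.sum_filter]
    apply Finset.sum_congr _ (fun _ _ => rfl)
    ext p
    simp only [Finset.mem_offDiag, Finset.mem_erase, Finset.mem_filter]
    tauto
  rw [Finset.sum_congr rfl h1, Finset.sum_comm, Finset.smul_sum]
  apply Finset.sum_congr rfl
  intro p hp
  rw [← Finset.sum_filter, Finset.sum_const]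
  have hcard : (T.filter (fun c => p.1 ≠ c ∧ p.2 ≠ c)).card = T.card - 2 := by
    rw [Finset.mem_offDiag] at hp
    have e : T.filter (fun c => p.1 ≠ c ∧ p.2 ≠ c) = (T.erase p.1).erase p.2 := by
      ext c
      simp only [Finset.mem_filter, Finset.mem_erase]
      constructor
      · rintro ⟨h1, h2, h3⟩
        exact ⟨h3.symm, h2.symm, h1⟩
      · rintro ⟨h1, h2, h3⟩
        exact ⟨h3, h2.symm, h1.symm⟩
    rw [e, Finset.card_erase_of_mem (Finset.mem_erase.2 ⟨hp.2.2.symm, hp.2.1⟩),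
      Finset.card_erase_of_mem hp.1]
    rfl
  have hge : 2 ≤ T.card := by
    rw [Finset.mem_offDiag] at hp
    have : ({p.1, p.2} : Finset α) ⊆ T := by
      intro x hx
      simp only [Finset.mem_insert, Finset.mem_singleton] at hx
      rcases hx with rfl | rfl
      · exact hp.1
      · exact hp.2.1
    have h2 := Finset.card_le_card this
    rwa [Finset.card_pair hp.2.2] at h2
  rw [hcard, ← Nat.cast_smul_eq_nsmul ℝ, Nat.cast_sub hge]
  norm_num

end Vale.Agent.Lib.P162L2.C
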