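import Vale.Agent.Lib.P162.Defs
import Vale.Agent.Lib.P162L2.Casimir

/-!
STEP B: induction over the levels of the butterfly network.
-/

open Finset NormedSpace Equiv
open scoped InnerProductSpace
open P162

namespace Vale.Agent.Lib.P162L2

variable {V : Type*} [NormedAddCommGroup V] [InnerProductSpace ℝ V]

/-- Average of a family of operators over a finite type. -/
noncomputable def avgOp {X : Type*} [Fintype X] (F : X → V →L[ℝ] V) : V →L[ℝ] V :=
  (Fintype.card X : ℝ)⁻¹ • ∑ x, F x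

lemma avgOp_mul_prod {X Y : Type*} [Fintype X] [Fintype Y] (F : X → V →L[ℝ] V) (G : Y → V →L[ℝ] V) :
    avgOp (fun p : X × Y => G p.2 * F p.1) = avgOp G * avgOp F := by
  unfold avgOp
  rw [smul_mul_assoc, mul_smul_comm, Fintype.card_prod, Fintype.sum_prod_type, Finset.sum_mul, smul_smul]
  congr 1
  · push_cast
    rw [mul_inv, mul_comm]
  · rw [Finset.sum_comm]
    refine Finset.sum_congr rfl fun y _ => ?_
    rw [Finset.mul_sum]

lemma avgOp_apply_norm_le {X : Type*} [Fintype X] (F : X → V →L[ℝ] V) (v : V)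
    (h : ∀ x, ‖F x v‖ ≤ ‖v‖) : ‖avgOp F v‖ ≤ ‖v‖ := by
  unfold avgOp
  simp only [smul_apply, _root_.sum_apply, norm_smul]
  rcases isEmpty_or_nonempty X with hX | hX
  · simp
  have hc : (0 : ℝ) < Fintype.card X := by exact_mod_cast Fintype.card_pos
  have h2 : ‖∑ x, F x v‖ ≤ (Fintype.card X : ℝ) * ‖v‖ := by
    calc _ ≤ ∑ x, ‖F x v‖ := norm_sum_le _ _
      _ ≤ ∑ _x : X, ‖v‖ := Finset.sum_le_sum fun x _ => h x
      _ = _ := by simp
  rw [norm_inv, Real.norm_of_nonneg hc.le, inv_mul_le_iff₀ hc]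
  exact h2

/-- The step constants. -/
noncomputable def aa (k : ℕ) : ℝ := (1 / 225) * (1 + 2 / 2 ^ k) / 2 ^ k

lemma aa_pos (k : ℕ) : 0 < aa k := by unfold aa; positivity

lemma aa_ge (k : ℕ) : (1 / 225) / 2 ^ k ≤ aa k := by
  unfold aa
  have h : (0 : ℝ) < 2 ^ k := by positivity
  have h2 : (0 : ℝ) ≤ 2 / 2 ^ k := by positivity
  apply div_le_div_of_nonneg_right _ h.le
  nlinarith

lemma aa_numbers (k : ℕ) :
    aa k / 2 * 2 ^ k ≤ 1 / 60 ∧ 50 * (aa k / 2) ^ 2 ≤ aa k / 2 - aa (k + 1) := by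
  set r : ℝ := 1 / 2 ^ k with hr
  have h0 : (0 : ℝ) < 2 ^ k := by positivity
  have hr0 : 0 < r := by positivity
  have hr1 : r ≤ 1 := by
    rw [hr, div_le_one h0]
    exact one_le_pow₀ (by norm_num)
  have h1 : aa k = (1 / 225) * (1 + 2 * r) * r := by
    unfold aa
    rw [hr]
    field_simp
  have h2 : aa (k + 1) = (1 / 225) * (1 + r) * (r / 2) := by
    unfold aa
    rw [hr, pow_succ]
    field_simp
  have h3 : r * 2 ^ k = 1 := by rw [hr]; field_simp
  constructor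
  · rw [h1]
    have : (1 / 225 : ℝ) * (1 + 2 * r) * r / 2 * 2 ^ k = (1 / 450) * (1 + 2 * r) * (r * 2 ^ k) := by ring
    rw [this, h3]
    nlinarith
  · rw [h1, h2]
    have hk : (1 + 2 * r) ^ 2 ≤ 9 := by nlinarith
    have hr2 : 0 ≤ r ^ 2 := by positivity
    nlinarith [mul_le_mul_of_nonneg_left hk hr2]

lemma card_Pos : ∀ k, Fintype.card (Pos k) = 2 ^ k
  | 0 => rfl
  | k + 1 => by
      have : Fintype.card (Pos (k + 1)) = Fintype.card (Bool × Pos k) := rfl
      rw [this, Fintype.card_prod, card_Pos k, Fintype.card_bool, pow_succ, mul_comm]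

lemma avgOp_commute {X : Type*} [Fintype X] (F : X → V →L[ℝ] V) (A : V →L[ℝ] V)
    (h : ∀ x, A * F x = F x * A) : A * avgOp F = avgOp F * A := by
  unfold avgOp
  rw [mul_smul_comm, smul_mul_assoc, Finset.mul_sum, Finset.sum_mul]
  congr 1
  exact Finset.sum_congr rfl fun x _ => h x

section step
variable {β : Type*} [Fintype β] [DecidableEq β]

lemma casimir_comm_of_commuting {α : Type*} [Fintype α] [DecidableEq α]
    (ρ0 : Perm α →* (V →L[ℝ] V)) (T : V →L[ℝ] V) (h : ∀ g, ρ0 g * T = T * ρ0 g) :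
    casimir ρ0 univ * T = T * casimir ρ0 univ := by
  unfold casimir
  rw [smul_mul_assoc, mul_smul_comm, Finset.sum_mul, Finset.mul_sum]
  congr 1
  refine Finset.sum_congr rfl fun p _ => ?_
  rw [sub_mul, mul_sub, h]
  simp

variable [CompleteSpace V]

/-- One step of the induction. -/
theorem step_general (ρ : Perm (Bool × β) →* (V →L[ℝ] V)) (hρ : IsOrth ρ) (Q0 Q1 L : V →L[ℝ] V)
    {a a' : ℝ}
    (hQ0 : ∀ v, ‖Q0 v‖ ^ 2 ≤ ⟪v, exp ((-a) • casimir (ρ.comp (emb false)) univ) v⟫_ℝ)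
    (hQ1 : ∀ v, ‖Q1 v‖ ^ 2 ≤ ⟪v, exp ((-a) • casimir (ρ.comp (emb true)) univ) v⟫_ℝ)
    (hcomm : casimir (ρ.comp (emb false)) univ * Q1 = Q1 * casimir (ρ.comp (emb false)) univ)
    (hDD : casimir (ρ.comp (emb false)) univ * casimir (ρ.comp (emb true)) univ
      = casimir (ρ.comp (emb true)) univ * casimir (ρ.comp (emb false)) univ)
    (hL : ∀ v, ‖L v‖ ≤ ‖v‖) (hLc : casimir ρ univ * L = L * casimir ρ univ)
    (hLf : ∀ (A : Finset β) (v : V), ρ (flipOn A) (L v) = L v)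
    (ha : 0 < a) (hm : a / 2 * (Fintype.card β : ℝ) ≤ 1 / 60) (hκ : 50 * (a / 2) ^ 2 ≤ a / 2 - a')
    (f : V) :
    ‖(Q0 * Q1 * L) f‖ ^ 2 ≤ ⟪f, exp ((-a') • casimir ρ univ) f⟫_ℝ := by
  have hρ0 : IsOrth (ρ.comp (emb false)) := fun g x y => hρ _ x y
  have hρ1 : IsOrth (ρ.comp (emb true)) := fun g x y => hρ _ x y
  set D0 := casimir (ρ.comp (emb false)) univ with hD0
  set D1 := casimir (ρ.comp (emb true)) univ with hD1
  set D := casimir ρ univ with hD
  have hD0s : IsSymm D0 := casimir_isSymm hρ0 univ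
  have hD1s : IsSymm D1 := casimir_isSymm hρ1 univ
  have hDs : IsSymm D := casimir_isSymm hρ univ
  set g := L f with hg
  have hA0s : IsSymm ((-a) • D0) := hD0s.smul _
  have hA1s : IsSymm ((-a) • D1) := hD1s.smul _
  set E : V →L[ℝ] V := exp ((1 / 2 : ℝ) • ((-a) • D0)) with hE
  have hEs : IsSymm E := (hA0s.smul _).exp
  have hEQ : Q1 (E g) = E (Q1 g) := by
    have h1 : (1 / 2 : ℝ) • ((-a) • D0) = ((1 / 2 : ℝ) * (-a)) • D0 := by rw [smul_smul]
    rw [hE, h1]
    exact exp_apply_comm hcomm.symm _ g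
  have h1 : ‖(Q0 * Q1 * L) f‖ ^ 2 ≤ ‖Q1 (E g)‖ ^ 2 := by
    have h2 : (Q0 * Q1 * L) f = Q0 (Q1 g) := rfl
    rw [h2, hEQ, hE, ← inner_exp_self hA0s]
    exact hQ0 _
  have h3 : ‖Q1 (E g)‖ ^ 2 ≤ ⟪g, exp ((-(2 * (a / 2))) • (D0 + D1)) g⟫_ℝ := by
    refine (hQ1 _).trans (le_of_eq ?_)
    rw [hEs g]
    have hc : Commute ((1 / 2 : ℝ) • ((-a) • D0)) ((-a) • D1) := by
      show (1 / 2 : ℝ) • ((-a) • D0) * ((-a) • D1) = ((-a) • D1) * ((1 / 2 : ℝ) • ((-a) • D0))
      simp only [smul_mul_assoc, mul_smul_comm, hDD]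
      module
    have hc2 : Commute ((1 / 2 : ℝ) • ((-a) • D0)) ((1 / 2 : ℝ) • ((-a) • D0) + (-a) • D1) :=
      (Commute.refl _).add_right hc
    have hsum : (-(2 * (a / 2))) • (D0 + D1)
        = (1 / 2 : ℝ) • ((-a) • D0) + ((1 / 2 : ℝ) • ((-a) • D0) + (-a) • D1) := by module
    rw [hsum, exp_add_comm hc2, exp_add_comm hc]
    simp only [op_mul_apply, hE]
    have hcc : exp ((-a) • D1) (exp ((1 / 2 : ℝ) • ((-a) • D0)) g)
        = exp ((1 / 2 : ℝ) • ((-a) • D0)) (exp ((-a) • D1) g) := by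
      have := congrArg (fun T : V →L[ℝ] V => T g) hc.exp.eq
      exact this.symm
    rw [hcc]
  have h4 : ⟪g, exp ((-(2 * (a / 2))) • (D0 + D1)) g⟫_ℝ ≤ ⟪g, exp ((-(a / 2 - (a / 2 - a'))) • D) g⟫_ℝ := by
    apply casimir_consequence hρ (by positivity) hm hκ g
    intro A
    exact hLf A f
  have h5 : a / 2 - (a / 2 - a') = a' := by ring
  rw [h5] at h4
  have h6 : ⟪g, exp ((-a') • D) g⟫_ℝ ≤ ⟪f, exp ((-a') • D) f⟫_ℝ := by
    have hAs : IsSymm ((-a') • D) := hDs.smul _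
    rw [inner_exp_self hAs, inner_exp_self hAs]
    have hc : L * ((1 / 2 : ℝ) • ((-a') • D)) = ((1 / 2 : ℝ) • ((-a') • D)) * L := by
      simp only [smul_mul_assoc, mul_smul_comm, hLc]
    have hc3 : (1 / 2 : ℝ) • ((-a') • D) = (1 : ℝ) • ((1 / 2 : ℝ) • ((-a') • D)) := by rw [one_smul]
    have hLE : exp ((1 / 2 : ℝ) • ((-a') • D)) g = L (exp ((1 / 2 : ℝ) • ((-a') • D)) f) := by
      rw [hg, hc3]
      exact (exp_apply_comm hc 1 f).symm
    rw [hLE]
    exact pow_le_pow_left₀ (norm_nonneg _) (hL _) 2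
  linarith

end step

lemma avgOp_mul_prod' {X Y : Type*} [Fintype X] [Fintype Y] (F : X → V →L[ℝ] V) (G : Y → V →L[ℝ] V) :
    avgOp (fun p : X × Y => F p.1 * G p.2) = avgOp F * avgOp G := by
  unfold avgOp
  rw [smul_mul_assoc, mul_smul_comm, Fintype.card_prod, Fintype.sum_prod_type, Finset.sum_mul, smul_smul]
  congr 1
  · push_cast
    rw [mul_inv, mul_comm]
  · refine Finset.sum_congr rfl fun y _ => ?_
    rw [Finset.mul_sum]

section pass

/-- Average over the coins of a pass. -/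
noncomputable def QQ (k : ℕ) (ρ : Perm (Pos k) →* (V →L[ℝ] V)) : V →L[ℝ] V :=
  avgOp (fun ω : Coins k => ρ (act k ω))

lemma flipE_eq {k : ℕ} (b : Pos k → Bool) :
    (flipE b : Perm (Pos (k + 1))) = (flipP b : Perm (Bool × Pos k)) := by
  apply Equiv.ext
  rintro ⟨a, u⟩
  rfl

lemma sliceE_eq {k : ℕ} (ψ0 ψ1 : Perm (Pos k)) :
    (sliceE ψ0 ψ1 : Perm (Pos (k + 1))) = (emb false ψ0 * emb true ψ1 : Perm (Bool × Pos k)) := by
  apply Equiv.ext
  rintro ⟨a, u⟩
  cases a
  · have e1 : emb true ψ1 (false, u) = (false, u) := emb_apply_ne (by simp) ψ1 u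
    show (false, ψ0 u) = emb false ψ0 (emb true ψ1 (false, u))
    rw [e1, emb_apply_eq]
  · have e1 : emb false ψ0 (true, ψ1 u) = (true, ψ1 u) := emb_apply_ne (by simp) ψ0 _
    show (true, ψ1 u) = emb false ψ0 (emb true ψ1 (true, u))
    rw [emb_apply_eq, e1]

lemma act_succ (k : ℕ) (ω : Coins (k + 1)) :
    (act (k + 1) ω : Perm (Pos (k + 1)))
      = ((emb false (act k ω.2.1) * emb true (act k ω.2.2)) * flipP ω.1 : Perm (Bool × Pos k)) := by
  rw [← flipE_eq, ← sliceE_eq]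
  rfl

/-- Recursion for the pass average. -/
lemma QQ_succ (k : ℕ) (ρ : Perm (Bool × Pos k) →* (V →L[ℝ] V)) :
    QQ (k + 1) ρ = QQ k (ρ.comp (emb false)) * QQ k (ρ.comp (emb true))
      * avgOp (fun b : Pos k → Bool => ρ (flipP b)) := by
  have h1 : QQ (k + 1) ρ = avgOp (fun p : (Pos k → Bool) × (Coins k × Coins k) =>
      (ρ (emb false (act k p.2.1)) * ρ (emb true (act k p.2.2))) * ρ (flipP p.1)) := by
    show avgOp (fun ω : (Pos k → Bool) × (Coins k × Coins k) => ρ (act (k + 1) ω)) = _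
    congr 1
    funext ω
    have h := act_succ k (ω : Coins (k + 1))
    calc ρ (act (k + 1) ω)
        = ρ ((emb false (act k ω.2.1) * emb true (act k ω.2.2)) * flipP ω.1) := congrArg ρ h
      _ = _ := by simp only [map_mul]
  rw [h1, avgOp_mul_prod (fun b : Pos k → Bool => ρ (flipP b))
    (fun q : Coins k × Coins k => ρ (emb false (act k q.1)) * ρ (emb true (act k q.2))),
    avgOp_mul_prod' (fun q : Coins k => ρ (emb false (act k q)))
      (fun q : Coins k => ρ (emb true (act k q)))]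
  rfl

lemma flip_absorb {β : Type*} [Fintype β] [DecidableEq β] (ρ : Perm (Bool × β) →* (V →L[ℝ] V))
    (A : Finset β) (v : V) :
    ρ (flipOn A) (avgOp (fun b : β → Bool => ρ (flipP b)) v)
      = avgOp (fun b : β → Bool => ρ (flipP b)) v := by
  unfold avgOp
  simp only [smul_apply, _root_.sum_apply, map_smul, map_sum, rep_mul_apply]
  congr 1
  have hinv : Function.Involutive (fun b : β → Bool => fun y => xor (decide (y ∈ A)) (b y)) := by
    intro b
    funext y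
    simp
  have : ∀ b : β → Bool, flipOn A * flipP b = flipP (fun y => xor (decide (y ∈ A)) (b y)) := by
    intro b
    unfold flipOn
    rw [flipP_mul]
  simp only [this]
  exact hinv.bijective.sum_comp (fun b => ρ (flipP b) v)

lemma casimir_emb_commute {β : Type*} [Fintype β] [DecidableEq β]
    (ρ : Perm (Bool × β) →* (V →L[ℝ] V)) (g h : Perm β) :
    (ρ.comp (emb false)) g * (ρ.comp (emb true)) h = (ρ.comp (emb true)) h * (ρ.comp (emb false)) g := by
  simp only [MonoidHom.comp_apply, ← map_mul, emb_commute]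

variable [CompleteSpace V]

/-- The key bound for one pass, in every orthogonal representation. -/
theorem QQ_bound : ∀ (k : ℕ) (ρ : Perm (Pos k) →* (V →L[ℝ] V)), IsOrth ρ → ∀ f : V,
    ‖QQ k ρ f‖ ^ 2 ≤ ⟪f, exp ((-aa k) • casimir ρ univ) f⟫_ℝ
  | 0, ρ, hρ, f => by
    have h1 : QQ 0 ρ = 1 := by
      unfold QQ avgOp
      have : ∀ ω : Coins 0, ρ (act 0 ω) = 1 := fun ω => map_one ρ
      simp only [this]
      have hc : Fintype.card (Coins 0) = 1 := rfl
      have hs : (∑ _x : Coins 0, (1 : V →L[ℝ] V)) = 1 := by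
        rw [Finset.sum_const, Finset.card_univ, hc, one_smul]
      rw [hs, hc]
      simp
    have h2 : casimir ρ univ = 0 := by
      unfold casimir
      have hs : (univ : Finset (Pos 0)).offDiag = ∅ := by
        ext p
        simp only [Finset.mem_offDiag, Finset.mem_univ, true_and, Finset.notMem_empty, iff_false, not_not]
        exact Subsingleton.elim (α := Unit) p.1 p.2
      rw [hs]
      simp
    rw [h1, h2]
    simp [NormedSpace.exp_zero, real_inner_self_eq_norm_sq]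
  | k + 1, ρ, hρ, f => by
    let ρ' : Perm (Bool × Pos k) →* (V →L[ℝ] V) := ρ
    have hρ' : IsOrth ρ' := hρ
    have hρ0 : IsOrth (ρ'.comp (emb false)) := fun g x y => hρ' _ x y
    have hρ1 : IsOrth (ρ'.comp (emb true)) := fun g x y => hρ' _ x y
    have hcomm1 : ∀ g, (ρ'.comp (emb false)) g * QQ k (ρ'.comp (emb true))
        = QQ k (ρ'.comp (emb true)) * (ρ'.comp (emb false)) g := by
      intro g
      apply avgOp_commute
      intro ω
      exact casimir_emb_commute ρ' g _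
    have hm := (aa_numbers k).1
    have hκ := (aa_numbers k).2
    have hcard : ((Fintype.card (Pos k) : ℕ) : ℝ) = 2 ^ k := by rw [card_Pos]; push_cast; rfl
    have key := step_general ρ' hρ' (QQ k (ρ'.comp (emb false))) (QQ k (ρ'.comp (emb true)))
      (avgOp (fun b : Pos k → Bool => ρ' (flipP b))) (a := aa k) (a' := aa (k + 1))
      (QQ_bound k _ hρ0) (QQ_bound k _ hρ1)
      (casimir_comm_of_commuting _ _ hcomm1)
      (casimir_comm_of_commuting _ _ (fun g =>
        (casimir_comm_of_commuting _ _ (fun h => (casimir_emb_commute ρ' g h).symm)).symm))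
      (fun v => avgOp_apply_norm_le _ v (fun b => (rho_norm hρ' _ v).le))
      (avgOp_commute _ _ (fun b => (rho_commute_casimir_univ ρ' _).symm))
      (fun A v => flip_absorb ρ' A v)
      (aa_pos k) (by rw [hcard]; exact hm) hκ f
    rw [← QQ_succ] at key
    exact key

lemma iterate_bound (Q D : V →L[ℝ] V) (hDs : IsSymm D) (hc : D * Q = Q * D) {a : ℝ}
    (h : ∀ v, ‖Q v‖ ^ 2 ≤ ⟪v, exp ((-a) • D) v⟫_ℝ) (T : ℕ) (f : V) :
    ‖(Q ^ T) f‖ ^ 2 ≤ ⟪f, exp ((-((T : ℝ) * a)) • D) f⟫_ℝ := by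
  induction T generalizing f with
  | zero =>
    simp [NormedSpace.exp_zero, real_inner_self_eq_norm_sq]
  | succ T ih =>
    have hpow : D * Q ^ T = Q ^ T * D := (Commute.pow_right (show Commute D Q from hc) T).eq
    have hAs : IsSymm ((-a) • D) := hDs.smul _
    set E : V →L[ℝ] V := exp ((1 / 2 : ℝ) • ((-a) • D)) with hE
    have hEs : IsSymm E := (hAs.smul _).exp
    have h1 : (1 / 2 : ℝ) • ((-a) • D) = ((1 / 2 : ℝ) * (-a)) • D := by rw [smul_smul]
    have hEQ : (Q ^ T) (E f) = E ((Q ^ T) f) := by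
      rw [hE, h1]
      exact exp_apply_comm hpow.symm _ f
    have h2 : (Q ^ (T + 1)) f = Q ((Q ^ T) f) := by
      rw [pow_succ']; rfl
    rw [h2]
    refine (h _).trans ?_
    rw [inner_exp_self hAs, ← hE, ← hEQ]
    refine (ih (E f)).trans (le_of_eq ?_)
    rw [hEs f]
    have hsum : (-(((T + 1 : ℕ) : ℝ) * a)) • D
        = ((1 / 2 : ℝ) • ((-a) • D)) + ((-((T : ℝ) * a)) • D + (1 / 2 : ℝ) • ((-a) • D)) := by
      push_cast
      module
    have hc1 : Commute ((-((T : ℝ) * a)) • D) ((1 / 2 : ℝ) • ((-a) • D)) := by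
      show _ * _ = _ * _
      simp only [smul_mul_assoc, mul_smul_comm]
      module
    have hc2 : Commute ((1 / 2 : ℝ) • ((-a) • D)) ((-((T : ℝ) * a)) • D + (1 / 2 : ℝ) • ((-a) • D)) :=
      (hc1.symm).add_right (Commute.refl _)
    rw [hsum, exp_add_comm hc2, exp_add_comm hc1]
    rfl

/-- Iterated passes. -/
theorem QQ_pow_bound (k : ℕ) (ρ : Perm (Pos k) →* (V →L[ℝ] V)) (hρ : IsOrth ρ) (T : ℕ) (f : V) :
    ‖((QQ k ρ) ^ T) f‖ ^ 2 ≤ ⟪f, exp ((-((T : ℝ) * aa k)) • casimir ρ univ) f⟫_ℝ :=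
  iterate_bound _ _ (casimir_isSymm hρ univ)
    (avgOp_commute _ _ (fun _ => (rho_commute_casimir_univ ρ _).symm)) (QQ_bound k ρ hρ) T f

end pass

end Vale.Agent.Lib.P162L2
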