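import Vale.Agent.Lib.P162L2.Inv
set_option linter.unusedSectionVars false
set_option linter.deprecated false

/-!
Thorp shuffle, `L2` route, Step C: the return probability as a normalized trace.
-/

open scoped InnerProductSpace
open Equiv Finset

namespace Vale.Agent.Lib.P162L2.C

variable {α : Type*} [Fintype α] [DecidableEq α]

/-- The exponential of an operator on an eigenvector. -/
theorem exp_apply_eigen {V : Type*} [NormedAddCommGroup V] [InnerProductSpace ℝ V] [CompleteSpace V]
    (A : V →L[ℝ] V) (b : V) (μ : ℝ) (h : A b = μ • b) :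
    NormedSpace.exp A b = Real.exp μ • b := by
  have hs := NormedSpace.exp_series_hasSum_exp' (𝕂 := ℝ) A
  have h1 := hs.mapL (ContinuousLinearMap.apply ℝ V b)
  have hpow : ∀ n : ℕ, (A ^ n) b = μ ^ n • b := by
    intro n
    induction n with
    | zero => simp
    | succ k ih =>
      rw [pow_succ', ContinuousLinearMap.mul_apply, ih, map_smul, h, smul_smul, pow_succ]
  have h2 : HasSum (fun n : ℕ => ((n.factorial : ℝ)⁻¹ • μ ^ n) • b) (Real.exp μ • b) := by
    have h3 := NormedSpace.exp_series_hasSum_exp' (𝕂 := ℝ) μ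
    rw [← Real.exp_eq_exp_ℝ] at h3
    exact h3.smul_const b
  have h4 : (fun n : ℕ => (ContinuousLinearMap.apply ℝ V b) (((n.factorial : ℝ)⁻¹) • A ^ n))
      = fun n : ℕ => ((n.factorial : ℝ)⁻¹ • μ ^ n) • b := by
    funext n
    simp only [ContinuousLinearMap.apply_apply, ContinuousLinearMap.smul_apply, hpow, smul_smul,
      smul_eq_mul]
  rw [h4] at h1
  exact h1.unique h2

/-- Right translation of functions on the symmetric group. -/
noncomputable def rightReg (h : Perm α) : L2Perm α →L[ℝ] L2Perm α :=
  (LinearIsometryEquiv.piLpCongrLeft 2 ℝ ℝ (Equiv.mulRight h⁻¹)).toContinuousLinearEquiv.toContinuousLinearMap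

lemma rightReg_apply (h : Perm α) (f : L2Perm α) (x : Perm α) :
    (rightReg h f) x = f (x * h) := by
  show f.ofLp ((Equiv.mulRight h⁻¹).symm x) = f.ofLp (x * h)
  simp

lemma rightReg_inner (h : Perm α) (x y : L2Perm α) :
    ⟪rightReg h x, rightReg h y⟫_ℝ = ⟪x, y⟫_ℝ :=
  (LinearIsometryEquiv.piLpCongrLeft 2 ℝ ℝ (Equiv.mulRight h⁻¹)).inner_map_map x y

lemma commute_rightReg_leftReg (h g : Perm α) : Commute (rightReg h) (leftReg α g) := by
  show rightReg h * leftReg α g = leftReg α g * rightReg h
  ext f x
  simp only [ContinuousLinearMap.mul_apply]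
  rw [rightReg_apply, leftReg_apply, leftReg_apply, rightReg_apply, mul_assoc]

lemma commute_smul_clm {V : Type*} [NormedAddCommGroup V] [InnerProductSpace ℝ V]
    {A B : V →L[ℝ] V} (h : Commute A B) (c : ℝ) : Commute A (c • B) := by
  show A * (c • B) = (c • B) * A
  ext x
  have := congrArg (fun F : V →L[ℝ] V => F x) h.eq
  simp only [ContinuousLinearMap.mul_apply] at this
  simp only [ContinuousLinearMap.mul_apply, ContinuousLinearMap.smul_apply, map_smul, this]

lemma commute_rightReg_casimir (h : Perm α) (T : Finset α) :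
    Commute (rightReg h) (casimir (leftReg α) T) := by
  unfold casimir
  apply commute_smul_clm
  apply Commute.sum_right
  intro p _
  exact (Commute.one_right _).sub_right (commute_rightReg_leftReg h _)

lemma rightReg_single (h : Perm α) :
    rightReg h (EuclideanSpace.single (1 : Perm α) (1 : ℝ))
      = EuclideanSpace.single (h⁻¹ : Perm α) (1 : ℝ) := by
  ext x
  rw [rightReg_apply]
  simp only [EuclideanSpace.single_apply]
  have : x * h = 1 ↔ x = h⁻¹ := mul_eq_one_iff_eq_inv
  simp [this]

/-- The normalized trace formula for the return probability. -/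
theorem return_eq_trace {ι : Type*} [Fintype ι] (b : OrthonormalBasis ι ℝ (L2Perm α)) (ev : ι → ℝ)
    (hb : ∀ i, casimir (leftReg α) univ (b i) = ev i • b i) (s : ℝ) :
    ⟪(EuclideanSpace.single (1 : Perm α) (1 : ℝ) : L2Perm α),
      NormedSpace.exp ((-s) • casimir (leftReg α) univ) (EuclideanSpace.single (1 : Perm α) (1 : ℝ))⟫_ℝ
      = (∑ i, Real.exp (-s * ev i)) / ((Fintype.card α).factorial : ℝ) := by
  set D := casimir (leftReg α) (univ : Finset α) with hD
  set E := NormedSpace.exp ((-s) • D) with hE
  have hcomm : ∀ h : Perm α, Commute (rightReg h) E := fun h =>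
    (commute_smul_clm (commute_rightReg_casimir h univ) (-s)).exp_right
  have hdiag : ∀ g : Perm α, ⟪(EuclideanSpace.single g (1 : ℝ) : L2Perm α),
      E (EuclideanSpace.single g (1 : ℝ))⟫_ℝ
      = ⟪(EuclideanSpace.single (1 : Perm α) (1 : ℝ) : L2Perm α),
        E (EuclideanSpace.single (1 : Perm α) (1 : ℝ))⟫_ℝ := by
    intro g
    have h1 := rightReg_single (α := α) g⁻¹
    rw [inv_inv] at h1
    rw [← h1]
    have h2 : E (rightReg g⁻¹ (EuclideanSpace.single (1 : Perm α) (1 : ℝ)))
        = rightReg g⁻¹ (E (EuclideanSpace.single (1 : Perm α) (1 : ℝ))) := by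
      have := congrArg (fun A : L2Perm α →L[ℝ] L2Perm α => A (EuclideanSpace.single (1 : Perm α) (1 : ℝ)))
        (hcomm g⁻¹).eq
      exact this.symm
    rw [h2, rightReg_inner]
  have hEb : ∀ i, E (b i) = Real.exp (-s * ev i) • b i := by
    intro i
    apply exp_apply_eigen
    rw [ContinuousLinearMap.smul_apply, hb, smul_smul]
  have hcard : (Fintype.card (Perm α) : ℝ) = ((Fintype.card α).factorial : ℝ) := by
    rw [Fintype.card_perm]
  have hfact : ((Fintype.card α).factorial : ℝ) ≠ 0 := by
    exact_mod_cast Nat.factorial_ne_zero _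
  have hsum : ∑ g : Perm α, ⟪(EuclideanSpace.single g (1 : ℝ) : L2Perm α),
      E (EuclideanSpace.single g (1 : ℝ))⟫_ℝ = ∑ i, Real.exp (-s * ev i) := by
    have h1 : ∀ g : Perm α, ⟪(EuclideanSpace.single g (1 : ℝ) : L2Perm α),
        E (EuclideanSpace.single g (1 : ℝ))⟫_ℝ
        = ∑ i, Real.exp (-s * ev i) * (b i g) ^ 2 := by
      intro g
      have h2 : (EuclideanSpace.single g (1 : ℝ) : L2Perm α)
          = ∑ i, (b i g) • b i := by
        have := b.sum_repr' (EuclideanSpace.single g (1 : ℝ) : L2Perm α)
        rw [← this]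
        apply Finset.sum_congr rfl
        intro i _
        congr 1
        rw [real_inner_comm, EuclideanSpace.inner_single_left]
        simp
      have h3 : E (EuclideanSpace.single g (1 : ℝ))
          = ∑ i, (b i g * Real.exp (-s * ev i)) • b i := by
        conv_lhs => rw [h2]
        rw [map_sum]
        apply Finset.sum_congr rfl
        intro i _
        rw [map_smul, hEb, smul_smul]
      rw [h3, inner_sum]
      apply Finset.sum_congr rfl
      intro i _
      rw [inner_smul_right, EuclideanSpace.inner_single_left]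
      simp
      ring
    simp_rw [h1]
    rw [Finset.sum_comm]
    apply Finset.sum_congr rfl
    intro i _
    rw [← Finset.mul_sum]
    have h4 : ∑ g : Perm α, (b i g) ^ 2 = 1 := by
      have h5 := b.orthonormal.1 i
      have h6 := EuclideanSpace.norm_sq_eq (b i)
      rw [h5] at h6
      simp only [Real.norm_eq_abs, sq_abs] at h6
      linarith
    rw [h4, mul_one]
  simp_rw [hdiag] at hsum
  rw [Finset.sum_const, Finset.card_univ, nsmul_eq_mul, hcard] at hsum
  rw [← hsum]
  field_simp

end Vale.Agent.Lib.P162L2.C
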