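import Vale.Agent.Lib.P162L2.TraceSum
import Vale.Agent.Lib.P162L2.TraceForm
import Vale.Agent.Lib.P162L2.Count

/-!
STEP C (see note P162blueprint): the return probability of the transposition semigroup on the
symmetric group, by an elementary eigenvalue count.
-/

open Finset NormedSpace Equiv
open scoped InnerProductSpace

namespace Vale.Agent.Lib.P162L2

open C

variable {α : Type*} [Fintype α] [DecidableEq α]

/-- The return probability bound from the dimension count of the level spaces. -/
theorem return_bound_aux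
    (hcount : ∀ ℓ ≤ Fintype.card α, Module.finrank ℝ (Vell (leftReg α) ℓ) ≤ (Fintype.card α) ^ (2 * ℓ))
    (hn : 2 ≤ Fintype.card α) {s : ℝ}
    (hs : 32 * Real.log (Fintype.card α) / Fintype.card α ≤ s) :
    ⟪(EuclideanSpace.single (1 : Perm α) (1 : ℝ) : L2Perm α),
      exp ((-s) • casimir (leftReg α) univ) (EuclideanSpace.single (1 : Perm α) (1 : ℝ))⟫_ℝ
      ≤ (5 / 4) / (Nat.factorial (Fintype.card α) : ℝ) := by
  have hsymm : (casimir (leftReg α) univ : L2Perm α →ₗ[ℝ] L2Perm α).IsSymmetric :=
    fun x y => casimir_symm leftReg_isOrth univ x y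
  have hdim : Module.finrank ℝ (L2Perm α) ≤ (Fintype.card α) ^ (Fintype.card α) := by
    rw [finrank_euclideanSpace, Fintype.card_perm]
    exact Nat.factorial_le_pow _
  have hb : ∀ i, casimir (leftReg α) univ (hsymm.eigenvectorBasis rfl i)
      = (hsymm.eigenvalues rfl i) • hsymm.eigenvectorBasis rfl i := by
    intro i
    exact hsymm.apply_eigenvectorBasis rfl i
  rw [return_eq_trace _ _ hb s]
  have h1 := trace_sum_le leftReg_isOrth hn _ _ hb hcount hdim hs
  have hfact : (0 : ℝ) < (Nat.factorial (Fintype.card α) : ℝ) := by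
    exact_mod_cast Nat.factorial_pos _
  exact div_le_div_of_nonneg_right h1 hfact.le

/-- The return probability bound: `e^{-sD}(1,1) ≤ (5/4)/n!` for `s ≥ 32 log n / n`. -/
theorem return_bound (hn : 2 ≤ Fintype.card α) {s : ℝ}
    (hs : 32 * Real.log (Fintype.card α) / Fintype.card α ≤ s) :
    ⟪(EuclideanSpace.single (1 : Perm α) (1 : ℝ) : L2Perm α),
      exp ((-s) • casimir (leftReg α) univ) (EuclideanSpace.single (1 : Perm α) (1 : ℝ))⟫_ℝ
      ≤ (5 / 4) / (Nat.factorial (Fintype.card α) : ℝ) :=
  return_bound_aux (fun l hl => finrank_Vell_leftReg l hl) hn hs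

end Vale.Agent.Lib.P162L2
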