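import Vale.Agent.Lib.P162.ThorpBits
import Vale.Agent.Lib.P162L2.Induct
import Vale.Agent.Lib.P162L2.Levels

/-!
Final assembly: `t ≥ 7200 (d+1)^2` Thorp shuffles of `2^(d+1)` cards are within `1/4` of uniform.
-/

open Finset NormedSpace Equiv
open scoped InnerProductSpace
open P162

namespace Vale.Agent.Lib.P162L2

/-- Conjugation by the bits, as a homomorphism. -/
noncomputable def conjHom (d : ℕ) : Perm (Pos (d + 1)) →* Perm (Fin (2 ^ (d + 1))) where
  toFun := conjP d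
  map_one' := conjP_one d
  map_mul' := conjP_mul d

/-- The representation of `Perm (Pos (d+1))` on functions on the symmetric group of positions. -/
noncomputable def rhoD (d : ℕ) : Perm (Pos (d + 1)) →* (L2Perm (Fin (2 ^ (d + 1))) →L[ℝ] L2Perm (Fin (2 ^ (d + 1)))) :=
  (leftReg (Fin (2 ^ (d + 1)))).comp (conjHom d)

lemma rhoD_isOrth (d : ℕ) : IsOrth (rhoD d) := fun _ x y => leftReg_isOrth _ x y

lemma casimir_rhoD (d : ℕ) :
    casimir (rhoD d) univ = casimir (leftReg (Fin (2 ^ (d + 1)))) univ := by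
  rw [casimir_eq, casimir_eq]
  congr 1
  rw [← Equiv.sum_comp (bitsE (d + 1))]
  refine Finset.sum_congr rfl fun x _ => ?_
  rw [← Equiv.sum_comp (bitsE (d + 1))]
  refine Finset.sum_congr rfl fun y _ => ?_
  have key : conjP d (swap (bitsE (d + 1) x) (bitsE (d + 1) y)) = swap x y := by
    apply Equiv.ext
    intro z
    show (bitsE (d + 1)).symm (swap (bitsE (d + 1) x) (bitsE (d + 1) y) (bitsE (d + 1) z)) = swap x y z
    rw [← Equiv.symm_trans_swap_trans x y (bitsE (d + 1))]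
    simp only [Equiv.trans_apply, Equiv.symm_apply_apply]
  show 1 - leftReg _ (conjP d (swap (bitsE (d + 1) x) (bitsE (d + 1) y))) = _
  rw [key]

/-- The delta function at the identity. -/
noncomputable abbrev deltaOne (d : ℕ) : L2Perm (Fin (2 ^ (d + 1))) :=
  EuclideanSpace.single (1 : Perm (Fin (2 ^ (d + 1)))) (1 : ℝ)

lemma QQ_rhoD_apply (d : ℕ) (f : L2Perm (Fin (2 ^ (d + 1)))) (x : Perm (Fin (2 ^ (d + 1)))) :
    (QQ (d + 1) (rhoD d) f) x = ∑ w, qPow d (d + 1) w * f (w⁻¹ * x) := by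
  rw [qPow_pass d (fun w => f (w⁻¹ * x))]
  unfold QQ avgOp avg
  simp only [smul_apply, _root_.sum_apply]
  rw [div_eq_inv_mul]
  simp only [PiLp.smul_apply, smul_eq_mul]
  congr 1
  rw [WithLp.ofLp_sum]
  simp only [Finset.sum_apply]
  refine Finset.sum_congr rfl fun ω _ => ?_
  rfl

lemma QQ_pow_delta (d T : ℕ) (x : Perm (Fin (2 ^ (d + 1)))) :
    (((QQ (d + 1) (rhoD d)) ^ T) (deltaOne d)) x = qPow d ((d + 1) * T) x := by
  induction T generalizing x with
  | zero =>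
    show (deltaOne d) x = (if x = 1 then (1 : ℝ) else 0)
    simp [deltaOne]
  | succ T ih =>
    have h1 : ((QQ (d + 1) (rhoD d)) ^ (T + 1)) (deltaOne d)
        = QQ (d + 1) (rhoD d) (((QQ (d + 1) (rhoD d)) ^ T) (deltaOne d)) := by
      rw [pow_succ' (QQ (d + 1) (rhoD d)) T]; rfl
    rw [h1, QQ_rhoD_apply]
    simp only [ih]
    have h2 : (d + 1) * (T + 1) = (d + 1) + (d + 1) * T := by ring
    rw [h2, qPow_add d (d + 1) ((d + 1) * T)]
    rfl

lemma sum_sq_qPow_le (d T : ℕ) (hT : 7200 * (d + 1) ≤ T) :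
    ∑ x, qPow d ((d + 1) * T) x ^ 2 ≤ (5 / 4) / (Fintype.card (Perm (Fin (2 ^ (d + 1)))) : ℝ) := by
  have h1 := QQ_pow_bound (d + 1) (rhoD d) (rhoD_isOrth d) T (deltaOne d)
  rw [EuclideanSpace.real_norm_sq_eq] at h1
  simp only [QQ_pow_delta] at h1
  rw [casimir_rhoD] at h1
  refine h1.trans ?_
  have hcard : Fintype.card (Perm (Fin (2 ^ (d + 1)))) = Nat.factorial (2 ^ (d + 1)) := by
    rw [Fintype.card_perm, Fintype.card_fin]
  rw [hcard]
  have hn2 : 2 ≤ Fintype.card (Fin (2 ^ (d + 1))) := by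
    rw [Fintype.card_fin]
    calc 2 = 2 ^ 1 := rfl
      _ ≤ 2 ^ (d + 1) := Nat.pow_le_pow_right (by norm_num) (by omega)
  have hb := return_bound (α := Fin (2 ^ (d + 1))) hn2 (s := (T : ℝ) * aa (d + 1)) ?_
  · simpa using hb
  · rw [Fintype.card_fin]
    have hn : (0 : ℝ) < ((2 ^ (d + 1) : ℕ) : ℝ) := by positivity
    have hlog : Real.log ((2 ^ (d + 1) : ℕ) : ℝ) ≤ (d : ℝ) + 1 := by
      push_cast
      rw [Real.log_pow]
      have : Real.log 2 ≤ 1 := by
        have := Real.log_two_lt_d9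
        linarith
      push_cast
      nlinarith [show (0 : ℝ) ≤ (d : ℝ) + 1 by positivity]
    have ha := aa_ge (d + 1)
    have hT' : (7200 : ℝ) * ((d : ℝ) + 1) ≤ T := by exact_mod_cast hT
    have hpow : ((2 ^ (d + 1) : ℕ) : ℝ) = 2 ^ (d + 1) := by push_cast; rfl
    rw [hpow] at hn hlog ⊢
    have h3 : (T : ℝ) * ((1 / 225) / 2 ^ (d + 1)) ≤ (T : ℝ) * aa (d + 1) :=
      mul_le_mul_of_nonneg_left ha (by positivity)
    refine le_trans ?_ h3
    rw [div_le_iff₀ hn]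
    have : (T : ℝ) * ((1 / 225) / 2 ^ (d + 1)) * 2 ^ (d + 1) = (T : ℝ) / 225 := by
      field_simp
    rw [this]
    nlinarith

/-- Small `l²` norm implies small total variation. -/
lemma tv_of_sum_sq {X : Type} [Fintype X] [Nonempty X] (ν : X → ℝ) (hs : ∑ x, ν x = 1)
    (h : ∑ x, ν x ^ 2 ≤ (5 / 4) / (Fintype.card X : ℝ)) :
    (1 / 2) * ∑ x, |ν x - 1 / (Fintype.card X : ℝ)| ≤ 1 / 4 := by
  set N : ℝ := (Fintype.card X : ℝ) with hN
  have hN0 : 0 < N := by
    rw [hN]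
    exact_mod_cast Fintype.card_pos
  have h1 : ∑ x, (ν x - 1 / N) ^ 2 ≤ (1 / 4) / N := by
    have : ∀ x, (ν x - 1 / N) ^ 2 = ν x ^ 2 - (2 / N) * ν x + 1 / N ^ 2 := by
      intro x; field_simp; ring
    simp only [this]
    rw [Finset.sum_add_distrib, Finset.sum_sub_distrib, ← Finset.mul_sum, hs]
    simp only [Finset.sum_const, Finset.card_univ, nsmul_eq_mul]
    rw [← hN]
    have e : N * (1 / N ^ 2) = 1 / N := by field_simp
    rw [e]
    have e2 : (5 / 4) / N - 2 / N * 1 + 1 / N = (1 / 4) / N := by ring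
    linarith
  have h2 : (∑ x, |ν x - 1 / N|) ^ 2 ≤ N * ∑ x, (ν x - 1 / N) ^ 2 := by
    have := sq_sum_le_card_mul_sum_sq (s := (univ : Finset X)) (f := fun x => |ν x - 1 / N|)
    simp only [sq_abs, Finset.card_univ] at this
    exact this
  have h3 : N * ∑ x, (ν x - 1 / N) ^ 2 ≤ 1 / 4 := by
    calc _ ≤ N * ((1 / 4) / N) := mul_le_mul_of_nonneg_left h1 hN0.le
      _ = 1 / 4 := by field_simp
  have h4 : ∑ x, |ν x - 1 / N| ≤ 1 / 2 := by
    have h5 : (∑ x, |ν x - 1 / N|) ^ 2 ≤ (1 / 2) ^ 2 := by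
      calc _ ≤ (1 / 4 : ℝ) := h2.trans h3
        _ = _ := by norm_num
    exact (abs_le_of_sq_le_sq' h5 (by norm_num)).2
  linarith

/-- **Main theorem.** `7200 (d+1)^2` Thorp shuffles of `2^(d+1)` cards bring the full permutation
within `1/4` of uniform in total variation. -/
theorem thorp_mixing_sq (d t : ℕ) (ht : 7200 * (d + 1) ^ 2 ≤ t) :
    tvDist (qPow d t) (unifLaw d) ≤ 1 / 4 := by
  have h0 : (d + 1) * (7200 * (d + 1)) = 7200 * (d + 1) ^ 2 := by ring
  obtain ⟨r, rfl⟩ : ∃ r, t = (d + 1) * (7200 * (d + 1)) + r := ⟨t - 7200 * (d + 1) ^ 2, by omega⟩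
  refine (tv_mono d _ r).trans ?_
  have hs := sum_sq_qPow_le d (7200 * (d + 1)) le_rfl
  have := tv_of_sum_sq (qPow d ((d + 1) * (7200 * (d + 1)))) (qPow_sum d _) hs
  exact this

end Vale.Agent.Lib.P162L2
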