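import Vale.Agent.Lib.P162L2.Eig
set_option linter.unusedSectionVars false
set_option linter.deprecated false

/-!
Thorp shuffle, `L2` route, Step C: the form bound `(H r)`.
-/

open scoped InnerProductSpace
open Equiv Finset

namespace Vale.Agent.Lib.P162L2.C

variable {V : Type*} [NormedAddCommGroup V] [InnerProductSpace ℝ V]
variable {α : Type*} [Fintype α] [DecidableEq α]
variable {ρ : Perm α →* (V →L[ℝ] V)}

/-- The vectors orthogonal to all `Inv U`, `U ⊆ T`, `|U| = r+1`. -/
def WW (ρ : Perm α →* (V →L[ℝ] V)) (T : Finset α) (r : ℕ) : Submodule ℝ V where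
  carrier := {f | ∀ U ⊆ T, U.card = r + 1 → ∀ w ∈ Inv ρ U, ⟪f, w⟫_ℝ = 0}
  add_mem' := by
    intro f g hf hg U hU hc w hw
    rw [inner_add_left, hf U hU hc w hw, hg U hU hc w hw, add_zero]
  zero_mem' := by
    intro U _ _ w _
    exact inner_zero_left _
  smul_mem' := by
    intro c f hf U hU hcard w hw
    rw [inner_smul_left, hf U hU hcard w hw, mul_zero]

theorem mem_WW {T : Finset α} {r : ℕ} {f : V} :
    f ∈ WW ρ T r ↔ ∀ U ⊆ T, U.card = r + 1 → ∀ w ∈ Inv ρ U, ⟪f, w⟫_ℝ = 0 := Iff.rfl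

/-- Induction step in `|T|`. -/
theorem H_step (hρ : IsOrth ρ) (T : Finset α) (ht : 3 ≤ T.card) (f : V)
    (hstep : ∀ c ∈ T, (((T.card : ℝ) - 1) * ((T.card : ℝ) - 2) / 4) * ‖f‖ ^ 2
      ≤ ⟪f, casimir ρ (T.erase c) f⟫_ℝ) :
    ((T.card : ℝ) * ((T.card : ℝ) - 1) / 4) * ‖f‖ ^ 2 ≤ ⟪f, casimir ρ T f⟫_ℝ := by
  have h1 := Finset.sum_le_sum hstep
  rw [Finset.sum_const, nsmul_eq_mul, ← inner_sum] at h1
  have h2 : ∑ c ∈ T, casimir ρ (T.erase c) f = ((T.card : ℝ) - 2) • casimir ρ T f :=
    casimir_average T f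
  rw [h2, inner_smul_right] at h1
  have ht' : (3 : ℝ) ≤ T.card := by exact_mod_cast ht
  have hpos : (0 : ℝ) < (T.card : ℝ) - 2 := by linarith
  have : ((T.card : ℝ) - 2) * (((T.card : ℝ) * ((T.card : ℝ) - 1) / 4) * ‖f‖ ^ 2)
      ≤ ((T.card : ℝ) - 2) * ⟪f, casimir ρ T f⟫_ℝ := by
    calc _ = (T.card : ℝ) * (((T.card : ℝ) - 1) * ((T.card : ℝ) - 2) / 4 * ‖f‖ ^ 2) := by ring
      _ ≤ _ := h1
  exact le_of_mul_le_mul_left this hpos

/-- `(H r)`: on vectors orthogonal to all `Inv U`, `U ⊆ T`, `|U| = r+1`, with `2r+1 ≤ |T|`,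
the form of `D_T` is at least `|T|(|T|-1)/4`. -/
theorem H_bound [FiniteDimensional ℝ V] (hρ : IsOrth ρ) (r : ℕ) :
    ∀ T : Finset α, 2 * r + 1 ≤ T.card → ∀ f ∈ WW ρ T r,
      ((T.card : ℝ) * ((T.card : ℝ) - 1) / 4) * ‖f‖ ^ 2 ≤ ⟪f, casimir ρ T f⟫_ℝ := by
  induction r with
  | zero =>
    intro T hT f hf
    obtain ⟨a, ha⟩ : T.Nonempty := Finset.card_pos.1 (by omega)
    have h0 := hf {a} (by simpa using ha) (by simp) f (mem_Inv_singleton (ρ := ρ) a f)
    have hf0 : f = 0 := inner_self_eq_zero.1 h0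
    subst hf0
    simp
  | succ r ih =>
    -- reduce to `|T| = t` by induction on `t`
    have main : ∀ t : ℕ, 2 * (r + 1) + 1 ≤ t → ∀ T : Finset α, T.card = t → ∀ f ∈ WW ρ T (r + 1),
        ((T.card : ℝ) * ((T.card : ℝ) - 1) / 4) * ‖f‖ ^ 2 ≤ ⟪f, casimir ρ T f⟫_ℝ := by
      intro t ht
      induction t, ht using Nat.le_induction with
      | base =>
        intro T hT f hf
        have hsymm : (casimir ρ T : V →ₗ[ℝ] V).IsSymmetric := fun x y => casimir_symm hρ T x y
        have hinv : ∀ x ∈ WW ρ T (r + 1), (casimir ρ T : V →ₗ[ℝ] V) x ∈ WW ρ T (r + 1) := by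
          intro x hx U hU hc w hw
          exact casimir_perp hρ hU (fun w hw => hx U hU hc w hw) w hw
        refine form_ge_of_eigen (casimir ρ T : V →ₗ[ℝ] V) hsymm (WW ρ T (r + 1)) hinv _ ?_ f hf
        intro v hv hv0 ν hνv
        have hνv' : casimir ρ T v = ν • v := hνv
        have hcardT : (T.card : ℝ) = 2 * (r : ℝ) + 3 := by
          rw [hT]; push_cast; ring
        by_cases hP : ∃ U ⊆ T, U.card = r + 1 ∧ ∃ w ∈ Inv ρ U, ⟪v, w⟫_ℝ ≠ 0
        · obtain ⟨U, hU, hUc, hw⟩ := hP
          have hperp : ∀ c ∈ T \ U, ∀ w ∈ Inv ρ (insert c U), ⟪v, w⟫_ℝ = 0 := by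
            intro c hc w hw
            rw [Finset.mem_sdiff] at hc
            refine hv (insert c U) ?_ ?_ w hw
            · exact Finset.insert_subset hc.1 hU
            · rw [Finset.card_insert_of_notMem hc.2, hUc]
          have h1 := eig_lower hρ hU hνv' hw hperp
          have h2 : ((T \ U).card : ℝ) = (r : ℝ) + 2 := by
            rw [Finset.card_sdiff_of_subset hU, hUc, hT]
            have : 2 * (r + 1) + 1 - (r + 1) = r + 2 := by omega
            rw [this]; push_cast; ring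
          rw [h2, hUc] at h1
          rw [hcardT]
          push_cast at h1
          have hr : (0 : ℝ) ≤ r := Nat.cast_nonneg r
          nlinarith
        · push Not at hP
          have hv' : v ∈ WW ρ T r := fun U hU hc w hw => hP U hU hc w hw
          have h1 := ih T (by omega) v hv'
          rw [hνv', inner_smul_right, real_inner_self_eq_norm_sq] at h1
          have hpos : 0 < ‖v‖ ^ 2 := by positivity
          nlinarith
      | succ t ht ih2 =>
        intro T hT f hf
        refine H_step hρ T (by omega) f ?_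
        intro c hc
        have hcard : (T.erase c).card = t := by
          rw [Finset.card_erase_of_mem hc, hT]; rfl
        have hf' : f ∈ WW ρ (T.erase c) (r + 1) := by
          intro U hU hUc w hw
          exact hf U (hU.trans (Finset.erase_subset _ _)) hUc w hw
        have := ih2 (T.erase c) hcard f hf'
        rw [hcard] at this
        have e : ((T.card : ℝ)) = (t : ℝ) + 1 := by rw [hT]; push_cast; ring
        rw [e]
        convert this using 2
        ring
    intro T hT f hf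
    exact main T.card hT T rfl f hf

end Vale.Agent.Lib.P162L2.C
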