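import Vale.Agent.Lib.P162L2.Defs
set_option linter.unusedSectionVars false
set_option linter.deprecated false

/-!
Thorp shuffle, `L2` route, Step C, abstract part: invariant subspaces of an orthogonal
representation of `Perm α`, the transposition Laplacian `casimir` and the lower bounds for
its eigenvalues.
-/

open scoped InnerProductSpace
open Equiv Finset

namespace Vale.Agent.Lib.P162L2.C

variable {V : Type*} [NormedAddCommGroup V] [InnerProductSpace ℝ V]
variable {α : Type*} [Fintype α] [DecidableEq α]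
variable (ρ : Perm α →* (V →L[ℝ] V))

/-- The transposition operator. -/
noncomputable abbrev SS (a b : α) : V →L[ℝ] V := ρ (swap a b)

theorem SS_comm (a b : α) : SS ρ a b = SS ρ b a := by
  unfold SS
  rw [swap_comm]

theorem SS_self (a : α) (x : V) : SS ρ a a x = x := by
  unfold SS
  rw [swap_self]
  have : ρ (Equiv.refl α) = 1 := ρ.map_one
  rw [this]
  rfl

theorem SS_SS (a b : α) (x : V) : SS ρ a b (SS ρ a b x) = x := by
  have h : ρ (swap a b * swap a b) = ρ (swap a b) * ρ (swap a b) := ρ.map_mul _ _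
  rw [swap_mul_self, ρ.map_one] at h
  have := congrArg (fun A : V →L[ℝ] V => A x) h
  simpa using this.symm

theorem rho_mul_apply_Inv (g h : Perm α) (x : V) : ρ (g * h) x = ρ g (ρ h x) := by
  rw [ρ.map_mul]
  rfl

variable {ρ}

theorem inner_SS (hρ : IsOrth ρ) (a b : α) (x y : V) : ⟪SS ρ a b x, y⟫_ℝ = ⟪x, SS ρ a b y⟫_ℝ := by
  have := hρ (swap a b) x (SS ρ a b y)
  have e := SS_SS ρ a b y
  unfold SS at e ⊢
  rw [e] at this
  exact this

theorem inner_SS_self_le (hρ : IsOrth ρ) (a b : α) (x : V) : ⟪x, SS ρ a b x⟫_ℝ ≤ ‖x‖ ^ 2 := by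
  have h1 := hρ (swap a b) x x
  have h2 : ‖SS ρ a b x‖ ^ 2 = ‖x‖ ^ 2 := by
    rw [← real_inner_self_eq_norm_sq, ← real_inner_self_eq_norm_sq]
    exact h1
  have h3 := real_inner_le_norm x (SS ρ a b x)
  have h4 : ‖SS ρ a b x‖ = ‖x‖ := by
    have := sq_eq_sq₀ (norm_nonneg (SS ρ a b x)) (norm_nonneg x)
    exact this.1 h2
  rw [h4] at h3
  nlinarith [h3]

variable (ρ)

/-- The functions invariant under all transpositions of `U`. -/
def Inv (U : Finset α) : Submodule ℝ V where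
  carrier := {f | ∀ a ∈ U, ∀ b ∈ U, SS ρ a b f = f}
  add_mem' := by
    intro f g hf hg a ha b hb
    rw [map_add, hf a ha b hb, hg a ha b hb]
  zero_mem' := by
    intro a _ b _
    exact map_zero _
  smul_mem' := by
    intro c f hf a ha b hb
    rw [map_smul, hf a ha b hb]

variable {ρ}

theorem mem_Inv {U : Finset α} {f : V} : f ∈ Inv ρ U ↔ ∀ a ∈ U, ∀ b ∈ U, SS ρ a b f = f := Iff.rfl

theorem Inv_anti {U U' : Finset α} (h : U ⊆ U') : Inv ρ U' ≤ Inv ρ U := by
  intro f hf a ha b hb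
  exact hf a (h ha) b (h hb)

theorem mem_Inv_empty (f : V) : f ∈ Inv ρ (∅ : Finset α) := by
  intro a ha
  simp at ha

theorem mem_Inv_singleton (c : α) (f : V) : f ∈ Inv ρ ({c} : Finset α) := by
  intro a ha b hb
  rw [Finset.mem_singleton] at ha hb
  subst ha
  subst hb
  exact SS_self ρ _ f

/-! ### The Laplacian -/

theorem casimir_apply (T : Finset α) (f : V) :
    casimir ρ T f = (1 / 2 : ℝ) • ∑ p ∈ T.offDiag, (f - SS ρ p.1 p.2 f) := by
  unfold casimir
  simp only [ContinuousLinearMap.smul_apply, ContinuousLinearMap.sum_apply,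
    ContinuousLinearMap.sub_apply, ContinuousLinearMap.one_apply]

theorem inner_casimir_left (T : Finset α) (f g : V) :
    ⟪g, casimir ρ T f⟫_ℝ = (1 / 2 : ℝ) * ∑ p ∈ T.offDiag, (⟪g, f⟫_ℝ - ⟪g, SS ρ p.1 p.2 f⟫_ℝ) := by
  rw [casimir_apply, inner_smul_right, inner_sum]
  congr 1
  apply Finset.sum_congr rfl
  intro p _
  rw [inner_sub_right]

theorem casimir_symm (hρ : IsOrth ρ) (T : Finset α) (f g : V) :
    ⟪casimir ρ T f, g⟫_ℝ = ⟪f, casimir ρ T g⟫_ℝ := by
  rw [real_inner_comm, inner_casimir_left, inner_casimir_left]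
  congr 1
  apply Finset.sum_congr rfl
  intro p _
  have e1 : ⟪g, SS ρ p.1 p.2 f⟫_ℝ = ⟪f, SS ρ p.1 p.2 g⟫_ℝ := by
    rw [← inner_SS hρ, real_inner_comm]
  rw [e1, real_inner_comm f g]

theorem casimir_form_nonneg (hρ : IsOrth ρ) (T : Finset α) (f : V) :
    0 ≤ ⟪f, casimir ρ T f⟫_ℝ := by
  rw [inner_casimir_left]
  apply mul_nonneg (by norm_num)
  apply Finset.sum_nonneg
  intro p _
  have := inner_SS_self_le hρ p.1 p.2 f
  rw [real_inner_self_eq_norm_sq]
  linarith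

/-- `casimir` commutes with permutations preserving `T`. -/
theorem casimir_comm (g : Perm α) (T : Finset α) (hg : ∀ a, g a ∈ T ↔ a ∈ T) (f : V) :
    ρ g (casimir ρ T f) = casimir ρ T (ρ g f) := by
  rw [casimir_apply, casimir_apply, map_smul, map_sum]
  congr 1
  have key : ∀ p : α × α, ρ g (f - SS ρ p.1 p.2 f) = ρ g f - SS ρ (g p.1) (g p.2) (ρ g f) := by
    intro p
    rw [map_sub]
    congr 1
    unfold SS
    rw [← rho_mul_apply_Inv, ← rho_mul_apply_Inv, Equiv.mul_swap_eq_swap_mul]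
  simp only [key]
  apply Finset.sum_nbij' (fun p => (g p.1, g p.2)) (fun p => (g⁻¹ p.1, g⁻¹ p.2))
  · intro p hp
    simp only [Finset.mem_offDiag] at hp ⊢
    refine ⟨(hg _).2 hp.1, (hg _).2 hp.2.1, fun h => hp.2.2 (g.injective h)⟩
  · intro p hp
    simp only [Finset.mem_offDiag] at hp ⊢
    refine ⟨?_, ?_, ?_⟩
    · rw [← hg]; simpa using hp.1
    · rw [← hg]; simpa using hp.2.1
    · intro h
      exact hp.2.2 (g⁻¹.injective h)
  · intro p _
    simp
  · intro p _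
    simp
  · intro p _
    rfl

/-- `casimir ρ T` preserves `Inv ρ U` for `U ⊆ T`. -/
theorem casimir_mem_Inv {T U : Finset α} (hU : U ⊆ T) {f : V} (hf : f ∈ Inv ρ U) :
    casimir ρ T f ∈ Inv ρ U := by
  intro a ha b hb
  unfold SS
  rw [casimir_comm]
  · have := hf a ha b hb
    unfold SS at this
    rw [this]
  · intro c
    have ha' := hU ha
    have hb' := hU hb
    by_cases h1 : c = a
    · subst h1
      simp only [swap_apply_left]
      exact ⟨fun _ => ha', fun _ => hb'⟩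
    · by_cases h2 : c = b
      · subst h2
        simp only [swap_apply_right]
        exact ⟨fun _ => hb', fun _ => ha'⟩
      · rw [swap_apply_of_ne_of_ne h1 h2]

/-- Orthogonality to `Inv` is preserved. -/
theorem casimir_perp (hρ : IsOrth ρ) {T U : Finset α} (hU : U ⊆ T) {f : V}
    (hf : ∀ w ∈ Inv ρ U, ⟪f, w⟫_ℝ = 0) : ∀ w ∈ Inv ρ U, ⟪casimir ρ T f, w⟫_ℝ = 0 := by
  intro w hw
  rw [casimir_symm hρ]
  exact hf _ (casimir_mem_Inv hU hw)

theorem casimir_eq_zero_of_mem {U : Finset α} {f : V} (hf : f ∈ Inv ρ U) : casimir ρ U f = 0 := by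
  rw [casimir_apply]
  have : ∀ p ∈ U.offDiag, f - SS ρ p.1 p.2 f = 0 := by
    intro p hp
    rw [Finset.mem_offDiag] at hp
    rw [hf p.1 hp.1 p.2 hp.2.1, sub_self]
  rw [Finset.sum_eq_zero this, smul_zero]

/-- The splitting of the Laplacian. -/
theorem casimir_split {T U : Finset α} (hU : U ⊆ T) (f : V) :
    casimir ρ T f = casimir ρ U f + casimir ρ (T \ U) f
      + ∑ c ∈ T \ U, ∑ d ∈ U, (f - SS ρ c d f) := by
  rw [casimir_apply, casimir_apply, casimir_apply]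
  have hdec : T.offDiag = U.offDiag ∪ ((T \ U).offDiag ∪ (((T \ U) ×ˢ U) ∪ (U ×ˢ (T \ U)))) := by
    ext p
    simp only [Finset.mem_offDiag, Finset.mem_union, Finset.mem_product, Finset.mem_sdiff]
    constructor
    · rintro ⟨h1, h2, h3⟩
      by_cases a : p.1 ∈ U <;> by_cases b : p.2 ∈ U
      · exact Or.inl ⟨a, b, h3⟩
      · exact Or.inr (Or.inr (Or.inr ⟨a, h2, b⟩))
      · exact Or.inr (Or.inr (Or.inl ⟨⟨h1, a⟩, b⟩))
      · exact Or.inr (Or.inl ⟨⟨h1, a⟩, ⟨h2, b⟩, h3⟩)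
    · rintro (⟨h1, h2, h3⟩ | ⟨⟨h1, _⟩, ⟨h2, _⟩, h3⟩ | ⟨⟨h1, h1'⟩, h2⟩ | ⟨h1, h2, h2'⟩)
      · exact ⟨hU h1, hU h2, h3⟩
      · exact ⟨h1, h2, h3⟩
      · exact ⟨h1, hU h2, fun h => h1' (h ▸ h2)⟩
      · exact ⟨hU h1, h2, fun h => h2' (h ▸ h1)⟩
  have d1 : Disjoint U.offDiag ((T \ U).offDiag ∪ (((T \ U) ×ˢ U) ∪ (U ×ˢ (T \ U)))) := by
    rw [Finset.disjoint_left]
    intro p hp hq
    simp only [Finset.mem_offDiag, Finset.mem_union, Finset.mem_product, Finset.mem_sdiff] at hp hq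
    rcases hq with ⟨⟨_, h⟩, _⟩ | ⟨⟨_, h⟩, _⟩ | ⟨_, _, h⟩
    · exact h hp.1
    · exact h hp.1
    · exact h hp.2.1
  have d2 : Disjoint (T \ U).offDiag (((T \ U) ×ˢ U) ∪ (U ×ˢ (T \ U))) := by
    rw [Finset.disjoint_left]
    intro p hp hq
    simp only [Finset.mem_offDiag, Finset.mem_union, Finset.mem_product, Finset.mem_sdiff] at hp hq
    rcases hq with ⟨_, h⟩ | ⟨h, _⟩
    · exact hp.2.1.2 h
    · exact hp.1.2 h
  have d3 : Disjoint ((T \ U) ×ˢ U) (U ×ˢ (T \ U)) := by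
    rw [Finset.disjoint_left]
    intro p hp hq
    simp only [Finset.mem_product, Finset.mem_sdiff] at hp hq
    exact hp.1.2 hq.1
  rw [hdec, Finset.sum_union d1, Finset.sum_union d2, Finset.sum_union d3, smul_add, smul_add,
    smul_add, add_assoc]
  congr 2
  have e1 : ∑ p ∈ (T \ U) ×ˢ U, (f - SS ρ p.1 p.2 f) = ∑ c ∈ T \ U, ∑ d ∈ U, (f - SS ρ c d f) :=
    Finset.sum_product _ _ _
  have e2 : ∑ p ∈ U ×ˢ (T \ U), (f - SS ρ p.1 p.2 f) = ∑ c ∈ T \ U, ∑ d ∈ U, (f - SS ρ c d f) := by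
    rw [Finset.sum_product, Finset.sum_comm]
    apply Finset.sum_congr rfl
    intro c _
    apply Finset.sum_congr rfl
    intro d _
    rw [SS_comm]
  rw [e1, e2, ← smul_add, ← two_smul ℝ, smul_smul]
  norm_num

end Vale.Agent.Lib.P162L2.C
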