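import Vale.Agent.Lib.P162L2.Inv
set_option linter.unusedSectionVars false
set_option linter.deprecated false

/-!
Thorp shuffle, `L2` route, Step C: the low level spaces `V_ℓ`.
-/

open scoped InnerProductSpace
open Equiv Finset

namespace Vale.Agent.Lib.P162L2.C

variable {V : Type*} [NormedAddCommGroup V] [InnerProductSpace ℝ V]
variable {α : Type*} [Fintype α] [DecidableEq α]

/-- `V_ℓ`: the sum of the invariant spaces of all subsets of size `n - ℓ`. -/
noncomputable def Vell (ρ : Perm α →* (V →L[ℝ] V)) (ℓ : ℕ) : Submodule ℝ V :=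
  ⨆ U ∈ (univ : Finset α).powersetCard (Fintype.card α - ℓ), Inv ρ U

end Vale.Agent.Lib.P162L2.C
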