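import Vale.Agent.Lib.P162L2.HBound
import Vale.Agent.Lib.P162L2.Vell
set_option linter.unusedSectionVars false
set_option linter.deprecated false

/-!
Thorp shuffle, `L2` route, Step C: eigenvectors with a small eigenvalue lie in `V_ℓ`.
-/

open scoped InnerProductSpace
open Equiv Finset

namespace Vale.Agent.Lib.P162L2.C

variable {V : Type*} [NormedAddCommGroup V] [InnerProductSpace ℝ V]
variable {α : Type*} [Fintype α] [DecidableEq α]
variable {ρ : Perm α →* (V →L[ℝ] V)}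

theorem Inv_le_Vell {ℓ : ℕ} {U : Finset α} (hU : U.card = Fintype.card α - ℓ) :
    Inv ρ U ≤ Vell ρ ℓ := by
  unfold Vell
  refine le_iSup₂_of_le U ?_ le_rfl
  rw [Finset.mem_powersetCard]
  exact ⟨Finset.subset_univ _, hU⟩

theorem casimir_mem_Vell {ℓ : ℕ} {y : V} (hy : y ∈ Vell ρ ℓ) : casimir ρ univ y ∈ Vell ρ ℓ := by
  have h : Vell ρ ℓ ≤ (Vell ρ ℓ).comap (casimir ρ univ : V →ₗ[ℝ] V) := by
    unfold Vell
    refine iSup₂_le ?_
    intro U hU y hy
    rw [Finset.mem_powersetCard] at hU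
    have : casimir ρ univ y ∈ Inv ρ U := casimir_mem_Inv (Finset.subset_univ U) hy
    exact Inv_le_Vell hU.2 this
  exact h hy

/-- An eigenvector of the transposition Laplacian with a small eigenvalue lies in `V_ℓ`. -/
theorem low_mem [FiniteDimensional ℝ V] (hρ : IsOrth ρ) {ℓ : ℕ} (hℓ : ℓ ≤ Fintype.card α) {v : V}
    {ν : ℝ} (he : casimir ρ univ v = ν • v)
    (h1 : ν < ((ℓ : ℝ) + 1) * (Fintype.card α : ℝ) / 2)
    (h2 : ν < (Fintype.card α : ℝ) * ((Fintype.card α : ℝ) - 1) / 4) : v ∈ Vell ρ ℓ := by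
  obtain ⟨y, hy, z, hz, hv⟩ := (Vell ρ ℓ).exists_add_mem_mem_orthogonal v
  have hz' : ∀ w ∈ Vell ρ ℓ, ⟪z, w⟫_ℝ = 0 := fun w hw => by
    have := (Submodule.mem_orthogonal' _ _).1 hz w hw
    exact this
  have hDz : ∀ w ∈ Vell ρ ℓ, ⟪casimir ρ univ z, w⟫_ℝ = 0 := by
    intro w hw
    rw [casimir_symm hρ]
    exact hz' _ (casimir_mem_Vell hw)
  have hez : casimir ρ univ z = ν • z := by
    have e1 : casimir ρ univ z - ν • z = -(casimir ρ univ y - ν • y) := by
      have : casimir ρ univ (y + z) = ν • (y + z) := by rw [← hv]; exact he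
      rw [map_add, smul_add] at this
      have e : casimir ρ univ z - ν • z
          = (casimir ρ univ y + casimir ρ univ z) - (ν • y + ν • z) - (casimir ρ univ y - ν • y) := by
        abel
      rw [e, this]
      abel
    have hmem : casimir ρ univ y - ν • y ∈ Vell ρ ℓ :=
      (Vell ρ ℓ).sub_mem (casimir_mem_Vell hy) ((Vell ρ ℓ).smul_mem _ hy)
    have hperp : ⟪casimir ρ univ z - ν • z, casimir ρ univ y - ν • y⟫_ℝ = 0 := by
      rw [inner_sub_left, hDz _ hmem, inner_smul_left, hz' _ hmem]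
      simp
    rw [e1, inner_neg_left, neg_eq_zero] at hperp
    have := inner_self_eq_zero.1 hperp
    have h0 : casimir ρ univ z - ν • z = 0 := by rw [e1, this, neg_zero]
    exact sub_eq_zero.1 h0
  by_cases hz0 : z = 0
  · rw [hv, hz0, add_zero]; exact hy
  exfalso
  let P : ℕ → Prop := fun j => ∃ U : Finset α, U.card = j ∧ ∃ w ∈ Inv ρ U, ⟪z, w⟫_ℝ ≠ 0
  classical
  have hP0 : P 0 := ⟨∅, Finset.card_empty, z, mem_Inv_empty (ρ := ρ) z, by
    rw [real_inner_self_eq_norm_sq]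
    have : 0 < ‖z‖ := norm_pos_iff.2 hz0
    positivity⟩
  have hlt : ∀ j, P j → j < Fintype.card α - ℓ := by
    rintro j ⟨U, hUc, w, hw, hwz⟩
    by_contra hcon
    push Not at hcon
    obtain ⟨U', hU', hU'c⟩ := Finset.exists_subset_card_eq (s := U) (n := Fintype.card α - ℓ)
      (by rw [hUc]; exact hcon)
    exact hwz (hz' w (Inv_le_Vell hU'c (Inv_anti (ρ := ρ) hU' hw)))
  set j := Nat.findGreatest P (Fintype.card α - ℓ) with hj
  have hPj : P j := Nat.findGreatest_spec (Nat.zero_le _) hP0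
  have hjlt : j < Fintype.card α - ℓ := hlt j hPj
  have hnotP : ¬ P (j + 1) := Nat.findGreatest_is_greatest (Nat.lt_succ_self j) (by omega)
  have hperp : ∀ U : Finset α, U.card = j + 1 → ∀ w ∈ Inv ρ U, ⟪z, w⟫_ℝ = 0 := by
    intro U hU w hw
    by_contra hcon
    exact hnotP ⟨U, hU, w, hw, hcon⟩
  have hpos : 0 < ‖z‖ ^ 2 := by
    have : 0 < ‖z‖ := norm_pos_iff.2 hz0
    positivity
  have hncast : (j : ℝ) + 1 + (ℓ : ℝ) ≤ (Fintype.card α : ℝ) := by
    have : j + 1 + ℓ ≤ Fintype.card α := by omega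
    exact_mod_cast this
  by_cases hcase : 2 * j + 1 ≤ Fintype.card α
  · have hW : z ∈ WW ρ (univ : Finset α) j := fun U _ hc w hw => hperp U hc w hw
    have := H_bound hρ j univ (by rw [Finset.card_univ]; exact hcase) z hW
    rw [Finset.card_univ, hez, inner_smul_right, real_inner_self_eq_norm_sq] at this
    have h3 := le_of_mul_le_mul_right this hpos
    linarith
  · obtain ⟨U, hUc, w, hw, hwz⟩ := hPj
    have hperp' : ∀ c ∈ (univ : Finset α) \ U, ∀ w ∈ Inv ρ (insert c U), ⟪z, w⟫_ℝ = 0 := by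
      intro c hc w hw
      rw [Finset.mem_sdiff] at hc
      exact hperp (insert c U) (by rw [Finset.card_insert_of_notMem hc.2, hUc]) w hw
    have h3 := eig_lower hρ (Finset.subset_univ U) hez ⟨w, hw, hwz⟩ hperp'
    have h4 : (((univ : Finset α) \ U).card : ℝ) = (Fintype.card α : ℝ) - j := by
      rw [Finset.card_sdiff_of_subset (Finset.subset_univ U), Finset.card_univ, hUc]
      rw [Nat.cast_sub (by omega)]
    rw [h4, hUc] at h3
    have h5 : (Fintype.card α : ℝ) / 2 ≤ (j : ℝ) + 1 := by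
      have : Fintype.card α ≤ 2 * j + 2 := by omega
      have : (Fintype.card α : ℝ) ≤ 2 * (j : ℝ) + 2 := by exact_mod_cast this
      linarith
    have h6 : (ℓ : ℝ) + 1 ≤ (Fintype.card α : ℝ) - j := by linarith
    have h7 : ((ℓ : ℝ) + 1) * ((Fintype.card α : ℝ) / 2) ≤ ((Fintype.card α : ℝ) - j) * ((j : ℝ) + 1) :=
      mul_le_mul h6 h5 (by positivity) (by linarith [show (0 : ℝ) ≤ ℓ from Nat.cast_nonneg ℓ])
    have h8 : ((ℓ : ℝ) + 1) * (Fintype.card α : ℝ) / 2 = ((ℓ : ℝ) + 1) * ((Fintype.card α : ℝ) / 2) := by ring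
    linarith

end Vale.Agent.Lib.P162L2.C
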