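import Vale.Agent.Lib.P162L2.Defs
import Vale.Agent.Lib.P162L2.Ops

/-!
Generalities on orthogonal representations of a symmetric group and transposition Laplacians.
-/

open Finset NormedSpace Equiv
open scoped InnerProductSpace

namespace Vale.Agent.Lib.P162L2

variable {V : Type*} [NormedAddCommGroup V] [InnerProductSpace ℝ V]
variable {α : Type*} [Fintype α] [DecidableEq α]

section
variable {ρ : Perm α →* (V →L[ℝ] V)}

omit [Fintype α] [DecidableEq α] in
lemma rho_norm (hρ : IsOrth ρ) (g : Perm α) (v : V) : ‖ρ g v‖ = ‖v‖ := by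
  have h := hρ g v v
  rw [real_inner_self_eq_norm_sq, real_inner_self_eq_norm_sq] at h
  exact (sq_eq_sq₀ (norm_nonneg _) (norm_nonneg _)).1 h

omit [Fintype α] [DecidableEq α] in
lemma rep_mul_apply (g h : Perm α) (v : V) : ρ g (ρ h v) = ρ (g * h) v := by
  rw [map_mul]; rfl

omit [Fintype α] [DecidableEq α] in
lemma rho_symm_of_invol (hρ : IsOrth ρ) {g : Perm α} (hg : g * g = 1) : IsSymm (ρ g) := by
  intro v w
  have h1 : ρ g (ρ g w) = w := by rw [rep_mul_apply, hg, map_one]; rfl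
  calc ⟪ρ g v, w⟫_ℝ = ⟪ρ g v, ρ g (ρ g w)⟫_ℝ := by rw [h1]
    _ = ⟪v, ρ g w⟫_ℝ := hρ g _ _

omit [Fintype α] in
lemma swap_symm (hρ : IsOrth ρ) (a b : α) : IsSymm (ρ (swap a b)) :=
  rho_symm_of_invol hρ (swap_mul_self a b)

omit [Fintype α] in
lemma swap_invol (a b : α) (v : V) : ρ (swap a b) (ρ (swap a b) v) = v := by
  rw [rep_mul_apply, swap_mul_self, map_one]; rfl

omit [Fintype α] in
lemma one_sub_form (hρ : IsOrth ρ) (a b : α) (v : V) :
    ‖(1 - ρ (swap a b)) v‖ ^ 2 = 2 * ⟪v, (1 - ρ (swap a b)) v⟫_ℝ := by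
  have h1 : (1 - ρ (swap a b)) v = v - ρ (swap a b) v := rfl
  rw [h1, norm_sub_sq_real, rho_norm hρ, inner_sub_right, real_inner_self_eq_norm_sq]
  ring

omit [Fintype α] in
lemma one_sub_form_nonneg (hρ : IsOrth ρ) (a b : α) (v : V) :
    0 ≤ ⟪v, (1 - ρ (swap a b)) v⟫_ℝ := by
  have := one_sub_form hρ a b v
  nlinarith [sq_nonneg ‖(1 - ρ (swap a b)) v‖]

omit [Fintype α] in
lemma casimir_eq (ρ : Perm α →* (V →L[ℝ] V)) (T : Finset α) :
    casimir ρ T = (1 / 2 : ℝ) • ∑ a ∈ T, ∑ b ∈ T, (1 - ρ (swap a b)) := by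
  unfold casimir
  congr 1
  rw [← Finset.sum_product', ← Finset.diag_union_offDiag, Finset.sum_union (Finset.disjoint_diag_offDiag T),
    Finset.sum_diag]
  have h : ρ (Equiv.refl α) = 1 := map_one ρ
  simp [h]

omit [Fintype α] in
lemma casimir_isSymm (hρ : IsOrth ρ) (T : Finset α) : IsSymm (casimir ρ T) := by
  unfold casimir
  apply IsSymm.smul
  apply IsSymm.sum
  intro p _
  exact IsSymm.one.sub (swap_symm hρ _ _)

omit [Fintype α] in
lemma casimir_form (ρ : Perm α →* (V →L[ℝ] V)) (T : Finset α) (v : V) :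
    ⟪v, casimir ρ T v⟫_ℝ = (1 / 2) * ∑ a ∈ T, ∑ b ∈ T, ⟪v, (1 - ρ (swap a b)) v⟫_ℝ := by
  rw [casimir_eq]
  simp only [smul_apply, _root_.sum_apply, inner_smul_right, inner_sum]

omit [Fintype α] in
lemma casimir_nonneg (hρ : IsOrth ρ) (T : Finset α) (v : V) : 0 ≤ ⟪v, casimir ρ T v⟫_ℝ := by
  rw [casimir_form]
  apply mul_nonneg (by norm_num)
  exact Finset.sum_nonneg fun a _ => Finset.sum_nonneg fun b _ => one_sub_form_nonneg hρ a b v

omit [Fintype α] in
lemma rho_mul_swap (ρ : Perm α →* (V →L[ℝ] V)) (g : Perm α) (a b : α) :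
    ρ g * ρ (swap a b) = ρ (swap (g a) (g b)) * ρ g := by
  rw [← map_mul, ← map_mul, mul_swap_eq_swap_mul]

omit [Fintype α] in
/-- `ρ g` commutes with `D_T` when `g` preserves `T`. -/
lemma rho_mul_casimir (ρ : Perm α →* (V →L[ℝ] V)) (T : Finset α) (g : Perm α)
    (hg : ∀ a, a ∈ T ↔ g a ∈ T) : ρ g * casimir ρ T = casimir ρ T * ρ g := by
  rw [casimir_eq, mul_smul_comm, smul_mul_assoc]
  congr 1
  rw [Finset.mul_sum, Finset.sum_mul]
  refine Finset.sum_equiv g hg ?_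
  intro a ha
  rw [Finset.mul_sum, Finset.sum_mul]
  refine Finset.sum_equiv g hg ?_
  intro b hb
  rw [mul_sub, sub_mul, rho_mul_swap]
  simp

omit [Fintype α] in
lemma rho_commute_casimir_univ [Fintype α] (ρ : Perm α →* (V →L[ℝ] V)) (g : Perm α) :
    ρ g * casimir ρ univ = casimir ρ univ * ρ g :=
  rho_mul_casimir ρ univ g (by simp)

lemma rho_apply_casimir_univ (ρ : Perm α →* (V →L[ℝ] V)) (g : Perm α) (v : V) :
    ρ g (casimir ρ univ v) = casimir ρ univ (ρ g v) := by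
  have := congrArg (fun T : V →L[ℝ] V => T v) (rho_commute_casimir_univ ρ g)
  exact this

end

end Vale.Agent.Lib.P162L2
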