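import Vale.Agent.Lib.P162L2.Low
set_option linter.unusedSectionVars false
set_option linter.deprecated false

/-!
Thorp shuffle, `L2` route, Step C: the sum of `exp(-s ν)` over the spectrum.
-/

open scoped InnerProductSpace
open Equiv Finset

namespace Vale.Agent.Lib.P162L2.C

variable {V : Type*} [NormedAddCommGroup V] [InnerProductSpace ℝ V]
variable {α : Type*} [Fintype α] [DecidableEq α]
variable {ρ : Perm α →* (V →L[ℝ] V)}

/-- An orthonormal family inside a subspace has at most `finrank` members. -/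
theorem card_le_finrank_of_orthonormal [FiniteDimensional ℝ V] {ι : Type*} [Fintype ι]
    (b : OrthonormalBasis ι ℝ V) (S : Submodule ℝ V) (I : Finset ι) (hI : ∀ i ∈ I, b i ∈ S) :
    I.card ≤ Module.finrank ℝ S := by
  let v : I → S := fun i => ⟨b i, hI i i.2⟩
  have hli : LinearIndependent ℝ v := by
    apply LinearIndependent.of_comp S.subtype
    have : (S.subtype ∘ v) = (fun i : I => b i) := rfl
    rw [this]
    exact b.orthonormal.linearIndependent.comp _ Subtype.val_injective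
  have := hli.fintype_card_le_finrank
  rwa [Fintype.card_coe] at this

/-- The exponential bound used for every eigenvalue. -/
theorem exp_le_pow {n s e : ℝ} (hn : 2 ≤ n) (hs : 32 * Real.log n / n ≤ s) {k : ℕ}
    (he : (k : ℝ) * n / 32 ≤ e) : Real.exp (-s * e) ≤ (n⁻¹) ^ k := by
  have hn0 : 0 < n := by linarith
  have hL : 0 ≤ Real.log n := Real.log_nonneg (by linarith)
  have he0 : 0 ≤ e := le_trans (by positivity) he
  have h1 : (k : ℝ) * Real.log n ≤ s * e := by
    calc (k : ℝ) * Real.log n = (32 * Real.log n / n) * ((k : ℝ) * n / 32) := by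
          field_simp
      _ ≤ (32 * Real.log n / n) * e := mul_le_mul_of_nonneg_left he (by positivity)
      _ ≤ s * e := mul_le_mul_of_nonneg_right hs he0
  have h2 : (n⁻¹) ^ k = Real.exp (-((k : ℝ) * Real.log n)) := by
    have : n⁻¹ = Real.exp (-Real.log n) := by
      rw [Real.exp_neg, Real.exp_log hn0]
    rw [this, ← Real.exp_nat_mul]
    congr 1
    ring
  rw [h2]
  apply Real.exp_le_exp.2
  linarith

/-- `∑ exp (-s ν) ≤ 5/4` from the dimension counts. -/
theorem trace_sum_le [FiniteDimensional ℝ V] {ι : Type*} [Fintype ι] (hρ : IsOrth ρ)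
    (hn : 2 ≤ Fintype.card α) (b : OrthonormalBasis ι ℝ V) (ev : ι → ℝ)
    (hb : ∀ i, casimir ρ univ (b i) = ev i • b i)
    (hcount : ∀ ℓ ≤ Fintype.card α, Module.finrank ℝ (Vell ρ ℓ) ≤ (Fintype.card α) ^ (2 * ℓ))
    (hdim : Module.finrank ℝ V ≤ (Fintype.card α) ^ (Fintype.card α))
    {s : ℝ} (hs : 32 * Real.log (Fintype.card α) / (Fintype.card α) ≤ s) :
    ∑ i, Real.exp (-s * ev i) ≤ 5 / 4 := by
  classical
  set n := Fintype.card α with hn'
  have hnR : (2 : ℝ) ≤ (n : ℝ) := by exact_mod_cast hn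
  have hn0 : (0 : ℝ) < n := by linarith
  set x : ℝ := ((n : ℝ))⁻¹ with hx
  have hx0 : 0 < x := by positivity
  have hx1 : x ≤ 1 / 2 := by
    rw [hx, one_div]
    exact inv_anti₀ (by norm_num) hnR
  have hnx : (n : ℝ) * x = 1 := by rw [hx]; field_simp
  have hev : ∀ i, 0 ≤ ev i := by
    intro i
    have h1 := casimir_form_nonneg hρ univ (b i)
    rw [hb, inner_smul_right, real_inner_self_eq_norm_sq, b.orthonormal.1 i] at h1
    simpa using h1
  let I : ℕ → Finset ι := fun j => univ.filter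
    (fun i => ev i < ((j : ℝ) + 1) * (n : ℝ) / 2 ∧ ev i < (n : ℝ) * ((n : ℝ) - 1) / 4)
  have hIcard : ∀ j ≤ n, (I j).card ≤ n ^ (2 * j) := by
    intro j hj
    refine le_trans (card_le_finrank_of_orthonormal b (Vell ρ j) (I j) ?_) (hcount j hj)
    intro i hi
    rw [Finset.mem_filter] at hi
    exact low_mem hρ hj (hb i) hi.2.1 hi.2.2
  have hpoint : ∀ i, Real.exp (-s * ev i)
      ≤ ∑ j ∈ range (n + 1), (if i ∈ I j then x ^ (16 * j) else 0) + x ^ (8 * (n - 1)) := by
    intro i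
    have hsum : 0 ≤ ∑ j ∈ range (n + 1), (if i ∈ I j then x ^ (16 * j) else 0) :=
      Finset.sum_nonneg (fun j _ => by split_ifs <;> positivity)
    by_cases hi : (n : ℝ) * ((n : ℝ) - 1) / 4 ≤ ev i
    · have h1 : Real.exp (-s * ev i) ≤ x ^ (8 * (n - 1)) := by
        apply exp_le_pow hnR hs
        have : ((8 * (n - 1) : ℕ) : ℝ) = 8 * ((n : ℝ) - 1) := by
          rw [Nat.cast_mul, Nat.cast_sub (by omega)]
          simp
        rw [this]
        calc 8 * ((n : ℝ) - 1) * n / 32 = (n : ℝ) * ((n : ℝ) - 1) / 4 := by ring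
          _ ≤ ev i := hi
      linarith
    · push Not at hi
      set j := ⌊2 * ev i / (n : ℝ)⌋₊ with hj
      have hq : 0 ≤ 2 * ev i / (n : ℝ) := div_nonneg (by linarith [hev i]) hn0.le
      have h1 : (j : ℝ) ≤ 2 * ev i / (n : ℝ) := Nat.floor_le hq
      have h2 : 2 * ev i / (n : ℝ) < (j : ℝ) + 1 := Nat.lt_floor_add_one _
      have h1' : (j : ℝ) * n / 2 ≤ ev i := by
        rw [le_div_iff₀ hn0] at h1
        linarith
      have h2' : ev i < ((j : ℝ) + 1) * (n : ℝ) / 2 := by
        rw [div_lt_iff₀ hn0] at h2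
        linarith
      have hjn : j ≤ n := by
        have : (j : ℝ) * n / 2 < (n : ℝ) * ((n : ℝ) - 1) / 4 := lt_of_le_of_lt h1' hi
        have h3 : (j : ℝ) < (n : ℝ) := by
          by_contra hcon
          push Not at hcon
          nlinarith
        exact (Nat.cast_lt.1 h3).le
      have hmem : j ∈ range (n + 1) := Finset.mem_range.2 (by omega)
      have hiI : i ∈ I j := Finset.mem_filter.2 ⟨Finset.mem_univ _, h2', hi⟩
      have h3 : Real.exp (-s * ev i) ≤ x ^ (16 * j) := by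
        apply exp_le_pow hnR hs
        have : ((16 * j : ℕ) : ℝ) = 16 * (j : ℝ) := by push_cast; ring
        rw [this]
        calc 16 * (j : ℝ) * n / 32 = (j : ℝ) * n / 2 := by ring
          _ ≤ ev i := h1'
      have h4 : x ^ (16 * j) ≤ ∑ j ∈ range (n + 1), (if i ∈ I j then x ^ (16 * j) else 0) := by
        have := Finset.single_le_sum (f := fun j => if i ∈ I j then x ^ (16 * j) else 0)
          (s := range (n + 1)) (fun j _ => by
            show 0 ≤ if i ∈ I j then x ^ (16 * j) else 0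
            split_ifs <;> positivity) hmem
        simpa [hiI] using this
      have h5 : 0 ≤ x ^ (8 * (n - 1)) := by positivity
      linarith
  have hsum1 : ∑ i, ∑ j ∈ range (n + 1), (if i ∈ I j then x ^ (16 * j) else 0)
      = ∑ j ∈ range (n + 1), ((I j).card : ℝ) * x ^ (16 * j) := by
    rw [Finset.sum_comm]
    apply Finset.sum_congr rfl
    intro j _
    rw [Finset.sum_ite_mem, Finset.univ_inter, Finset.sum_const, nsmul_eq_mul]
  have hterm : ∀ j ∈ range (n + 1), ((I j).card : ℝ) * x ^ (16 * j) ≤ (1 / 16384 : ℝ) ^ j := by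
    intro j hj
    have hj' : j ≤ n := by
      have := Finset.mem_range.1 hj
      omega
    have h1 : ((I j).card : ℝ) ≤ (n : ℝ) ^ (2 * j) := by exact_mod_cast hIcard j hj'
    have h2 : (n : ℝ) ^ (2 * j) * x ^ (16 * j) = x ^ (14 * j) := by
      have : x ^ (16 * j) = x ^ (2 * j) * x ^ (14 * j) := by
        rw [← pow_add]; congr 1; ring
      rw [this, ← mul_assoc, ← mul_pow, hnx, one_pow, one_mul]
    have h3 : x ^ (14 * j) ≤ (1 / 16384 : ℝ) ^ j := by
      rw [pow_mul]
      apply pow_le_pow_left₀ (by positivity)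
      calc x ^ 14 ≤ (1 / 2 : ℝ) ^ 14 := pow_le_pow_left₀ hx0.le hx1 14
        _ = 1 / 16384 := by norm_num
    calc ((I j).card : ℝ) * x ^ (16 * j) ≤ (n : ℝ) ^ (2 * j) * x ^ (16 * j) :=
          mul_le_mul_of_nonneg_right h1 (by positivity)
      _ = x ^ (14 * j) := h2
      _ ≤ _ := h3
  have hgeom : ∑ j ∈ range (n + 1), (1 / 16384 : ℝ) ^ j ≤ 9 / 8 := by
    have h1 := mul_neg_geom_sum (1 / 16384 : ℝ) (n + 1)
    have h2 : (0 : ℝ) < (1 / 16384 : ℝ) ^ (n + 1) := by positivity
    have h3 : (1 - 1 / 16384 : ℝ) * ∑ j ∈ range (n + 1), (1 / 16384 : ℝ) ^ j ≤ 1 := by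
      rw [h1]; linarith
    have h4 : (0 : ℝ) ≤ ∑ j ∈ range (n + 1), (1 / 16384 : ℝ) ^ j :=
      Finset.sum_nonneg (fun j _ => by positivity)
    nlinarith
  have hcardι : (Fintype.card ι : ℝ) ≤ (n : ℝ) ^ n := by
    have h1 : Module.finrank ℝ V = Fintype.card ι := by
      rw [Module.finrank_eq_card_basis b.toBasis]
    have h2 : Fintype.card ι ≤ n ^ n := by rw [← h1]; exact hdim
    exact_mod_cast h2
  have hhigh : (Fintype.card ι : ℝ) * x ^ (8 * (n - 1)) ≤ 1 / 8 := by
    have h1 : x ^ (8 * (n - 1)) = x ^ n * x ^ (7 * n - 8) := by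
      rw [← pow_add]; congr 1; omega
    have h2 : (n : ℝ) ^ n * x ^ n = 1 := by rw [← mul_pow, hnx, one_pow]
    have h3 : x ^ (7 * n - 8) ≤ 1 / 8 := by
      have h4 : x ^ (7 * n - 8) ≤ x ^ 3 := pow_le_pow_of_le_one hx0.le (by linarith) (by omega)
      have h5 : x ^ 3 ≤ (1 / 2 : ℝ) ^ 3 := pow_le_pow_left₀ hx0.le hx1 3
      have h6 : (1 / 2 : ℝ) ^ 3 = 1 / 8 := by norm_num
      linarith
    calc (Fintype.card ι : ℝ) * x ^ (8 * (n - 1)) ≤ (n : ℝ) ^ n * x ^ (8 * (n - 1)) :=
          mul_le_mul_of_nonneg_right hcardι (by positivity)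
      _ = x ^ (7 * n - 8) := by rw [h1, ← mul_assoc, h2, one_mul]
      _ ≤ 1 / 8 := h3
  calc ∑ i, Real.exp (-s * ev i)
      ≤ ∑ i, (∑ j ∈ range (n + 1), (if i ∈ I j then x ^ (16 * j) else 0) + x ^ (8 * (n - 1))) :=
        Finset.sum_le_sum (fun i _ => hpoint i)
    _ = ∑ j ∈ range (n + 1), ((I j).card : ℝ) * x ^ (16 * j)
        + (Fintype.card ι : ℝ) * x ^ (8 * (n - 1)) := by
        rw [Finset.sum_add_distrib, hsum1, Finset.sum_const, Finset.card_univ, nsmul_eq_mul]
    _ ≤ 9 / 8 + 1 / 8 := by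
        apply add_le_add _ hhigh
        exact le_trans (Finset.sum_le_sum hterm) hgeom
    _ = 5 / 4 := by norm_num

end Vale.Agent.Lib.P162L2.C
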